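import Crest.Prelude.Def_GRegExp

/-!
# R320: languages of bounded generalized star height

`Ht n A` says that the set of words `A` is denoted by a generalized regular expression of star
height at most `n`.  Closure properties.
-/

set_option autoImplicit false

namespace Crest.Agent.R320

open Crest.RegLang

universe u v

variable {α : Type u}

/-- `A` has generalized star height at most `n`. -/
def Ht (n : ℕ) (A : Set (List α)) : Prop :=
  ∃ e : GRegExp α, e.height ≤ n ∧ (e.lang : Set (List α)) = A

/-- Concatenation of two sets of words. -/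
def cat (A B : Set (List α)) : Set (List α) := {w | ∃ u ∈ A, ∃ v ∈ B, w = u ++ v}

/-- Kleene star of a set of words. -/
def star (A : Set (List α)) : Set (List α) :=
  {w | ∃ l : List (List α), (∀ p ∈ l, p ∈ A) ∧ w = l.flatten}

theorem Ht.mono {n m : ℕ} {A : Set (List α)} (h : Ht n A) (hnm : n ≤ m) : Ht m A := by
  obtain ⟨e, he, hA⟩ := h
  exact ⟨e, he.trans hnm, hA⟩

theorem Ht.congr {n : ℕ} {A B : Set (List α)} (h : Ht n A) (hAB : ∀ w, w ∈ A ↔ w ∈ B) :
    Ht n B := by
  have : A = B := Set.ext hAB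
  exact this ▸ h

theorem ht_empty (n : ℕ) : Ht n (∅ : Set (List α)) :=
  ⟨.zero, Nat.zero_le _, rfl⟩

theorem Ht.union {n : ℕ} {A B : Set (List α)} (hA : Ht n A) (hB : Ht n B) : Ht n (A ∪ B) := by
  obtain ⟨e, he, rfl⟩ := hA
  obtain ⟨f, hf, rfl⟩ := hB
  exact ⟨.union e f, max_le he hf, rfl⟩

theorem Ht.compl {n : ℕ} {A : Set (List α)} (hA : Ht n A) : Ht n Aᶜ := by
  obtain ⟨e, he, rfl⟩ := hA
  exact ⟨.not e, he, rfl⟩

theorem ht_univ (n : ℕ) : Ht n (Set.univ : Set (List α)) := by
  simpa using (ht_empty (α := α) n).compl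

theorem Ht.inter {n : ℕ} {A B : Set (List α)} (hA : Ht n A) (hB : Ht n B) : Ht n (A ∩ B) := by
  have := (hA.compl.union hB.compl).compl
  rwa [Set.compl_union, compl_compl, compl_compl] at this

theorem Ht.diff {n : ℕ} {A B : Set (List α)} (hA : Ht n A) (hB : Ht n B) : Ht n (A \ B) :=
  hA.inter hB.compl

theorem Ht.cat {n : ℕ} {A B : Set (List α)} (hA : Ht n A) (hB : Ht n B) : Ht n (cat A B) := by
  obtain ⟨e, he, rfl⟩ := hA
  obtain ⟨f, hf, rfl⟩ := hB
  refine ⟨.cat e f, max_le he hf, ?_⟩
  ext w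
  constructor
  · intro hw
    obtain ⟨u, hu, v, hv, h⟩ := Language.mem_mul.1 hw
    exact ⟨u, hu, v, hv, h.symm⟩
  · rintro ⟨u, hu, v, hv, h⟩
    exact Language.mem_mul.2 ⟨u, hu, v, hv, h.symm⟩

theorem Ht.star {n : ℕ} {A : Set (List α)} (hA : Ht n A) : Ht (n + 1) (star A) := by
  obtain ⟨e, he, rfl⟩ := hA
  refine ⟨.star e, Nat.succ_le_succ he, ?_⟩
  ext w
  constructor
  · intro hw
    obtain ⟨l, h1, h2⟩ := Language.mem_kstar.1 hw
    exact ⟨l, h2, h1⟩
  · rintro ⟨l, h1, h2⟩
    exact Language.mem_kstar.2 ⟨l, h2, h1⟩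

theorem ht_word (n : ℕ) (w : List α) : Ht n ({w} : Set (List α)) := by
  induction w with
  | nil => exact ⟨.eps, Nat.zero_le _, rfl⟩
  | cons a w ih =>
    have h1 : Ht n ({[a]} : Set (List α)) := ⟨.char a, Nat.zero_le _, rfl⟩
    refine (h1.cat ih).congr fun x => ?_
    simp [R320.cat]

/-- The nonempty words. -/
theorem ht_ne_nil (n : ℕ) : Ht n {w : List α | w ≠ []} :=
  (ht_word n []).compl.congr fun w => by simp

theorem ht_biUnion {ι : Type v} {n : ℕ} {s : Set ι} (hs : s.Finite) {A : ι → Set (List α)}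
    (h : ∀ i ∈ s, Ht n (A i)) : Ht n (⋃ i ∈ s, A i) := by
  induction s, hs using Set.Finite.induction_on with
  | empty => simpa using ht_empty n
  | insert _ _ ih =>
    rw [Set.biUnion_insert]
    exact (h _ (Set.mem_insert _ _)).union (ih fun i hi => h i (Set.mem_insert_of_mem _ hi))

theorem ht_iUnion {ι : Type v} [Finite ι] {n : ℕ} {A : ι → Set (List α)}
    (h : ∀ i, Ht n (A i)) : Ht n (⋃ i, A i) := by
  have := ht_biUnion (Set.finite_univ (α := ι)) (A := A) fun i _ => h i
  simpa using this

theorem ht_biInter {ι : Type v} {n : ℕ} {s : Set ι} (hs : s.Finite) {A : ι → Set (List α)}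
    (h : ∀ i ∈ s, Ht n (A i)) : Ht n (⋂ i ∈ s, A i) := by
  have := (ht_biUnion hs (A := fun i => (A i)ᶜ) fun i hi => (h i hi).compl).compl
  simpa using this

theorem ht_finite (n : ℕ) {A : Set (List α)} (hA : A.Finite) : Ht n A := by
  have := ht_biUnion (n := n) hA (A := fun w => ({w} : Set (List α))) fun w _ => ht_word n w
  simpa using this

/-! ### Thin words -/

/-- `w` has period `P`. -/
def Per (P : ℕ) (w : List α) : Prop := ∀ i, i + P < w.length → w[i]? = w[i + P]?

/-- `w` is a concatenation of `n` words of period `P`. -/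
def Thin (P : ℕ) : ℕ → List α → Prop
  | 0, w => w = []
  | n + 1, w => ∃ u v, w = u ++ v ∧ Per P u ∧ Thin P n v

theorem per_of_length {P : ℕ} {w : List α} (h : w.length ≤ P) : Per P w :=
  fun i hi => by omega

theorem Per.take {P : ℕ} {w : List α} (h : Per P w) (j : ℕ) : Per P (w.take j) := by
  intro i hi
  rw [List.length_take] at hi
  rw [List.getElem?_take_of_lt (by omega), List.getElem?_take_of_lt (by omega)]
  exact h i (by omega)

theorem Per.drop {P : ℕ} {w : List α} (h : Per P w) (j : ℕ) : Per P (w.drop j) := by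
  intro i hi
  rw [List.length_drop] at hi
  rw [List.getElem?_drop, List.getElem?_drop, ← Nat.add_assoc]
  exact h (j + i) (by omega)

theorem thin_nil (P n : ℕ) : Thin P n ([] : List α) := by
  induction n with
  | zero => rfl
  | succ n ih => exact ⟨[], [], rfl, per_of_length (Nat.zero_le _), ih⟩

theorem Thin.append {P m n : ℕ} {u v : List α} (hu : Thin P m u) (hv : Thin P n v) :
    Thin P (m + n) (u ++ v) := by
  induction m generalizing u with
  | zero =>
    obtain rfl : u = [] := hu
    simpa using hv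
  | succ m ih =>
    obtain ⟨a, b, rfl, ha, hb⟩ := hu
    rw [Nat.add_right_comm]
    exact ⟨a, b ++ v, by simp, ha, ih hb⟩

theorem Thin.mono {P m n : ℕ} {w : List α} (hw : Thin P m w) (h : m ≤ n) : Thin P n w := by
  obtain ⟨d, rfl⟩ := Nat.exists_eq_add_of_le h
  simpa using hw.append (thin_nil P d)

theorem Per.thin {P : ℕ} {w : List α} (h : Per P w) : Thin P 1 w :=
  ⟨w, [], by simp, h, rfl⟩

theorem thin_of_length {P n : ℕ} (hP : 0 < P) {w : List α} (h : w.length ≤ n) : Thin P n w := by
  induction w generalizing n with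
  | nil => exact thin_nil P n
  | cons a w ih =>
    obtain ⟨n, rfl⟩ : ∃ m, n = m + 1 := ⟨n - 1, by simp at h; omega⟩
    exact ⟨[a], w, rfl, per_of_length (Nat.succ_le_of_lt hP), ih (by simpa using h)⟩

theorem Thin.take {P n : ℕ} {w : List α} (hw : Thin P n w) (j : ℕ) : Thin P n (w.take j) := by
  induction n generalizing w j with
  | zero =>
    obtain rfl : w = [] := hw
    simpa using thin_nil P 0
  | succ n ih =>
    obtain ⟨a, b, rfl, ha, hb⟩ := hw
    exact ⟨a.take j, b.take (j - a.length), List.take_append .., ha.take j, ih hb _⟩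

theorem Thin.drop {P n : ℕ} {w : List α} (hw : Thin P n w) (j : ℕ) : Thin P n (w.drop j) := by
  induction n generalizing w j with
  | zero =>
    obtain rfl : w = [] := hw
    simpa using thin_nil P 0
  | succ n ih =>
    obtain ⟨a, b, rfl, ha, hb⟩ := hw
    exact ⟨a.drop j, b.drop (j - a.length), List.drop_append .., ha.drop j, ih hb _⟩

theorem thin_flatten {P n : ℕ} {cs : List (List α)} (h : ∀ c ∈ cs, Thin P n c) :
    Thin P (cs.length * n) cs.flatten := by
  induction cs with
  | nil => simpa using thin_nil P 0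
  | cons c cs ih =>
    have := (h c (by simp)).append (ih fun d hd => h d (by simp [hd]))
    rw [List.length_cons, Nat.succ_mul, Nat.add_comm]
    simpa using this

/-! ### Runs of a deterministic machine `δ` with a base state `s0` -/

variable {σ : Type v}

/-- The run from `s` on `w` is in the base state `s0` at some position strictly inside `w`. -/
def Visit (δ : σ → α → σ) (s0 s : σ) (w : List α) : Prop :=
  ∃ j, 0 < j ∧ j < w.length ∧ (w.take j).foldl δ s = s0

/-- Every state of `LL` either visits `s0` strictly inside `v` or is sent to `y` by `v`. -/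
def Sync (δ : σ → α → σ) (s0 : σ) (LL : Set σ) (v : List α) (y : σ) : Prop :=
  ∀ t ∈ LL, Visit δ s0 t v ∨ v.foldl δ t = y

/-- From a state of `B`, a word is thin, or it starts with a thin word leading to `LL`, followed
by a nonempty thin synchronizing word leading back to `B`. -/
def Step (δ : σ → α → σ) (s0 : σ) (LL B : Set σ) (P n : ℕ) : Prop :=
  ∀ s ∈ B, ∀ w : List α, Thin P n w ∨ ∃ l v w', w = l ++ v ++ w' ∧ Thin P n l ∧ Thin P n v ∧
    v ≠ [] ∧ l.foldl δ s ∈ LL ∧ Sync δ s0 LL v ((l ++ v).foldl δ s) ∧ (l ++ v).foldl δ s ∈ B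

end Crest.Agent.R320
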