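import Crest.Agent.R320.BlockIdx

/-!
# R320: the colouring of a block (list form)
-/

set_option autoImplicit false

namespace Crest.Agent.R320

/-- Block data: a block is a list of `k` pairs (letter, message).  A message is `Φ C` for a set
`C` of at most `D` claims (left list, right list). -/
structure Block (G V : Type) (D : ℕ) where
  M : Type
  fin : Finite M
  k : ℕ
  two_le : 2 ≤ k
  X : ℕ → V
  z : List (G × M) → V
  Φ : Set (List (G × M) × List (G × M)) → M
  fire : ∀ (C : Set (List (G × M) × List (G × M))), C.Finite → C.ncard ≤ D →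
    ∀ (lam rho rho' : List (G × M)) (a : G), (lam, rho') ∈ C → rho <+: rho' →
      lam.length + 1 + rho.length = k → z (lam ++ (a, Φ C) :: rho) = X lam.length
  twist : ∀ ys : List (G × M), ys.length = k → ∀ x : V, ∃ lam a m rho,
    ys = lam ++ (a, m) :: rho ∧ X lam.length = x ∧
      ∀ a', a' ≠ a → z (lam ++ (a', m) :: rho) = x

/-- Enumeration of a finite set of at most `D` elements. -/
theorem exists_enum {β : Type} [Nonempty β] (D : ℕ) :
    ∃ en : Set β → Fin D → β, ∀ C : Set β, C.Finite → C.ncard ≤ D → ∀ c ∈ C, ∃ i, en C i = c := by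
  classical
  have key : ∀ C : Set β, ∃ e : Fin D → β, C.Finite → C.ncard ≤ D → ∀ c ∈ C, ∃ i, e i = c := by
    intro C
    by_cases h : C.Finite ∧ C.ncard ≤ D
    · obtain ⟨hf, hD⟩ := h
      refine ⟨fun i => hf.toFinset.toList.getD i (Classical.arbitrary β), fun _ _ c hc => ?_⟩
      have hmem : c ∈ hf.toFinset.toList := by simpa using hc
      obtain ⟨j, hj, hjc⟩ := List.getElem_of_mem hmem
      have hlen : hf.toFinset.toList.length ≤ D := by
        rw [Finset.length_toList, ← Set.ncard_eq_toFinset_card C hf]; exact hD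
      refine ⟨⟨j, by omega⟩, ?_⟩
      simp only
      rw [List.getD_eq_getElem _ _ hj, hjc]
    · exact ⟨fun _ => Classical.arbitrary β, fun h1 h2 => absurd ⟨h1, h2⟩ h⟩
  choose en hen using key
  exact ⟨en, hen⟩

theorem getD_mid_ne {β : Type} (d x y : β) (lam rho rho' : List β) (hp : rho <+: rho') (t : ℕ)
    (ht : t < lam.length + 1 + rho.length) (hne : t ≠ lam.length) :
    (lam ++ x :: rho').getD t d = (lam ++ y :: rho).getD t d := by
  obtain ⟨e, rfl⟩ := hp
  rw [List.getD_eq_getElem?_getD, List.getD_eq_getElem?_getD]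
  rcases lt_or_gt_of_ne hne with h | h
  · rw [List.getElem?_append_left h, List.getElem?_append_left h]
  · rw [List.getElem?_append_right h.le, List.getElem?_append_right h.le]
    obtain ⟨j, hj⟩ : ∃ j, t - lam.length = j + 1 := ⟨t - lam.length - 1, by omega⟩
    rw [hj, List.getElem?_cons_succ, List.getElem?_cons_succ,
      List.getElem?_append_left (by omega)]

theorem getD_mid_eq {β : Type} (d x : β) (lam rho : List β) :
    (lam ++ x :: rho).getD lam.length d = x := by
  rw [List.getD_eq_getElem?_getD, List.getElem?_append_right le_rfl]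
  simp

/-- Proof.  Take `k, M₀, X₀, z₀, Φ₀` from `block_idx`, `M = Fin k → M₀`, a dummy `d : G × M`,
`vec ys t = ((ys.getD t d).1, (ys.getD t d).2 t) : G × M₀` for `t : Fin k`, `z ys = z₀ (vec ys)`,
`X n = if h : n < k then X₀ ⟨n, h⟩ else 0`.  For a set `C` choose `en C : Fin D → List _ × List _`
whose range contains `C` whenever `C` is finite with `ncard ≤ D`, and let
`Φ C s = Φ₀ s (fun i => vec ((en C i).1 ++ d :: (en C i).2))`.  For `fire` use `s = lam.length`:
the lists `lam ++ d :: rho'` and `lam ++ (a, Φ C) :: rho` agree at all `t < k`, `t ≠ s`.  For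
`twist` split `ys` at the position `s` given for `vec ys` (`lam = ys.take s`,
`rho = ys.drop (s + 1)`); `vec (lam ++ (a', m) :: rho) = Function.update (vec ys) s (a', m s)`. -/
theorem block_exists (G V : Type) [Finite G] [Nonempty G] [AddCommGroup V] [Finite V]
    (h2 : ∀ v : V, ∃ d, d + d = v) (D : ℕ) : Nonempty (Block G V D) := by
  classical
  obtain ⟨k, M₀, hfin, hne, X₀, z₀, Φ₀, hk, hfire, htw⟩ := block_idx G V h2 D
  let M : Type := Fin k → M₀
  let d : G × M := (Classical.arbitrary G, fun _ => Classical.arbitrary M₀)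
  let vec : List (G × M) → Fin k → G × M₀ := fun ys t => ((ys.getD t d).1, (ys.getD t d).2 t)
  obtain ⟨en, hen⟩ := exists_enum (β := List (G × M) × List (G × M)) D
  refine ⟨⟨M, inferInstance, k, hk, fun n => if h : n < k then X₀ ⟨n, h⟩ else 0,
    fun ys => z₀ (vec ys),
    fun C s => Φ₀ s (fun i => vec ((en C i).1 ++ d :: (en C i).2)), ?_, ?_⟩⟩
  · intro C hC hD lam rho rho' a hmem hp hlen
    obtain ⟨i, hi⟩ := hen C hC hD _ hmem
    have hs : lam.length < k := by omega
    rw [dif_pos hs]
    refine hfire _ ⟨lam.length, hs⟩ (fun i => vec ((en C i).1 ++ d :: (en C i).2)) i ?_ ?_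
    · simp only [vec]
      rw [getD_mid_eq]
    · intro t ht
      have hne' : (t : ℕ) ≠ lam.length := fun h => ht (Fin.ext h)
      simp only [vec, hi]
      rw [getD_mid_ne d d _ lam rho rho' hp t (by omega) hne']
  · intro ys hys x
    obtain ⟨s, hsx, hs⟩ := htw (vec ys) x
    have hsl : (s : ℕ) < ys.length := by omega
    have hsplit : ys = ys.take s ++ ys[(s : ℕ)] :: ys.drop (s + 1) := by
      rw [List.cons_getElem_drop_succ, List.take_append_drop]
    have hlen : (ys.take s).length = s := by
      rw [List.length_take]; omega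
    have hget : ys.getD s d = ys[(s : ℕ)] := List.getD_eq_getElem _ _ hsl
    refine ⟨ys.take s, ys[(s : ℕ)].1, ys[(s : ℕ)].2, ys.drop (s + 1), hsplit, ?_, ?_⟩
    · rw [hlen, dif_pos s.2]
      exact hsx
    · intro a' ha'
      have h1 : (vec ys s).1 = ys[(s : ℕ)].1 := by simp only [vec, hget]
      have h2' : (vec ys s).2 = ys[(s : ℕ)].2 s := by simp only [vec, hget]
      have hv : vec (ys.take s ++ (a', ys[(s : ℕ)].2) :: ys.drop (s + 1))
          = Function.update (vec ys) s (a', (vec ys s).2) := by
        funext t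
        by_cases hts : t = s
        · subst hts
          rw [Function.update_self, h2']
          have := getD_mid_eq d (a', ys[(t : ℕ)].2) (ys.take t) (ys.drop (t + 1))
          rw [hlen] at this
          simp only [vec, this]
        · rw [Function.update_of_ne hts]
          have hne' : (t : ℕ) ≠ (ys.take s).length := by
            rw [hlen]; exact fun h => hts (Fin.ext h)
          have := getD_mid_ne d (a', ys[(s : ℕ)].2) ys[(s : ℕ)] (ys.take s) (ys.drop (s + 1))
            (ys.drop (s + 1)) (List.prefix_refl _) t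
            (by rw [hlen, List.length_drop]; have := t.2; omega) hne'
          rw [← hsplit] at this
          simp only [vec, this]
      show z₀ (vec _) = x
      rw [hv]
      exact hs a' (by rw [h1]; exact ha')

end Crest.Agent.R320
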