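import Mathlib

/-!
# R320: the colouring of a block (index form)
-/

set_option autoImplicit false

namespace Crest.Agent.R320

/-- messages -/
abbrev BMsg (G : Type) (k D : ℕ) : Type := (Fin D → Fin k → G) × (Fin k → Fin D → Fin D → Bool)

/-- the `i`-th claim of `t` is consistent with the cell `t'` -/
def BMatch {G : Type} {k D : ℕ} (y : Fin k → G × BMsg G k D) (t : Fin k) (i : Fin D) (t' : Fin k) :
    Prop :=
  (y t).2.1 i t' = (y t').1 ∧ ∀ j, (y t).2.2 t' i j = xor (decide (t' < t)) ((y t').2.2 t j i)

theorem bmatch_conflict {G : Type} {k D : ℕ} {y : Fin k → G × BMsg G k D} {t t' : Fin k}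
    {i j : Fin D} (h : t ≠ t') (h1 : BMatch y t i t') (h2 : BMatch y t' j t) : False := by
  have h3 := h1.2 j
  rw [h2.2 i] at h3
  rcases lt_or_gt_of_ne h with h | h
  · simp [h, h.not_gt] at h3
  · simp [h, h.not_gt] at h3

theorem bmatch_danger {G : Type} {k D : ℕ} (y : Fin k → G × BMsg G k D)
    (ι : Fin (2 * D + 2) → Fin k) (hι : Function.Injective ι) :
    ∃ c, ¬ ∃ t i, t ≠ ι c ∧ ¬ BMatch y t i (ι c) ∧ ∀ t', t' ≠ t → t' ≠ ι c → BMatch y t i t' := by
  classical
  by_contra h
  push Not at h
  choose t i h1 h2 h3 using h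
  have hinj : Set.InjOn (fun c => (t c, i c)) Set.univ := by
    intro c _ c' _ e
    obtain ⟨e1, e2⟩ := Prod.mk.inj e
    by_contra hne
    exact h2 c' (e1 ▸ e2 ▸ h3 c _ (e1 ▸ (h1 c').symm) fun e' => hne (hι e').symm)
  have h4 : (Finset.univ.filter fun c => ι c ≠ t 0).card ≤
      (({t 0, ι 0} : Finset (Fin k)) ×ˢ (Finset.univ : Finset (Fin D))).card := by
    refine Finset.card_le_card_of_injOn (fun c => (t c, i c)) (fun c hc => ?_)
      (hinj.mono (Set.subset_univ _))
    have hc' : ι c ≠ t 0 := by simpa using hc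
    by_contra hn
    have hn' : t c ≠ t 0 ∧ t c ≠ ι 0 := by simpa using hn
    exact bmatch_conflict hn'.1 (h3 c _ hn'.1.symm hc'.symm) (h3 0 _ hn'.1 hn'.2)
  have h5 : (Finset.univ.filter fun c => ι c = t 0).card ≤ 1 :=
    Finset.card_le_one.2 fun a ha b hb =>
      hι ((Finset.mem_filter.1 ha).2.trans (Finset.mem_filter.1 hb).2.symm)
  have h6 := Finset.card_filter_add_card_filter_not (s := Finset.univ) fun c => ι c = t 0
  have h7 : ({t 0, ι 0} : Finset (Fin k)).card ≤ 2 := Finset.card_le_two
  rw [Finset.card_product, Finset.card_univ, Fintype.card_fin] at h4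
  rw [Finset.card_univ, Fintype.card_fin] at h6
  have h8 := h4.trans (Nat.mul_le_mul_right D h7)
  simp only [ne_eq] at h8
  omega

theorem block_aux (G V T : Type) [Fintype G] [AddCommGroup V] [AddCommGroup T]
    (h2 : ∀ v : V, ∃ d, d + d = v) (hT : ∀ t : T, t + t = 0) (F : T → V)
    (hF : Function.Surjective F) (D k : ℕ) (e : Fin k ≃ V × (G → T) × Fin (2 * D + 2)) :
    ∃ (z : (Fin k → G × BMsg G k D) → V)
      (Φ : Fin k → (Fin D → Fin k → G × BMsg G k D) → BMsg G k D),
      (∀ y s c i, (y s).2 = Φ s c → (∀ t, t ≠ s → c i t = y t) → z y = (e s).1) ∧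
      (∀ y x, ∃ s, (e s).1 = x ∧
        ∀ a, a ≠ (y s).1 → z (Function.update y s (a, (y s).2)) = x) := by
  classical
  let τ : (Fin k → G × BMsg G k D) → G → T := fun y g =>
    ∑ s, if (y s).1 = g then (e s).2.1 g else 0
  let z : (Fin k → G × BMsg G k D) → V := fun y =>
    if h : ∃ t i, ∀ t', t' ≠ t → BMatch y t i t' then (e h.choose).1 else ∑ g, F (τ y g)
  have hz : ∀ y s i, (∀ t', t' ≠ s → BMatch y s i t') → z y = (e s).1 := by
    intro y s i hs
    have h : ∃ t i, ∀ t', t' ≠ t → BMatch y t i t' := ⟨s, i, hs⟩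
    obtain ⟨j, hj⟩ := h.choose_spec
    simp only [z, dif_pos h]
    by_contra hne
    have hne' : h.choose ≠ s := fun e' => hne (by rw [e'])
    exact bmatch_conflict hne' (hj s hne'.symm) (hs _ hne')
  refine ⟨z, fun s c => (fun i t => (c i t).1, fun t i j => xor (decide (t < s)) ((c i t).2.2 s j i)),
    fun y s c i h1 h3 => hz y s i fun t ht => ?_, fun y x => ?_⟩
  · rw [BMatch, h1, ← h3 t ht]
    exact ⟨rfl, fun _ => rfl⟩
  · obtain ⟨δ, hδ⟩ := h2 (x - ∑ g, F (τ y g))
    choose u hu using fun g => hF (F (τ y g) + δ)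
    obtain ⟨c, hc⟩ := bmatch_danger y (fun c => e.symm (x, fun g => u g - τ y g, c))
      fun c c' h => by simpa using h
    obtain ⟨s, hs⟩ : ∃ s, s = e.symm (x, fun g => u g - τ y g, c) := ⟨_, rfl⟩
    rw [← hs] at hc
    have hs1 : (e s).1 = x := by rw [hs, e.apply_symm_apply]
    have hs2 : ∀ g, (e s).2.1 g = u g - τ y g := fun g => by rw [hs, e.apply_symm_apply]
    refine ⟨s, hs1, fun a ha => ?_⟩
    by_cases h : ∃ t i, ∀ t', t' ≠ t → BMatch (Function.update y s (a, (y s).2)) t i t'
    · obtain ⟨t, i, ht⟩ := h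
      by_cases hts : t = s
      · subst hts
        rw [hz _ _ i ht, hs1]
      · refine (hc ⟨t, i, hts, fun hm => ha ?_, fun t' h1 h3 => ?_⟩).elim
        · have := (ht s (Ne.symm hts)).1
          rw [Function.update_of_ne hts, Function.update_self] at this
          exact this.symm.trans hm.1
        · have := ht t' h1
          rwa [BMatch, Function.update_of_ne hts, Function.update_of_ne h3] at this
    · simp only [z, dif_neg h]
      have hτ : ∀ g, τ (Function.update y s (a, (y s).2)) g =
          if g = a ∨ g = (y s).1 then u g else τ y g := by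
        intro g
        have e1 : τ (Function.update y s (a, (y s).2)) g + (if (y s).1 = g then (e s).2.1 g else 0) =
            τ y g + if a = g then (e s).2.1 g else 0 := by
          simp only [τ]
          rw [← Finset.add_sum_erase _ _ (Finset.mem_univ s),
            ← Finset.add_sum_erase _ _ (Finset.mem_univ s), Function.update_self,
            Finset.sum_congr rfl fun t ht => by rw [Function.update_of_ne (Finset.mem_erase.1 ht).1]]
          abel
        rw [hs2] at e1
        by_cases h1 : g = a
        · subst h1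
          simpa [ha.symm] using e1
        · by_cases h3 : g = (y s).1
          · subst h3
            rw [if_pos rfl, if_neg ha, add_zero, ← eq_sub_iff_add_eq] at e1
            rw [e1, if_pos (Or.inr rfl), sub_eq_add_neg, neg_eq_of_add_eq_zero_left (hT _)]
            abel
          · simpa [h1, h3, Ne.symm h1, Ne.symm h3] using e1
      have e2 : ∀ g, F (τ (Function.update y s (a, (y s).2)) g) =
          F (τ y g) + ((if g = a then δ else 0) + if g = (y s).1 then δ else 0) := by
        intro g
        rw [hτ]
        by_cases h1 : g = a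
        · subst h1
          simp [ha, hu]
        · by_cases h3 : g = (y s).1
          · subst h3
            simp [h1, hu]
          · simp [h1, h3]
      simp only [e2, Finset.sum_add_distrib, Finset.sum_ite_eq', Finset.mem_univ, if_true, hδ]
      abel

/-- `k` cells, each with a type `X s : V`, a letter in `G` and a message in `M`.  The message of
cell `s` is computed by `Φ s` from `D` claims about the data of all cells.  If one claim of `s` is
right about all other cells then the colour `z` is `X s` (first property).  For every colour `x`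
some cell `s` of type `x` has: every change of the letter of `s` makes the colour `x` (second
property).

Proof.  Let `𝕋 = V → ZMod 2` and `F : 𝕋 → V`, `F t = ∑ v, (t v).val • v` (surjective:
`F (Pi.single v 1) = v`).  Cells: `I = V × (G → 𝕋) × Fin (2 * D + 2)`, `k = Fintype.card I`,
transported along `Fintype.equivFin I`; cell `s = (X s, dir s, copy)`.
Messages: `M = (Fin D → Fin k → G) × (Fin k → Fin D → Fin D → Bool)`;
`Φ s c = (fun i t => (c i t).1, fun t i j => xor (decide (t < s)) ((c i t).2.2 s j i))`.
`Match y t i t'` : `(y t).2.1 i t' = (y t').1` and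
`∀ j, (y t).2.2 t' i j = xor (decide (t' < t)) ((y t').2.2 t j i)`.
`Fire y t i` : `∀ t' ≠ t, Match y t i t'`.  Conflict: for `t ≠ t'` not both `Match y t i t'` and
`Match y t' j t` (the bit would equal its negation).  So at most one cell fires.
`col y = ∑ g, F (τ y g)` with `τ y g = ∑ s, if (y s).1 = g then dir s g else 0`;
`z y = if h : ∃ t, ∃ i, Fire y t i then X h.choose else col y`.
First property: a right claim gives `Fire y s i`.  Second: pick `δ` with `δ + δ = x - col y` and
`d g` with `F (τ y g + d g) = F (τ y g) + δ` (characteristic 2 and surjectivity).  Call `s`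
dangerous if for some `t ≠ s`, `i`: `¬ Match y t i s` and `Match y t i t'` for all `t' ≠ t, s`.
If `(t₀, i₀)` makes `t₁` dangerous, any dangerous `s`, by `(t, i)`, has `s = t₀` or
`t ∈ {t₀, t₁}` (conflict), and `(t, i)` determines `s`; so there are at most `2 * D + 1` dangerous
cells, and one of the `2 * D + 2` cells `(x, d, copy)` is not dangerous.  After changing its
letter `a₀` to `a ≠ a₀`, a cell `t ≠ s` cannot fire (it would make `s` dangerous: the claimed
letter is `a ≠ a₀`), if `s` fires `z = X s = x`, and otherwise `z = col y + δ + δ = x`, as only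
`τ · a₀` and `τ · a` change, by adding `d a₀` and `d a`. -/
theorem block_idx (G V : Type) [Finite G] [AddCommGroup V] [Finite V]
    (h2 : ∀ v : V, ∃ d, d + d = v) (D : ℕ) :
    ∃ (k : ℕ) (M : Type) (_ : Finite M) (_ : Nonempty M) (X : Fin k → V)
      (z : (Fin k → G × M) → V) (Φ : Fin k → (Fin D → Fin k → G × M) → M), 2 ≤ k ∧
      (∀ y s c i, (y s).2 = Φ s c → (∀ t, t ≠ s → c i t = y t) → z y = X s) ∧
      (∀ y x, ∃ s, X s = x ∧ ∀ a, a ≠ (y s).1 → z (Function.update y s (a, (y s).2)) = x) := by
  classical
  have := Fintype.ofFinite G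
  have := Fintype.ofFinite V
  obtain ⟨z, Φ, h⟩ := block_aux G V (V → ZMod 2) h2
    (fun t => funext fun v => CharTwo.add_self_eq_zero (t v)) (fun t => ∑ v, (t v).val • v)
    (fun v => ⟨Pi.single v 1, by
      beta_reduce
      rw [Finset.sum_eq_single v (fun w _ hw => by simp [hw]) (by simp)]
      simp [ZMod.val_one]⟩) D _
    (Fintype.equivFin (V × (G → V → ZMod 2) × Fin (2 * D + 2))).symm
  have hk : 2 ≤ Fintype.card (V × (G → V → ZMod 2) × Fin (2 * D + 2)) :=
    Fintype.one_lt_card_iff_nontrivial.2 inferInstance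
  cases isEmpty_or_nonempty G with
  | inl hG =>
    refine ⟨2, Unit, inferInstance, inferInstance, 0, 0, fun _ _ => (), le_rfl, fun _ _ _ _ _ _ => rfl,
      fun y => hG.elim (y 0).1⟩
  | inr hG => exact ⟨_, _, inferInstance, inferInstance, _, z, Φ, hk, h⟩

end Crest.Agent.R320
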