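import Crest.Agent.R320.Players

/-!
# R320: the offset gadget
-/

set_option autoImplicit false

namespace Crest.Agent.R320

/-- Offsets `f i e l r < W`.  If a left part made for `(i₁, e₁, l₁, r₁)` is glued to a right part
made for `(i₂, e₂, l₂, r₂)`, the total `e` either claims `(l₁, r₂)` or it looks like `e₂`. -/
structure Gadget (Λ R : Type) where
  W : ℕ
  N : ℕ
  N_pos : 0 < N
  H : ℤ → ℤ
  f : Bool → ℤ → Λ → R → ℕ
  cl : Bool → ℤ → Set (Λ × R)
  f_lt : ∀ i e l r, f i e l r < W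
  H_le : ∀ e, H e ≤ e
  lt_H : ∀ e, e < H e + W
  per_H : ∀ e e', (N : ℤ) ∣ e - e' → H e - e = H e' - e'
  per_cl : ∀ i e e', (N : ℤ) ∣ e - e' → cl i e = cl i e'
  cl_card : ∀ i e, (cl i e).ncard ≤ 8
  main : ∀ i₁ e₁ l₁ r₁ i₂ e₂ l₂ r₂ (e : ℤ), e = e₂ + f i₁ e₁ l₁ r₁ - f i₂ e₂ l₂ r₂ →
    (l₁, r₂) ∈ cl i₂ e ∨ (l₁ = l₂ ∧ H e = H e₂ ∧ cl i₂ e = cl i₂ e₂ ∧
      ∀ g, cl (!i₂) (e + g) = cl (!i₂) (e₂ + g))

theorem gad_card {Dg L : Type} [Finite Dg] [Nonempty Dg] [Finite L] (χ : Dg → Option L) :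
    {l | Nat.card Dg ≤ 8 * {c | χ c = some l}.ncard}.ncard ≤ 8 := by
  classical
  cases nonempty_fintype Dg
  cases nonempty_fintype L
  set S : Finset L := Finset.univ.filter fun l => Nat.card Dg ≤ 8 * {c | χ c = some l}.ncard with hS
  have e : {l | Nat.card Dg ≤ 8 * {c | χ c = some l}.ncard} = (S : Set L) := by
    ext l; simp [hS]
  rw [e, Set.ncard_coe_finset]
  have e2 : ∀ l, {c | χ c = some l}.ncard = (Finset.univ.filter fun c => χ c = some l).card := by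
    intro l
    rw [← Set.ncard_coe_finset]
    congr 1
    ext c; simp
  have h1 : ∑ l ∈ S, (Finset.univ.filter fun c => χ c = some l).card ≤ Nat.card Dg := by
    rw [← Finset.card_biUnion, Nat.card_eq_fintype_card]
    · exact Finset.card_le_univ _
    · intro l _ l' _ hne
      rw [Function.onFun, Finset.disjoint_left]
      intro c hc hc'
      simp only [Finset.mem_filter, Finset.mem_univ, true_and] at hc hc'
      exact hne (Option.some.inj (hc.symm.trans hc'))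
  have h2 : S.card * Nat.card Dg ≤ ∑ l ∈ S, 8 * (Finset.univ.filter fun c => χ c = some l).card := by
    rw [← smul_eq_mul]
    refine Finset.card_nsmul_le_sum _ _ _ fun l hl => ?_
    rw [← e2]
    exact (Finset.mem_filter.1 hl).2
  rw [← Finset.mul_sum] at h2
  have h3 : 0 < Nat.card Dg := Nat.card_pos
  exact Nat.le_of_mul_le_mul_right (h2.trans (Nat.mul_le_mul_left 8 h1)) h3

theorem gad_count {Dg L : Type} [Finite Dg] {χ χ₁ χ₂ : Dg → Option L} {R : Set Dg} {l : L}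
    (h1 : ∀ c ∈ R, χ c = χ₁ c) (h2 : ∀ c, c ∉ R → χ c = χ₂ c)
    (h : {c | c ∈ R ∧ χ₁ c = some l}.ncard = {c | c ∈ R ∧ χ₂ c = some l}.ncard) :
    {c | χ c = some l}.ncard = {c | χ₂ c = some l}.ncard := by
  rw [← Set.ncard_inter_add_ncard_sdiff_eq_ncard {c | χ c = some l} R,
    ← Set.ncard_inter_add_ncard_sdiff_eq_ncard {c | χ₂ c = some l} R]
  have e1 : {c | χ c = some l} ∩ R = {c | c ∈ R ∧ χ₁ c = some l} := by
    ext c
    constructor
    · rintro ⟨h, hc⟩; exact ⟨hc, h1 c hc ▸ h⟩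
    · rintro ⟨hc, h⟩; exact ⟨(h1 c hc).trans h, hc⟩
  have e2 : {c | χ₂ c = some l} ∩ R = {c | c ∈ R ∧ χ₂ c = some l} := by
    ext c; exact and_comm
  have e3 : {c | χ c = some l} \ R = {c | χ₂ c = some l} \ R := by
    ext c
    constructor
    · rintro ⟨h, hc⟩; exact ⟨(h2 c hc).symm.trans h, hc⟩
    · rintro ⟨h, hc⟩; exact ⟨(h2 c hc).trans h, hc⟩
  rw [e1, e2, e3, h]

theorem gad_dec (Pl : Type) [Finite Pl] :
    ∃ (M : ℕ) (ix : Pl → ℕ) (dec : ℤ → Option (Pl × Pl)), (∀ π, ix π < M) ∧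
      ∀ π π', dec ((M : ℤ) * ix π + M - ix π') = some (π, π') := by
  classical
  obtain ⟨M, ⟨eq⟩⟩ := Finite.exists_equiv_fin Pl
  refine ⟨M, fun π => eq π, fun v =>
    if h : ∃ q : Pl × Pl, v = (M : ℤ) * (eq q.1 : ℕ) + M - (eq q.2 : ℕ) then some h.choose else none,
    fun π => (eq π).2, fun π π' => ?_⟩
  have h : ∃ q : Pl × Pl, (M : ℤ) * (eq π : ℕ) + M - (eq π' : ℕ) =
      (M : ℤ) * (eq q.1 : ℕ) + M - (eq q.2 : ℕ) := ⟨(π, π'), rfl⟩
  simp only [dif_pos h]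
  have hs := h.choose_spec
  generalize h.choose = q at hs
  obtain ⟨a, b⟩ := q
  simp only at hs
  have h1 := (eq π').2
  have h2 := (eq b).2
  have h3 : (eq π : ℕ) = eq a := by
    rcases lt_trichotomy (eq π : ℕ) (eq a) with hlt | hlt | hlt
    · have : (M : ℤ) * ((eq π : ℕ) + 1) ≤ M * (eq a : ℕ) :=
        mul_le_mul_of_nonneg_left (by exact_mod_cast hlt) (by positivity)
      rw [mul_add] at this
      omega
    · exact hlt
    · have : (M : ℤ) * ((eq a : ℕ) + 1) ≤ M * (eq π : ℕ) :=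
        mul_le_mul_of_nonneg_left (by exact_mod_cast hlt) (by positivity)
      rw [mul_add] at this
      omega
  have h4 : (eq π' : ℕ) = eq b := by
    rw [h3] at hs
    omega
  rw [eq.injective (Fin.ext h3), eq.injective (Fin.ext h4)]

/-- Proof.  `Lb = Λ × R`; `Dg, J, Rs, sel` from `players Lb`; players `Pl = Bool × Lb × J`,
`M = Nat.card Pl`, `ix : Pl → ℕ` injective with `ix π < M`; `C = Bool × Dg`; `N, p, wt, n` from
`digits C (M * M + M + 1)`.  Marks: `val π π' = M * ix π + M - ix π' ∈ [1, M * M + M]` (an integer,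
injective in `(π, π')`); `dec v : Option Lb = if h : ∃ q : Pl × Pl, v = val q.1 q.2 then
some (λ of h.choose.1, ρ of h.choose.2) else none`, so `dec (val π π') = some (π.2.1.1, π'.2.1.2)`.
`χ i e c = dec (n (i, c) e)`; `cl i e = {l | Nat.card Dg ≤ 8 * {c | χ i e c = some l}.ncard}`
(at most 8 labels: the fibres are disjoint and `Nat.card Dg > 0`).
`pl i e l r = (i, (l, r), sel i (l, r) (χ i e))`; for a player `π = (i, β, j)` a digit `c : C` is
right-constant if `c.1 = i ∧ c.2 ∈ Rs i β j`; `al π e c = n c e + ix π` if `c` is right-constant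
and `M * ix π + M` otherwise; `f i e l r = (∑ c, al (pl i e l r) e c * wt c).toNat` (a sum of
nonnegative terms, each at most `2 * p c * wt c = 2 * N`); `H e = e - ∑ c, n c e * wt c`;
`W = 2 * card C * N + 1`.
`main`: `e = e₂ + ∑ c, (al π₁ e₁ c - al π₂ e₂ c) * wt c`, so
`n c e = (n c e₂ + al π₁ e₁ c - al π₂ e₂ c) % p c`.  If `π₁ ≠ π₂`, every `c ∈ Rs π₂ \ Rs π₁` has
`(i₂, c)` right-constant for `π₂` and not for `π₁`, so `n (i₂, c) e = val π₁ π₂` and
`χ i₂ e c = some (l₁, r₂)`.  If `π₁ = π₂`, then `n c e = n c e₁` on right-constant digits and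
`n c e = n c e₂` on the others; so `H e = H e₂`, the label counts of `e` and `e₂` agree (split
along `Rs`; second property of `players` with `χ i e₁`, `χ i e₂`), and for `c = (!i₂, c')` the
shift is `0`, so `n c (e + g) = n c (e₂ + g)`. -/
theorem gadget_exists (Λ R : Type) [Finite Λ] [Finite R] : Nonempty (Gadget Λ R) := by
  classical
  obtain ⟨Dg, J, _, _, _, Rs, sel, hfar, hsel⟩ := players (Λ × R)
  obtain ⟨M, ix, dec, hix, hdec⟩ := gad_dec (Bool × (Λ × R) × J)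
  cases nonempty_fintype Dg
  obtain ⟨N, p, wt, n, hN, hp, hwt, hn, hadd, hper⟩ := digits (Bool × Dg) (M * M + M + 1)
  obtain ⟨χ, hχ⟩ : ∃ χ : Bool → ℤ → Dg → Option (Λ × R), ∀ i e c,
      χ i e c = (dec (n (i, c) e)).map fun q => (q.1.2.1.1, q.2.2.1.2) := ⟨_, fun _ _ _ => rfl⟩
  obtain ⟨al, hal1, hal2⟩ : ∃ al : Bool × (Λ × R) × J → ℤ → Bool × Dg → ℤ,
      (∀ π e c, (c.1 = π.1 ∧ c.2 ∈ Rs π.1 π.2.1 π.2.2) → al π e c = n c e + ix π) ∧
      (∀ π e c, ¬ (c.1 = π.1 ∧ c.2 ∈ Rs π.1 π.2.1 π.2.2) → al π e c = (M : ℤ) * ix π + M) :=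
    ⟨fun π e c => if c.1 = π.1 ∧ c.2 ∈ Rs π.1 π.2.1 π.2.2 then n c e + ix π else (M : ℤ) * ix π + M,
      fun π e c h => if_pos h, fun π e c h => if_neg h⟩
  have hp' : ∀ c, (M : ℤ) * M + M + 1 ≤ p c := fun c => by exact_mod_cast hp c
  have hM : ∀ π, (M : ℤ) * ix π + M ≤ M * M := fun π => by
    have : (M : ℤ) * ((ix π : ℕ) + 1) ≤ M * M :=
      mul_le_mul_of_nonneg_left (by exact_mod_cast hix π) (by positivity)
    linarith
  have hMM : (0 : ℤ) ≤ (M : ℤ) * M := by positivity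
  have hal : ∀ π e c, 0 ≤ al π e c ∧ al π e c ≤ 2 * p c := by
    intro π e c
    have a1 := hn c e
    have a2 := hp' c
    have a3 := hM π
    have a4 := hix π
    by_cases h : c.1 = π.1 ∧ c.2 ∈ Rs π.1 π.2.1 π.2.2
    · rw [hal1 π e c h]
      omega
    · rw [hal2 π e c h]
      exact ⟨by positivity, by omega⟩
  have hsum : ∀ x : Bool × Dg → ℤ, (∀ c, 0 ≤ x c ∧ x c ≤ 2 * p c) →
      0 ≤ ∑ c, x c * wt c ∧ ∑ c, x c * wt c ≤ 2 * Fintype.card (Bool × Dg) * N := by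
    intro x hx
    refine ⟨Finset.sum_nonneg fun c _ => mul_nonneg (hx c).1 (by positivity), ?_⟩
    calc ∑ c, x c * wt c ≤ ∑ _c : Bool × Dg, (2 * N : ℤ) := by
          refine Finset.sum_le_sum fun c _ => ?_
          rw [← hwt c, Nat.cast_mul, ← mul_assoc]
          exact mul_le_mul_of_nonneg_right (hx c).2 (by positivity)
      _ = _ := by rw [Finset.sum_const, Finset.card_univ, nsmul_eq_mul]; ring
  have hn2 : ∀ e c, 0 ≤ n c e ∧ n c e ≤ 2 * p c := fun e c => by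
    have := hn c e
    omega
  have hχe : ∀ i e e', (∀ c, n (i, c) e = n (i, c) e') → χ i e = χ i e' := by
    intro i e e' h
    funext c
    rw [hχ, hχ, h c]
  refine ⟨{ W := 2 * Fintype.card (Bool × Dg) * N + 1
            N := N
            N_pos := hN
            H := fun e => e - ∑ c, n c e * wt c
            f := fun i e l r => (∑ c, al (i, (l, r), sel i (l, r) (χ i e)) e c * wt c).toNat
            cl := fun i e => {l | Nat.card Dg ≤ 8 * {c | χ i e c = some l}.ncard}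
            f_lt := ?_, H_le := ?_, lt_H := ?_, per_H := ?_, per_cl := ?_, cl_card := ?_,
            main := ?_ }⟩
  · intro i e l r
    have := hsum _ (hal (i, (l, r), sel i (l, r) (χ i e)) e)
    zify
    rw [Int.toNat_of_nonneg this.1]
    linarith [this.2]
  · intro e
    linarith [(hsum _ (hn2 e)).1]
  · intro e
    push_cast
    linarith [(hsum _ (hn2 e)).2]
  · intro e e' h
    simp only [fun c => hper c e e' h]
    ring
  · intro i e e' h
    rw [hχe i e e' fun c => hper _ e e' h]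
  · intro i e
    exact gad_card _
  · intro i₁ e₁ l₁ r₁ i₂ e₂ l₂ r₂ e he
    rw [Int.toNat_of_nonneg (hsum _ (hal _ e₁)).1, Int.toNat_of_nonneg (hsum _ (hal _ e₂)).1] at he
    obtain ⟨π₁, hπ₁⟩ : ∃ π, π = (i₁, (l₁, r₁), sel i₁ (l₁, r₁) (χ i₁ e₁)) := ⟨_, rfl⟩
    obtain ⟨π₂, hπ₂⟩ : ∃ π, π = (i₂, (l₂, r₂), sel i₂ (l₂, r₂) (χ i₂ e₂)) := ⟨_, rfl⟩
    rw [← hπ₁, ← hπ₂] at he
    have he' : ∀ g, e + g = (e₂ + g) + ∑ c, (al π₁ e₁ c - al π₂ e₂ c) * wt c := by
      intro g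
      simp only [sub_mul, Finset.sum_sub_distrib]
      linarith
    have hne : ∀ g c, n c (e + g) = (n c (e₂ + g) + (al π₁ e₁ c - al π₂ e₂ c)) % p c := by
      intro g c
      rw [he' g, hadd]
    have hne0 : ∀ c, n c e = (n c e₂ + (al π₁ e₁ c - al π₂ e₂ c)) % p c := by
      intro c
      simpa using hne 0 c
    by_cases hπ : π₂ = π₁
    · right
      have hi : i₂ = i₁ := by rw [hπ₁, hπ₂] at hπ; exact congrArg Prod.fst hπ
      subst hi
      have hl : (l₂, r₂) = (l₁, r₁) := by rw [hπ₁, hπ₂] at hπ; exact congrArg (fun q => q.2.1) hπ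
      obtain ⟨rfl, rfl⟩ := Prod.mk.inj hl
      have hj : sel i₂ (l₂, r₂) (χ i₂ e₂) = sel i₂ (l₂, r₂) (χ i₂ e₁) := by
        rw [hπ₁, hπ₂] at hπ; exact congrArg (fun q => q.2.2) hπ
      subst hπ
      have b1 : ∀ c : Bool × Dg, (c.1 = π₂.1 ∧ c.2 ∈ Rs π₂.1 π₂.2.1 π₂.2.2) → n c e = n c e₁ := by
        intro c h
        rw [hne0, hal1 _ _ _ h, hal1 _ _ _ h]
        rw [show n c e₂ + (n c e₁ + ix π₂ - (n c e₂ + ix π₂)) = n c e₁ by ring]
        exact Int.emod_eq_of_lt (hn c e₁).1 (hn c e₁).2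
      have b2 : ∀ (g : ℤ) (c : Bool × Dg), ¬ (c.1 = π₂.1 ∧ c.2 ∈ Rs π₂.1 π₂.2.1 π₂.2.2) →
          n c (e + g) = n c (e₂ + g) := by
        intro g c h
        rw [hne, hal2 _ _ _ h, hal2 _ _ _ h, sub_self, add_zero]
        exact Int.emod_eq_of_lt (hn c _).1 (hn c _).2
      have b2' : ∀ c : Bool × Dg, ¬ (c.1 = π₂.1 ∧ c.2 ∈ Rs π₂.1 π₂.2.1 π₂.2.2) →
          n c e = n c e₂ := fun c h => by simpa using b2 0 c h
      refine ⟨rfl, ?_, ?_, ?_⟩
      · have b3 : ∑ c, n c e * wt c =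
            ∑ c, n c e₂ * wt c + ∑ c, (al π₂ e₁ c - al π₂ e₂ c) * wt c := by
          rw [← Finset.sum_add_distrib]
          refine Finset.sum_congr rfl fun c _ => ?_
          by_cases h : c.1 = π₂.1 ∧ c.2 ∈ Rs π₂.1 π₂.2.1 π₂.2.2
          · rw [b1 c h, hal1 _ _ _ h, hal1 _ _ _ h]; ring
          · rw [b2' c h, hal2 _ _ _ h, hal2 _ _ _ h]; ring
        have := he' 0
        linarith
      · ext l
        simp only [Set.mem_ofPred_eq]
        rw [gad_count (χ₁ := χ i₂ e₁) (χ₂ := χ i₂ e₂)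
          (R := Rs i₂ (l₂, r₂) (sel i₂ (l₂, r₂) (χ i₂ e₁))) ?_ ?_ (hsel _ _ _ _ hj.symm l)]
        · intro c hc
          rw [hχ, hχ, b1 (i₂, c) (by rw [hπ₁]; exact ⟨rfl, hc⟩)]
        · intro c hc
          rw [hχ, hχ, b2' (i₂, c) (by rw [hπ₁]; exact fun h => hc h.2)]
      · intro g
        rw [hχe (!i₂) (e + g) (e₂ + g) fun c => b2 g _ (by rw [hπ₁]; simp)]
    · left
      have h1 := hfar π₂.1 π₂.2.1 π₂.2.2 π₁.1 π₁.2.1 π₁.2.2 hπ
      refine h1.trans (Nat.mul_le_mul_left 8 (Set.ncard_le_ncard ?_))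
      rintro c ⟨hc₂, hc₁⟩
      have hi : π₂.1 = i₂ := by rw [hπ₂]
      have b1 : n (i₂, c) e = (M : ℤ) * ix π₁ + M - ix π₂ := by
        rw [hne0, hal1 π₂ e₂ (i₂, c) ⟨hi.symm, hc₂⟩, hal2 π₁ e₁ (i₂, c) fun h => hc₁ h.2]
        rw [show n (i₂, c) e₂ + ((M : ℤ) * ix π₁ + M - (n (i₂, c) e₂ + ix π₂)) =
          (M : ℤ) * ix π₁ + M - ix π₂ by ring]
        have a1 := hp' (i₂, c)
        have a2 := hM π₁
        have a3 := hix π₂
        have a4 : (0 : ℤ) ≤ (M : ℤ) * ix π₁ := by positivity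
        exact Int.emod_eq_of_lt (by omega) (by omega)
      rw [Set.mem_ofPred_eq, hχ, b1, hdec, hπ₁, hπ₂]
      rfl

end Crest.Agent.R320
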