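import Crest.Agent.R320.Marker
import Crest.Agent.R320.Block
import Crest.Agent.R320.Gadget

/-!
# R320: cells and the block machine (definitions and first lemmas)
-/

set_option autoImplicit false

namespace Crest.Agent.R320

universe u

/-- Labels: short lists of cell values. -/
abbrev Lab {G V : Type} {D : ℕ} (bl : Block G V D) : Type :=
  {l : List (G × bl.M) // l.length ≤ bl.k}

/-- All parameters of the construction. -/
structure Setup (α : Type u) (G V : Type) [AddCommGroup V] where
  bl : Block G V 32
  ga : Gadget (Lab bl) (Lab bl × Lab bl)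
  mr : Marker α (7 * ga.W)
  one : G
  mul : G → α → G
  ac : List G → V → V
  ac_zero : ∀ l, ac l 0 = 0

namespace Setup

variable {α : Type u} {G V : Type} [AddCommGroup V] (S : Setup α G V)

/-- The values of cells. -/
abbrev Y : Type := G × S.bl.M

/-- The threshold length of a cell. -/
def T : ℕ := 6 * S.ga.W + S.mr.L

/-- The offset of the end of `γ` from the threshold. -/
def off (γ : List α) : ℤ := (γ.length : ℤ) - S.T

/-- A cell may end after `γ`. -/
def End (γ : List α) : Prop := S.mr.mark γ ∧ 0 ≤ S.ga.H (S.off γ)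

/-- `γ` is a cell: the first prefix at which a cell may end is `γ` itself. -/
def IsCell (γ : List α) : Prop := S.End γ ∧ ∀ j, j < γ.length → ¬ S.End (γ.take j)

/-- There is a marker at distance `g > 0` before the end of `γ`, with offset below `W`. -/
def Prev (γ : List α) (g : ℕ) : Prop :=
  0 < g ∧ g ≤ γ.length ∧ S.off γ - g < S.ga.W ∧ S.mr.mark (γ.take (γ.length - g))

/-- The labels claimed by the end of the cell. -/
def clE (γ : List α) : Set (Lab S.bl × Lab S.bl × Lab S.bl) :=
  {q | q ∈ S.ga.cl true (S.off γ) ∨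
    (S.ga.H (S.off γ) < 2 * S.ga.W ∧ q ∈ S.ga.cl false (S.off γ))}

/-- The labels claimed by the marker before the end of the cell. -/
def clP (γ : List α) : Set (Lab S.bl × Lab S.bl × Lab S.bl) :=
  {q | ∃ g : ℕ, S.Prev γ g ∧
    ((-5 * (S.ga.W : ℤ) ≤ S.ga.H (S.off γ) - g ∧ q ∈ S.ga.cl false (S.off γ - g)) ∨
      (-2 * (S.ga.W : ℤ) ≤ S.ga.H (S.off γ - g) ∧ q ∈ S.ga.cl true (S.off γ - g)))}

/-- The claims (left list, right list) of a cell. -/
def claims (γ : List α) : Set (List S.Y × List S.Y) :=
  (fun q => (q.1.1, q.2.1.1)) '' S.clE γ ∪ (fun q => (q.1.1, q.2.2.1)) '' S.clP γ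

/-- The product of a word. -/
def pr (γ : List α) : G := γ.foldl S.mul S.one

/-- The value of a cell. -/
def y (γ : List α) : S.Y := (S.pr γ, S.bl.Φ (S.claims γ))

/-- States: tracked vector, values of the finished cells of the block, current cell. -/
abbrev St : Type u := V × List S.Y × List α

/-- The state after a complete block with values `l`. -/
def fin (x : V) (l : List S.Y) : S.St := (S.ac (l.map Prod.fst) (x - S.bl.z l), [], [])

/-- Record the value of a finished cell. -/
def push (x : V) (l : List S.Y) (b : S.Y) : S.St :=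
  if (l ++ [b]).length < S.bl.k then (x, l ++ [b], []) else S.fin x (l ++ [b])

open Classical in
/-- One step of the machine. -/
noncomputable def step (s : S.St) (a : α) : S.St :=
  if S.End (s.2.2 ++ [a]) then S.push s.1 s.2.1 (S.y (s.2.2 ++ [a]))
  else (s.1, s.2.1, s.2.2 ++ [a])

/-- The base state. -/
def s0 : S.St := (0, [], [])

/-- The states at which a cut is allowed. -/
def LL : Set S.St :=
  {s | s.2.1.length < S.bl.k ∧ s.1 = S.bl.X s.2.1.length ∧
    ∃ (l : Lab S.bl) (i : Bool) (e : ℤ) (r : Lab S.bl × Lab S.bl),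
      l.1 = s.2.1 ∧ s.2.2.length = S.ga.f i e l r}

/-- The states at the start of a block. -/
def BB : Set S.St := {s | s.2 = ([], [])}

/-- The invariant set. -/
def II : Set S.St := {s | s.2.1.length < S.bl.k}

/-- The length of the prefix of the current cell that is remembered. -/
def C : ℕ := S.T + 3 * S.ga.W

/-- The finite summary of the current cell. -/
def summ (γ : List α) : List α × List α × ℕ × G :=
  (γ.take S.C, γ.drop (γ.length - S.mr.L), γ.length % S.ga.N, S.pr γ)

/-- The finite summary of a state. -/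
def kap (s : S.St) : V × List S.Y × (List α × List α × ℕ × G) := (s.1, s.2.1, S.summ s.2.2)

/-- The number of periodic chunks of a cell. -/
def nc : ℕ := S.T + S.ga.W + S.mr.n1 + 1

/-! ### First lemmas -/

theorem W_pos : 0 < S.ga.W :=
  Nat.lt_of_le_of_lt (Nat.zero_le _) (S.ga.f_lt true 0 ⟨[], Nat.zero_le _⟩
    (⟨[], Nat.zero_le _⟩, ⟨[], Nat.zero_le _⟩))

theorem mark_swap {γ₁ γ₂ t : List α} (ht : S.mr.L ≤ t.length) :
    S.mr.mark (γ₁ ++ t) ↔ S.mr.mark (γ₂ ++ t) :=
  (S.mr.loc γ₁ t ht).trans (S.mr.loc γ₂ t ht).symm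

theorem off_append (γ t : List α) : S.off (γ ++ t) = S.off γ + t.length := by
  simp only [off, List.length_append]; push_cast; ring

theorem End.T_le {S : Setup α G V} {γ : List α} (h : S.End γ) : S.T ≤ γ.length := by
  have h1 := h.2
  have h2 := S.ga.H_le (S.off γ)
  unfold off at h1 h2
  omega

theorem end_of_mark {γ : List α} (h : S.mr.mark γ) (hl : S.T + S.ga.W ≤ γ.length) : S.End γ := by
  refine ⟨h, ?_⟩
  have h2 := S.ga.lt_H (S.off γ)
  unfold off at h2 ⊢
  omega

theorem IsCell.T_le {S : Setup α G V} {γ : List α} (h : S.IsCell γ) : S.T ≤ γ.length := h.1.T_le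

theorem IsCell.ne_nil {S : Setup α G V} {γ : List α} (h : S.IsCell γ) : γ ≠ [] := by
  have h1 := h.T_le
  have h2 := S.mr.L_pos
  rintro rfl
  simp [T] at h1
  omega

/-- Two markers among the prefixes of one word are at least `7 * W` apart. -/
theorem mark_sep {w : List α} {i j : ℕ} (hij : i < j) (hj : j ≤ w.length)
    (hi : S.mr.mark (w.take i)) (hj' : S.mr.mark (w.take j)) : i + 7 * S.ga.W ≤ j := by
  have e : w.take j = w.take i ++ (w.take j).drop i := by
    conv_lhs => rw [← List.take_append_drop i (w.take j)]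
    rw [List.take_take, min_eq_left hij.le]
  have hl : ((w.take j).drop i).length = j - i := by
    simp [min_eq_left hj]
  rcases S.mr.sep (w.take i) ((w.take j).drop i) hi (e ▸ hj') with h | h
  · rw [h] at hl
    simp at hl
    omega
  · omega

end Setup

end Crest.Agent.R320
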