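import Mathlib

/-!
# R320: residue digits, the covering lemma and a numerical estimate
-/

set_option autoImplicit false

namespace Crest.Agent.R320

/-- Residue digits.  Proof: choose pairwise coprime `p c ≥ max b 1` (for instance distinct primes
`Nat.nth Nat.Prime (b + i c)` with `i = Fintype.equivFin C`, or `Nat.coprimes`), `N = ∏ c, p c`,
`wt c = ∏ c' ∈ univ.erase c, p c'`, an integer `inv c` with `inv c * wt c ≡ 1 [ZMOD p c]`
(`wt c` is coprime to `p c`), and `n c e = (e * inv c) % p c`.  For `c' ≠ c`, `p c ∣ wt c'`. -/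
theorem digits (C : Type) [Fintype C] (b : ℕ) :
    ∃ (N : ℕ) (p wt : C → ℕ) (n : C → ℤ → ℤ), 0 < N ∧ (∀ c, b ≤ p c) ∧
      (∀ c, p c * wt c = N) ∧ (∀ c e, 0 ≤ n c e ∧ n c e < p c) ∧
      (∀ (x : C → ℤ) (e : ℤ) (c : C), n c (e + ∑ c', x c' * wt c') = (n c e + x c) % p c) ∧
      (∀ (c : C) (e e' : ℤ), (N : ℤ) ∣ e - e' → n c e = n c e') := by
  classical
  let p : C → ℕ := fun c => Nat.nth Nat.Prime (b + Fintype.equivFin C c)
  have hp : ∀ c, (p c).Prime := fun c => Nat.prime_nth_prime _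
  have hb : ∀ c, b ≤ p c := fun c => by
    have := Nat.add_two_le_nth_prime (b + Fintype.equivFin C c)
    simp only [p]
    omega
  have hinj : Function.Injective p := fun c c' h => by
    have := Nat.nth_injective Nat.infinite_setOfPred_prime h
    exact (Fintype.equivFin C).injective (Fin.ext (by omega))
  let wt : C → ℕ := fun c => ∏ c' ∈ Finset.univ.erase c, p c'
  have hN : ∀ c, p c * wt c = ∏ c, p c := fun c => Finset.mul_prod_erase _ _ (Finset.mem_univ c)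
  have hco : ∀ c, ∃ a d : ℤ, a * wt c + d * p c = 1 := fun c => by
    refine Nat.isCoprime_iff_coprime.2 (Nat.Coprime.prod_left fun c' hc' => ?_)
    exact (Nat.coprime_primes (hp c') (hp c)).2 (hinj.ne (Finset.ne_of_mem_erase hc'))
  choose a d had using hco
  have hp0 : ∀ c, (0 : ℤ) < p c := fun c => by exact_mod_cast (hp c).pos
  refine ⟨∏ c, p c, p, wt, fun c e => (e * a c) % p c, Finset.prod_pos fun c _ => (hp c).pos, hb,
    hN, fun c e => ⟨Int.emod_nonneg _ (hp0 c).ne', Int.emod_lt_of_pos _ (hp0 c)⟩,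
    fun x e c => ?_, fun c e e' h => ?_⟩
  · have h1 : (p c : ℤ) ∣ ∑ c' ∈ Finset.univ.erase c, x c' * wt c' := by
      refine Finset.dvd_sum fun c' hc' => Dvd.dvd.mul_left ?_ _
      exact Int.natCast_dvd_natCast.2 (Finset.dvd_prod_of_mem _
        (Finset.mem_erase.2 ⟨(Finset.ne_of_mem_erase hc').symm, Finset.mem_univ c⟩))
    obtain ⟨k, hk⟩ := h1
    simp only
    rw [Int.emod_add_emod, ← Finset.add_sum_erase _ _ (Finset.mem_univ c), hk]
    refine Int.modEq_iff_dvd.2 ⟨x c * d c - k * a c, ?_⟩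
    linear_combination (-x c) * had c
  · have h1 : (p c : ℤ) ∣ e - e' :=
      (Int.natCast_dvd_natCast.2 (Finset.dvd_prod_of_mem _ (Finset.mem_univ c))).trans h
    simp only
    refine (Int.modEq_iff_dvd.2 ?_).symm
    rw [← sub_mul]
    exact h1.mul_right _

/-- Covering lemma.  Let `ϱ = Nat.card ρ`, `J = ϱ * t`.  For fixed `x` exactly `(ϱ - 1) ^ J` of the
`ϱ ^ J` functions `r` have `g j x ≠ r j` for all `j` (`Fintype.card_piFinset`).  As
`2 * (ϱ - 1) ^ ϱ ≤ ϱ ^ ϱ` (Bernoulli, or the first two binomial terms of `((ϱ - 1) + 1) ^ ϱ`),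
`Nat.card X * (ϱ - 1) ^ J < ϱ ^ J` (treat `ϱ = 1` separately: then `t > 0` if `X` is nonempty),
so some `r` is bad for no `x`. -/
theorem cover {X ρ : Type} [Finite X] [Finite ρ] [Nonempty ρ] (t : ℕ) (ht : Nat.card X < 2 ^ t)
    (g : Fin (Nat.card ρ * t) → X → ρ) :
    ∃ r : Fin (Nat.card ρ * t) → ρ, ∀ x, ∃ j, g j x = r j := by
  classical
  have := Fintype.ofFinite X
  have := Fintype.ofFinite ρ
  by_contra hcon
  push Not at hcon
  have key : ∀ a n : ℕ, a ^ (n + 1) + (n + 1) * a ^ n ≤ (a + 1) ^ (n + 1) := by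
    intro a n
    induction n with
    | zero => simp
    | succ n ih =>
      have := Nat.mul_le_mul_right (a + 1) ih
      rw [← pow_succ] at this
      refine le_trans ?_ this
      have e : (a ^ (n + 1) + (n + 1) * a ^ n) * (a + 1) =
          a ^ (n + 1 + 1) + (n + 1 + 1) * a ^ (n + 1) + (n + 1) * a ^ n := by ring
      rw [e]
      omega
  obtain ⟨a, ha⟩ : ∃ a, Nat.card ρ = a + 1 := ⟨Nat.card ρ - 1, by
    have := Nat.card_pos (α := ρ)
    omega⟩
  have ha' : Fintype.card ρ = a + 1 := by rw [← ha, Nat.card_eq_fintype_card]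
  have h1 : 2 * a ^ (a + 1) ≤ (a + 1) ^ (a + 1) := by
    refine le_trans ?_ (key a a)
    have e : (a + 1) * a ^ a = a ^ (a + 1) + a ^ a := by ring
    rw [e]
    omega
  have h2 : 2 ^ t * a ^ (Nat.card ρ * t) ≤ (a + 1) ^ (Nat.card ρ * t) := by
    rw [ha, pow_mul, pow_mul, ← mul_pow]
    exact Nat.pow_le_pow_left h1 t
  have h3 : (Finset.univ : Finset (Fin (Nat.card ρ * t) → ρ)) ⊆
      Finset.univ.biUnion fun x : X => Fintype.piFinset fun j => Finset.univ.erase (g j x) := by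
    intro r _
    obtain ⟨x, hx⟩ := hcon r
    simp only [Finset.mem_biUnion, Finset.mem_univ, true_and, Fintype.mem_piFinset,
      Finset.mem_erase, and_true]
    exact ⟨x, fun j => (hx j).symm⟩
  have h4 := (Finset.card_le_card h3).trans Finset.card_biUnion_le
  simp only [Finset.card_univ, Fintype.card_fun, Fintype.card_fin, Fintype.card_piFinset,
    Finset.card_erase_of_mem (Finset.mem_univ _), ha', Nat.add_sub_cancel, Finset.prod_const,
    Finset.sum_const, smul_eq_mul] at h4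
  rw [Nat.card_eq_fintype_card] at ht
  have h5 : 0 < (a + 1) ^ (Nat.card ρ * t) := by positivity
  rcases Nat.eq_zero_or_pos (a ^ (Nat.card ρ * t)) with h | h
  · rw [h] at h4
    omega
  · have := Nat.mul_lt_mul_of_pos_right ht h
    omega

/-- With `K = 2 * 4 ^ m = 2 ^ (2 * m + 1)`: `K + 1 ≤ 2 ^ (2 * m + 2)`, `ν ≤ 2 ^ ν`,
`K * ν + 1 ≤ 2 ^ (2 * m + 2 + ν)`; take `m = 4 * ν + 8`. -/
theorem numeric (ν : ℕ) :
    ∃ m : ℕ, 2 * ν * ((2 * 4 ^ m + 1) ^ ν * (2 * 4 ^ m * ν + 1)) ≤ 2 ^ (m * m) := by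
  refine ⟨4 * ν + 8, ?_⟩
  generalize hm : 4 * ν + 8 = m
  have h0 : ν ≤ 2 ^ ν := Nat.lt_two_pow_self.le
  have h1 : 4 ^ m = 2 ^ (2 * m) := by rw [pow_mul]; norm_num
  have h2 : 1 ≤ 2 ^ (2 * m) := Nat.one_le_two_pow
  have h3 : 1 ≤ 2 ^ ν := Nat.one_le_two_pow
  have a1 : 2 * ν ≤ 2 ^ (ν + 1) := by rw [pow_succ]; omega
  have a2 : 2 * 4 ^ m + 1 ≤ 2 ^ (2 * m + 2) := by rw [h1, pow_add]; omega
  have a3 : 2 * 4 ^ m * ν + 1 ≤ 2 ^ (2 * m + 2 + ν) := by
    rw [h1, pow_add, pow_add]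
    nlinarith
  calc 2 * ν * ((2 * 4 ^ m + 1) ^ ν * (2 * 4 ^ m * ν + 1))
      ≤ 2 ^ (ν + 1) * ((2 ^ (2 * m + 2)) ^ ν * 2 ^ (2 * m + 2 + ν)) := by gcongr
    _ = 2 ^ (ν + 1 + ((2 * m + 2) * ν + (2 * m + 2 + ν))) := by
      rw [← pow_mul, ← pow_add, ← pow_add]
    _ ≤ 2 ^ (m * m) := by
      refine Nat.pow_le_pow_right (by norm_num) ?_
      subst hm
      nlinarith

end Crest.Agent.R320
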