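import Crest.Agent.R320.ThinHt

/-!
# R320: the two upper star levels, for an abstract machine
-/

set_option autoImplicit false

namespace Crest.Agent.R320

universe u v w

variable {α : Type u} {σ : Type v}

theorem lev_visit_append {δ : σ → α → σ} {s0 s : σ} {u : List α} (h : Visit δ s0 s u)
    (v : List α) : Visit δ s0 s (u ++ v) := by
  obtain ⟨j, h0, h1, h2⟩ := h
  refine ⟨j, h0, by rw [List.length_append]; omega, ?_⟩
  rwa [List.take_append_of_le_length h1.le]

theorem lev_visit_prepend {δ : σ → α → σ} {s0 s : σ} {u v : List α}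
    (h : Visit δ s0 (u.foldl δ s) v) : Visit δ s0 s (u ++ v) := by
  obtain ⟨j, h0, h1, h2⟩ := h
  refine ⟨u.length + j, by omega, by rw [List.length_append]; omega, ?_⟩
  rwa [List.take_length_add_append, List.foldl_append]

theorem lev_visit_cut {δ : σ → α → σ} {s0 s : σ} {u v : List α} (hu : u ≠ []) (hv : v ≠ [])
    (h : u.foldl δ s = s0) : Visit δ s0 s (u ++ v) := by
  have h1 := List.length_pos_iff.2 hu
  have h2 := List.length_pos_iff.2 hv
  refine ⟨u.length, h1, by rw [List.length_append]; omega, ?_⟩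
  rwa [List.take_left]

theorem lev_take_ne {w : List α} {j : ℕ} (h0 : 0 < j) (h1 : j < w.length) : w.take j ≠ [] := by
  rw [← List.length_pos_iff, List.length_take]; omega

theorem lev_drop_ne {w : List α} {j : ℕ} (h1 : j < w.length) : w.drop j ≠ [] := by
  rw [← List.length_pos_iff, List.length_drop]; omega

theorem lev_first_visit {δ : σ → α → σ} {s0 s : σ} {w : List α} (h : Visit δ s0 s w) :
    ∃ u v, w = u ++ v ∧ u ≠ [] ∧ v ≠ [] ∧ ¬ Visit δ s0 s u ∧ u.foldl δ s = s0 := by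
  classical
  obtain ⟨h0, h1, h2⟩ := Nat.find_spec h
  refine ⟨w.take (Nat.find h), w.drop (Nat.find h), (List.take_append_drop _ _).symm,
    lev_take_ne h0 h1, lev_drop_ne h1, ?_, h2⟩
  rintro ⟨j, a0, a1, a2⟩
  rw [List.length_take] at a1
  have a3 : j < Nat.find h := by omega
  refine Nat.find_min h a3 ⟨a0, by omega, ?_⟩
  rwa [List.take_take, min_eq_left a3.le] at a2

theorem lev_sync_append {δ : σ → α → σ} {s0 y : σ} {LL : Set σ} {v : List α}
    (h : Sync δ s0 LL v y) (x : List α) : Sync δ s0 LL (v ++ x) (x.foldl δ y) := by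
  intro t ht
  rcases h t ht with h1 | h1
  · exact Or.inl (lev_visit_append h1 x)
  · exact Or.inr (by rw [List.foldl_append, h1])

/-- Level 1 (promise trick).  For `s ∈ B` let `E s s'` be the given sets.  The set
`{w | Visit δ s0 s w}` equals `cat (E s s0 ∩ {w | w ≠ []}) {w | w ≠ []}` (take the first visit,
`Nat.find`; conversely a prefix of a word without visit has no visit).  Hence
`N s s' = {w | ¬ Visit δ s0 s w ∧ w.foldl δ s = s'} = E s s' \ Visit` has height 2, and with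
`D s = N s s0 ∩ {w | w ≠ []}` the set `{w | w.foldl δ s = s'}` is
`N s s' ∪ cat (D s) (cat (star (D s0)) (N s0 s'))` (strong induction on the length, cutting at
the first visit). -/
theorem level1 (δ : σ → α → σ) (s0 : σ) (B : Set σ) (hs0 : s0 ∈ B)
    (hE : ∀ s ∈ B, ∀ s', ∃ E : Set (List α), Ht 2 E ∧
      ∀ w, ¬ Visit δ s0 s w → (w ∈ E ↔ w.foldl δ s = s')) :
    ∀ s ∈ B, ∀ s', Ht 3 {w | w.foldl δ s = s'} := by
  have hN : ∀ s ∈ B, ∀ s', Ht 2 {w | ¬ Visit δ s0 s w ∧ w.foldl δ s = s'} := by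
    intro s hs s'
    obtain ⟨E0, hE0, h0⟩ := hE s hs s0
    obtain ⟨E1, hE1, h1⟩ := hE s hs s'
    have hV : Ht 2 {w | Visit δ s0 s w} := by
      refine ((hE0.inter (ht_ne_nil 2)).cat (ht_ne_nil 2)).congr fun w => ⟨?_, fun hw => ?_⟩
      · rintro ⟨u, ⟨hu, hu'⟩, v, hv, rfl⟩
        by_cases hc : Visit δ s0 s u
        · exact lev_visit_append hc v
        · exact lev_visit_cut hu' hv ((h0 u hc).1 hu)
      · obtain ⟨u, v, rfl, hu, hv, hc, he⟩ := lev_first_visit hw
        exact ⟨u, ⟨(h0 u hc).2 he, hu⟩, v, hv, rfl⟩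
    exact (hE1.diff hV).congr fun w =>
      ⟨fun hw => ⟨hw.2, (h1 w hw.2).1 hw.1⟩, fun hw => ⟨(h1 w hw.1).2 hw.2, hw.1⟩⟩
  intro s hs s'
  have h23 : (2 : ℕ) ≤ 3 := by omega
  have key : ∀ (m : ℕ) (w : List α), w.length < m → w.foldl δ s0 = s' →
      w ∈ cat (star {w | ¬ Visit δ s0 s0 w ∧ w.foldl δ s0 = s0})
        {w | ¬ Visit δ s0 s0 w ∧ w.foldl δ s0 = s'} := by
    intro m
    induction m with
    | zero => intro w hw; omega
    | succ m ih =>
      intro w hw he
      by_cases hc : Visit δ s0 s0 w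
      · obtain ⟨u, v, rfl, hu, hv, hc', hu0⟩ := lev_first_visit hc
        have h1 := List.length_pos_iff.2 hu
        rw [List.length_append] at hw
        rw [List.foldl_append, hu0] at he
        obtain ⟨_, ⟨l, hl, rfl⟩, x, hx, rfl⟩ := ih v (by omega) he
        refine ⟨(u :: l).flatten, ⟨u :: l, ?_, rfl⟩, x, hx, by simp⟩
        intro p hp
        rcases List.mem_cons.1 hp with rfl | hp
        · exact ⟨hc', hu0⟩
        · exact hl p hp
      · exact ⟨[], ⟨[], by simp, rfl⟩, w, ⟨hc, he⟩, rfl⟩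
  have loop : ∀ l : List (List α),
      (∀ p ∈ l, p ∈ {w | ¬ Visit δ s0 s0 w ∧ w.foldl δ s0 = s0}) → l.flatten.foldl δ s0 = s0 := by
    intro l
    induction l with
    | nil => intro _; rfl
    | cons p l ih =>
      intro h
      rw [List.flatten_cons, List.foldl_append, (h p (by simp)).2]
      exact ih fun q hq => h q (by simp [hq])
  refine (((hN s hs s').mono h23).union (((hN s hs s0).mono h23).cat
    ((hN s0 hs0 s0).star.cat ((hN s0 hs0 s').mono h23)))).congr fun w => ⟨?_, fun hw => ?_⟩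
  · rintro (hw | ⟨u, hu, _, ⟨_, ⟨l, hl, rfl⟩, x, hx, rfl⟩, rfl⟩)
    · exact hw.2
    · change (u ++ (l.flatten ++ x)).foldl δ s = s'
      rw [List.foldl_append, List.foldl_append, hu.2, loop l hl, hx.2]
  · by_cases hc : Visit δ s0 s w
    · obtain ⟨u, v, rfl, hu, hv, hc, hu0⟩ := lev_first_visit hc
      have he : (u ++ v).foldl δ s = s' := hw
      rw [List.foldl_append, hu0] at he
      exact Or.inr ⟨u, ⟨hc, hu0⟩, v, key _ v (Nat.lt_succ_self _) he, rfl⟩
    · exact Or.inl ⟨hc, hw⟩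

/-- Level 2.  Let `S = {w | Thin P (2 * n) w}`, `Sy y = {v ∈ S | Sync δ s0 LL v y}`.  This has
height 1: it is `S ∩ ⋂ t ∈ LL, (cat ({u ∈ S | u.foldl δ t = s0} ∩ {u ≠ []}) {w | w ≠ []} ∪
{v ∈ S | v.foldl δ t = y})` (`Thin.take`, `ht_thin_run`, `ht_thin`).  Let
`Pc = ⋃ y ∈ LL, Sy y` and `E = {w ∈ S | w.foldl δ s = s'} ∪
cat (⋃ t ∈ LL, {w ∈ S | w.foldl δ s = t}) (cat (star Pc) (Sy s'))`.
Soundness when `w` has no visit: by induction along the pieces the state at each cut lies in `LL`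
(a visit strictly inside a piece is a visit strictly inside `w`).  Completeness (no promise
needed): by strong induction on `w.length`: if `s ∈ B`, `Thin P n v` and `Sync δ s0 LL v s`
then `v ++ w ∈ cat (star Pc) (Sy (w.foldl δ s))`; use `Step` for `s, w`, and that
`Sync δ s0 LL v y → Sync δ s0 LL (v ++ x) (x.foldl δ y)`. -/
theorem level2 [Finite α] [Finite σ] (δ : σ → α → σ) (s0 : σ) (LL B : Set σ) {P n : ℕ}
    (hP : 0 < P) (h : Step δ s0 LL B P n) :
    ∀ s ∈ B, ∀ s', ∃ E : Set (List α), Ht 2 E ∧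
      ∀ w, ¬ Visit δ s0 s w → (w ∈ E ↔ w.foldl δ s = s') := by
  have hSy : ∀ y, Ht 1 {v | Thin P (2 * n) v ∧ Sync δ s0 LL v y} := by
    intro y
    have h1 := (ht_thin (α := α) hP (2 * n)).inter (ht_biInter (Set.toFinite LL)
      (A := fun t => cat ({u | Thin P (2 * n) u ∧ u.foldl δ t = s0} ∩ {u | u ≠ []})
        {w | w ≠ []} ∪ {v | Thin P (2 * n) v ∧ v.foldl δ t = y})
      fun t _ => (((ht_thin_run δ hP (2 * n) t s0).inter (ht_ne_nil 1)).cat (ht_ne_nil 1)).union
        (ht_thin_run δ hP (2 * n) t y))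
    refine h1.congr fun v => ⟨fun hv => ⟨hv.1, fun t ht => ?_⟩, fun hv => ⟨hv.1, ?_⟩⟩
    · rcases Set.mem_iInter₂.1 hv.2 t ht with ⟨u, ⟨hu, hu'⟩, x, hx, rfl⟩ | h2
      · exact Or.inl (lev_visit_cut hu' hx hu.2)
      · exact Or.inr h2.2
    · refine Set.mem_iInter₂.2 fun t ht => ?_
      rcases hv.2 t ht with ⟨j, h0, h2, h3⟩ | h2
      · exact Or.inl ⟨v.take j, ⟨⟨hv.1.take j, h3⟩, lev_take_ne h0 h2⟩, v.drop j, lev_drop_ne h2,
          (List.take_append_drop _ _).symm⟩
      · exact Or.inr ⟨hv.1, h2⟩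
  have hPc : Ht 1 (⋃ y ∈ LL, {v | Thin P (2 * n) v ∧ Sync δ s0 LL v y}) :=
    ht_biUnion (Set.toFinite LL) fun y _ => hSy y
  have key : ∀ (m : ℕ) (w : List α), w.length < m → ∀ s ∈ B, ∀ v, Thin P n v →
      Sync δ s0 LL v s → v ++ w ∈ cat (star (⋃ y ∈ LL, {v | Thin P (2 * n) v ∧ Sync δ s0 LL v y}))
        {v | Thin P (2 * n) v ∧ Sync δ s0 LL v (w.foldl δ s)} := by
    intro m
    induction m with
    | zero => intro w hw; omega
    | succ m ih =>
      intro w hw s hs v hv hsy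
      rcases h s hs w with ht | ⟨l, v', w', rfl, hl, hv', hne, hLL, hsy', hB⟩
      · refine ⟨[], ⟨[], by simp, rfl⟩, v ++ w, ⟨?_, lev_sync_append hsy w⟩, rfl⟩
        rw [two_mul]; exact hv.append ht
      · have h1 := List.length_pos_iff.2 hne
        simp only [List.length_append] at hw
        obtain ⟨_, ⟨ps, hps, rfl⟩, x, hx, hx'⟩ := ih w' (by omega) _ hB v' hv' hsy'
        refine ⟨((v ++ l) :: ps).flatten, ⟨(v ++ l) :: ps, ?_, rfl⟩, x, ?_, ?_⟩
        · intro p hp
          rcases List.mem_cons.1 hp with rfl | hp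
          · refine Set.mem_iUnion₂.2 ⟨_, hLL, ?_, lev_sync_append hsy l⟩
            rw [two_mul]; exact hv.append hl
          · exact hps p hp
        · rw [List.foldl_append]; exact hx
        · rw [List.flatten_cons, List.append_assoc l, hx']
          simp only [List.append_assoc]
  intro s hs s'
  have h12 : (1 : ℕ) ≤ 2 := by omega
  refine ⟨_, ((ht_thin_run δ hP (2 * n) s s').mono h12).union
    (((ht_biUnion (Set.toFinite LL) fun t _ => ht_thin_run δ hP (2 * n) s t).mono h12).cat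
      (hPc.star.cat ((hSy s').mono h12))), fun w hw => ⟨?_, fun he => ?_⟩⟩
  · have sound : ∀ x, Sync δ s0 LL x s' → ∀ ps : List (List α),
        (∀ p ∈ ps, p ∈ ⋃ y ∈ LL, {v | Thin P (2 * n) v ∧ Sync δ s0 LL v y}) →
        ∀ l : List α, l.foldl δ s ∈ LL → ¬ Visit δ s0 s (l ++ (ps.flatten ++ x)) →
          (l ++ (ps.flatten ++ x)).foldl δ s = s' := by
      intro x hx ps
      induction ps with
      | nil =>
        intro _ l hl hv
        rw [List.flatten_nil, List.nil_append] at hv ⊢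
        rcases hx _ hl with h1 | h1
        · exact (hv (lev_visit_prepend h1)).elim
        · rw [List.foldl_append, h1]
      | cons p ps ih =>
        intro hps l hl hv
        obtain ⟨y, hy, -, hp⟩ := Set.mem_iUnion₂.1 (hps p (by simp))
        rw [List.flatten_cons, List.append_assoc, ← List.append_assoc l] at hv ⊢
        rcases hp _ hl with h1 | h1
        · exact (hv (lev_visit_append (lev_visit_prepend h1) _)).elim
        · refine ih (fun q hq => hps q (by simp [hq])) (l ++ p) ?_ hv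
          rw [List.foldl_append, h1]; exact hy
    rintro (h1 | ⟨l, hl, _, ⟨_, ⟨ps, hps, rfl⟩, x, hx, rfl⟩, rfl⟩)
    · exact h1.2
    · obtain ⟨t, ht, -, hl⟩ := Set.mem_iUnion₂.1 hl
      exact sound x hx.2 ps hps l (by rw [hl]; exact ht) hw
  · rcases h s hs w with ht | ⟨l, v', w', rfl, hl, hv', hne, hLL, hsy', hB⟩
    · exact Or.inl ⟨ht.mono (by omega), he⟩
    · refine Or.inr ⟨l, Set.mem_iUnion₂.2 ⟨_, hLL, hl.mono (by omega), rfl⟩, v' ++ w', ?_,
        List.append_assoc _ _ _⟩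
      have := key _ w' (Nat.lt_succ_self _) _ hB v' hv' hsy'
      rwa [← List.foldl_append, he] at this

/-- Both levels for an infinite machine with a finite summary `κ` on an invariant set `I`.
Proof: the finite machine has state type `κ '' I` and step `⟨b, _⟩, a ↦ κ (δ s a)` for a chosen
`s ∈ I` with `κ s = b`; the map `π : I → κ '' I` commutes with `foldl`.  Apply `level1` and
`level2` with the images of `s0`, `LL`, `B` (a visit of the infinite machine gives a visit of the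
finite one; `Step` transfers).  For `b ∉ κ '' I` the set is empty. -/
theorem levels [Finite α] {ι : Type w} (δ : σ → α → σ) (s0 : σ) (LL B I : Set σ) (κ : σ → ι)
    {P n : ℕ} (hP : 0 < P) (hI : ∀ s ∈ I, ∀ a, δ s a ∈ I) (hB : B ⊆ I) (hLL : LL ⊆ I)
    (hs0 : s0 ∈ B) (hfin : (κ '' I).Finite)
    (hκ : ∀ s ∈ I, ∀ s' ∈ I, κ s = κ s' → ∀ a, κ (δ s a) = κ (δ s' a))
    (h : Step δ s0 LL B P n) :
    ∀ s ∈ B, ∀ b : ι, Ht 3 {w | κ (w.foldl δ s) = b} := by
  classical
  have : Finite (κ '' I) := hfin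
  let δ' : κ '' I → α → κ '' I := fun b a =>
    ⟨κ (δ b.2.choose a), _, hI _ b.2.choose_spec.1 a, rfl⟩
  have hrun : ∀ (w : List α) (s : σ) (b : κ '' I), s ∈ I → b.1 = κ s →
      (w.foldl δ' b).1 = κ (w.foldl δ s) := by
    intro w
    induction w with
    | nil => intro s b _ hb; exact hb
    | cons a w ih =>
      intro s b hs hb
      exact ih (δ s a) (δ' b a) (hI s hs a)
        (hκ _ b.2.choose_spec.1 _ hs (b.2.choose_spec.2.trans hb) a)
  let s0' : κ '' I := ⟨κ s0, s0, hB hs0, rfl⟩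
  have hstep : Step δ' s0' {b | ∃ s ∈ LL, b.1 = κ s} {b | ∃ s ∈ B, b.1 = κ s} P n := by
    rintro b ⟨s, hs, hb⟩ w
    rcases h s hs w with ht | ⟨l, v, w', rfl, hl, hv, hne, hL, hsy, hB'⟩
    · exact Or.inl ht
    · refine Or.inr ⟨l, v, w', rfl, hl, hv, hne, ⟨_, hL, hrun l s b (hB hs) hb⟩, ?_,
        ⟨_, hB', hrun _ s b (hB hs) hb⟩⟩
      rintro t' ⟨t, ht, ht'⟩
      rcases hsy t ht with ⟨j, h0, h1, h2⟩ | h1
      · refine Or.inl ⟨j, h0, h1, Subtype.ext ?_⟩
        rw [hrun _ t t' (hLL ht) ht', h2]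
      · refine Or.inr (Subtype.ext ?_)
        rw [hrun _ t t' (hLL ht) ht', hrun _ s b (hB hs) hb, h1]
  have h3 := level1 δ' s0' {b | ∃ s ∈ B, b.1 = κ s} ⟨s0, hs0, rfl⟩ (level2 δ' s0' _ _ hP hstep)
  intro s hs b
  have hr := fun w => hrun w s ⟨κ s, s, hB hs, rfl⟩ (hB hs) rfl
  by_cases hb : b ∈ κ '' I
  · refine (h3 ⟨κ s, s, hB hs, rfl⟩ ⟨s, hs, rfl⟩ ⟨b, hb⟩).congr fun w => ?_
    change _ = _ ↔ κ (w.foldl δ s) = b
    rw [← hr w, Subtype.ext_iff]
  · refine (ht_empty 3).congr fun w => ⟨fun hw => hw.elim, fun hw => hb ?_⟩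
    have hw' : κ (w.foldl δ s) = b := hw
    rw [← hw', ← hr w]
    exact Subtype.property _

end Crest.Agent.R320
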