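import Crest.Agent.R320.Key
import Crest.Agent.R320.Levels

/-!
# R320: from the block machine to a finite automaton
-/

set_option autoImplicit false

namespace Crest.Agent.R320

universe u

variable {α : Type u}

/-- The summary of the run from a block start has height 3 (`levels` with `step_main`). -/
theorem Setup.ht_kap [Finite α] {G V : Type} [Finite G] [AddCommGroup V] [Finite V]
    (S : Setup α G V) (x : V) (b : V × List S.Y × (List α × List α × ℕ × G)) :
    Ht 3 {w | S.kap (w.foldl S.step (x, [], [])) = b} :=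
  levels S.step S.s0 S.LL S.BB S.II S.kap S.mr.P_pos S.step_mem_II
    (fun s hs => by
      have := S.bl.two_le
      have h : s.2 = ([], []) := hs
      show s.2.1.length < S.bl.k
      rw [h]; simp; omega)
    (fun _ hs => hs.1) rfl S.kap_finite (fun s _ s' _ h a => S.kap_step s s' h a) S.step_main
    (x, [], []) rfl b

/-- composition of a list of maps, from left to right -/
def finComp {Q : Type} (l : List (Q → Q)) : Q → Q := l.foldl (fun h g => g ∘ h) id

open Classical in
/-- push-forward of a vector along a map -/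
noncomputable def finAct {Q : Type} [Fintype Q] (g : Q → Q) (x : Q → ZMod 3) : Q → ZMod 3 :=
  fun q' => ∑ q, if g q = q' then x q else 0

theorem finComp_snoc {Q : Type} (l : List (Q → Q)) (g : Q → Q) (q : Q) :
    finComp (l ++ [g]) q = g (finComp l q) := by
  simp [finComp, List.foldl_append]

theorem finAct_sub {Q : Type} [Fintype Q] (g : Q → Q) (x y : Q → ZMod 3) :
    finAct g x - finAct g y = finAct g (x - y) := by
  funext q'
  simp only [finAct, Pi.sub_apply, ← Finset.sum_sub_distrib]
  refine Finset.sum_congr rfl fun q _ => ?_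
  split_ifs <;> simp

theorem finAct_single {Q : Type} [Fintype Q] [DecidableEq Q] (g : Q → Q) (q : Q) :
    finAct g (Pi.single q 1) = Pi.single (g q) 1 := by
  funext q'
  rw [finAct, Finset.sum_eq_single q]
  · by_cases h : g q = q'
    · simp [h]
    · simp [h, Ne.symm h]
  · intro b _ hb
    simp [hb]
  · simp

theorem fin_inv {Q : Type} [Fintype Q] [DecidableEq Q] (M : DFA α Q)
    (S : Setup α (Q → Q) (Q → ZMod 3)) (h1 : S.one = id)
    (h2 : ∀ g a q, S.mul g a q = M.step (g q) a) (h3 : ∀ l, S.ac l = finAct (finComp l))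
    (w : List α) :
    (w.foldl S.step (Pi.single M.start 1, [], [])).2 = (w.foldl S.step (0, [], [])).2 ∧
      ∃ q, (w.foldl S.step (Pi.single M.start 1, [], [])).1 - (w.foldl S.step (0, [], [])).1 =
          Pi.single q 1 ∧
        M.eval w = S.pr (w.foldl S.step (Pi.single M.start 1, [], [])).2.2
          (finComp ((w.foldl S.step (Pi.single M.start 1, [], [])).2.1.map Prod.fst) q) := by
  induction w using List.reverseRecOn with
  | nil => exact ⟨rfl, M.start, by simp, by simp [Setup.pr, finComp, h1]⟩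
  | append_singleton w a ih =>
    rw [List.foldl_append, List.foldl_append, DFA.eval_append_singleton]
    generalize w.foldl S.step (Pi.single M.start 1, [], []) = s₁ at ih ⊢
    generalize w.foldl S.step (0, [], []) = s₀ at ih ⊢
    obtain ⟨x₁, l, γ⟩ := s₁
    obtain ⟨x₀, l₀, γ₀⟩ := s₀
    obtain ⟨e, q, hq, hw⟩ := ih
    obtain ⟨rfl, rfl⟩ := Prod.mk.inj e
    have hpr : ∀ r, S.pr (γ ++ [a]) r = M.step (S.pr γ r) a := fun r => by
      simp only [Setup.pr, List.foldl_append, List.foldl_cons, List.foldl_nil, h2]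
    have hnil : ∀ r, S.pr [] r = r := fun r => by simp [Setup.pr, h1]
    simp only [List.foldl_cons, List.foldl_nil, Setup.step, Setup.push, Setup.fin] at hq hw ⊢
    split_ifs with c1 c2
    · refine ⟨rfl, q, hq, ?_⟩
      simp only [hnil, List.map_append, List.map_cons, List.map_nil, finComp_snoc, Setup.y, hpr, hw]
    · refine ⟨rfl, finComp ((l ++ [S.y (γ ++ [a])]).map Prod.fst) q, ?_, ?_⟩
      · simp only [h3, finAct_sub, sub_sub_sub_cancel_right, hq, finAct_single]
      · simp only [hnil, List.map_append, List.map_cons, List.map_nil, finComp_snoc, Setup.y, hpr,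
          hw]
        rfl
    · exact ⟨rfl, q, hq, by simp only [hpr, hw]⟩

theorem fin_mem_II {G V : Type} [AddCommGroup V] (S : Setup α G V) (x : V) (w : List α) :
    w.foldl S.step (x, [], []) ∈ S.II := by
  induction w using List.reverseRecOn with
  | nil =>
    have := S.bl.two_le
    show 0 < S.bl.k
    omega
  | append_singleton w a ih =>
    rw [List.foldl_append]
    exact S.step_mem_II _ ih a

/-- Proof.  `G = Q → Q`, `V = Q → ZMod 3` (`d = -v` has `d + d = v`), `one = id`,
`mul g a = fun q => M.step (g q) a`, `comp l = l.foldl (fun h g => g ∘ h) id`,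
`act g x = fun q' => ∑ q, if g q = q' then x q else 0` (additive in `x`,
`act g (Pi.single q 1) = Pi.single (g q) 1`), `ac l x = act (comp l) x`; a `Setup` exists by
`block_exists`, `gadget_exists` (`Lab` is finite: `List.finite_length_le`), `marker_exists`.
Invariant (induction on `w` from the right, `List.reverseRecOn`): the runs `s₁` from
`(Pi.single M.start 1, [], [])` and `s₀` from `(0, [], [])` have `s₁.2 = s₀.2` and
`∃ q, s₁.1 - s₀.1 = Pi.single q 1 ∧ M.eval w = S.pr s₁.2.2 (comp (s₁.2.1.map Prod.fst) q)`.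
So `M.accepts` is the union, over the pairs `(b₁, b₀)` in the finite set `kap '' II ×ˢ kap '' II`
with `∃ q, b₁.1 - b₀.1 = Pi.single q 1 ∧ b₁.2.2.2.2.2 (comp (b₁.2.1.map Prod.fst) q) ∈ M.accept`,
of `{w | kap s₁ = b₁} ∩ {w | kap s₀ = b₀}` (`q ↦ Pi.single q 1` is injective; runs stay in `II`
by `step_mem_II`); `ht_biUnion`, `Ht.inter`, `Setup.ht_kap`. -/
theorem ht_dfa [Finite α] {Q : Type} [Fintype Q] (M : DFA α Q) :
    Ht 3 (M.accepts : Set (List α)) := by
  classical
  have : Nonempty (Q → Q) := ⟨id⟩
  obtain ⟨bl⟩ := block_exists (Q → Q) (Q → ZMod 3) (fun v => ⟨-v, by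
    funext q
    have : ∀ t : ZMod 3, -t + -t = t := by decide
    exact this _⟩) 32
  have := bl.fin
  have : Finite (Lab bl) := (List.finite_length_le ((Q → Q) × bl.M) bl.k).to_subtype
  obtain ⟨ga⟩ := gadget_exists (Lab bl) (Lab bl × Lab bl)
  obtain ⟨mr⟩ := marker_exists α (7 * ga.W)
  let S : Setup α (Q → Q) (Q → ZMod 3) :=
    ⟨bl, ga, mr, id, fun g a q => M.step (g q) a, fun l => finAct (finComp l), fun l => by
      funext q; simp [finAct]⟩
  have inv := fin_inv M S rfl (fun _ _ _ => rfl) fun _ => rfl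
  have hfin := (S.kap_finite.prod S.kap_finite).subset (Set.sep_subset _ fun b =>
    ∃ q, b.1.1 - b.2.1 = Pi.single q 1 ∧
      b.1.2.2.2.2.2 (finComp (b.1.2.1.map Prod.fst) q) ∈ M.accept)
  refine (ht_biUnion hfin fun b _ =>
    (S.ht_kap (Pi.single M.start 1) b.1).inter (S.ht_kap 0 b.2)).congr fun w => ?_
  obtain ⟨-, q, hq, hw⟩ := inv w
  simp only [Set.mem_iUnion, Set.mem_inter_iff, Set.mem_ofPred_eq, exists_prop]
  constructor
  · rintro ⟨⟨b₁, b₀⟩, ⟨-, q', hq', hb⟩, rfl, rfl⟩
    have e : (Pi.single q 1 : Q → ZMod 3) = Pi.single q' 1 := hq.symm.trans hq'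
    have e' : q = q' := by
      by_contra hne
      have := congrFun e q
      rw [Pi.single_eq_same, Pi.single_eq_of_ne hne] at this
      exact one_ne_zero this
    subst e'
    show M.eval w ∈ M.accept
    rw [hw]
    exact hb
  · intro h
    have h' : M.eval w ∈ M.accept := h
    rw [hw] at h'
    exact ⟨(S.kap _, S.kap _), ⟨⟨⟨_, fin_mem_II S _ w, rfl⟩, ⟨_, fin_mem_II S _ w, rfl⟩⟩,
      q, hq, h'⟩, rfl, rfl⟩

end Crest.Agent.R320
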