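import Crest.Agent.R320.Cell

/-!
# R320: two worlds, target = end of the cell

`γ₂ ++ v₁` is a cell, all of whose earlier markers have offset below `-3 W`.  The short prefix
`γ₂` is replaced by another short word `γ₁`.  Since `T = 6 W + L`, `v₁.length > 5 W + L`.
A prefix of `γ₁ ++ v₁` of length `γ₁.length + j`, `j ≥ L`, is a marker iff the prefix of
`γ₂ ++ v₁` of length `γ₂.length + j` is (`mark_swap`); offsets differ by less than `W`; shorter
prefixes have length `< W + L`, offset below `-5 W`.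
-/

set_option autoImplicit false

namespace Crest.Agent.R320

universe u

namespace Setup

variable {α : Type u} {G V : Type} [AddCommGroup V] (S : Setup α G V)

private theorem geoE_take (γ v : List α) (i : ℕ) :
    (γ ++ v).take (γ.length + i) = γ ++ v.take i := by
  rw [List.take_append, List.take_of_length_le (by omega)]
  simp

private theorem geoE_far {γ₁ γ₂ v₁ : List α} (h₁ : γ₁.length < S.ga.W)
    (hfar : ∀ j, j < (γ₂ ++ v₁).length → S.mr.mark ((γ₂ ++ v₁).take j) →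
      (j : ℤ) - S.T < -3 * (S.ga.W : ℤ)) :
    ∀ j, j < (γ₁ ++ v₁).length → S.mr.mark ((γ₁ ++ v₁).take j) →
      (j : ℤ) - S.T < -2 * (S.ga.W : ℤ) := by
  intro j hj hm
  by_cases hs : j < γ₁.length + S.mr.L
  · unfold T
    push_cast
    omega
  · obtain ⟨i, rfl⟩ : ∃ i, j = γ₁.length + i := ⟨j - γ₁.length, by omega⟩
    rw [List.length_append] at hj
    rw [geoE_take] at hm
    have hl : S.mr.L ≤ (v₁.take i).length := by
      rw [List.length_take]; omega
    have hm2 : S.mr.mark (γ₂ ++ v₁.take i) := (S.mark_swap hl).1 hm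
    have := hfar (γ₂.length + i) (by rw [List.length_append]; omega) (by rwa [geoE_take])
    push_cast at this ⊢
    omega

private theorem geoE_noEnd {γ : List α}
    (hfar : ∀ j, j < γ.length → S.mr.mark (γ.take j) → (j : ℤ) - S.T < -2 * (S.ga.W : ℤ)) :
    ∀ j, j < γ.length → ¬ S.End (γ.take j) := by
  intro j hj he
  have h1 := hfar j hj he.1
  have h2 := he.T_le
  rw [List.length_take] at h2
  omega

private theorem geoE_len {γ₂ v₁ : List α} (h₂ : γ₂.length < S.ga.W)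
    (hc : S.IsCell (γ₂ ++ v₁)) : 5 * S.ga.W + S.mr.L < v₁.length := by
  have h := hc.T_le
  rw [List.length_append] at h
  unfold T at h
  omega

private theorem geoE_clP {γ₁ γ₂ v₁ : List α} (h₁ : γ₁.length < S.ga.W)
    (h₂ : γ₂.length < S.ga.W)
    (hfar : ∀ j, j < (γ₁ ++ v₁).length → S.mr.mark ((γ₁ ++ v₁).take j) →
      (j : ℤ) - S.T < -2 * (S.ga.W : ℤ))
    (hH : S.ga.H (S.off (γ₁ ++ v₁)) = S.ga.H (S.off (γ₂ ++ v₁)))
    (hf : ∀ g : ℤ, S.ga.cl false (S.off (γ₁ ++ v₁) + g) = S.ga.cl false (S.off (γ₂ ++ v₁) + g)) :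
    S.clP (γ₁ ++ v₁) ⊆ S.clP (γ₂ ++ v₁) := by
  rintro q ⟨g, ⟨hg0, hg1, hg2, hg3⟩, hq⟩
  have hj := hfar ((γ₁ ++ v₁).length - g) (by omega) hg3
  have ho₁ : S.off (γ₁ ++ v₁) = (γ₁.length : ℤ) + v₁.length - S.T := by
    simp only [off, List.length_append]; push_cast; ring
  have ho₂ : S.off (γ₂ ++ v₁) = (γ₂.length : ℤ) + v₁.length - S.T := by
    simp only [off, List.length_append]; push_cast; ring
  have hT : (S.T : ℤ) = 6 * S.ga.W + S.mr.L := by unfold T; push_cast; ring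
  rw [List.length_append] at hg1 hj hg3
  rw [Nat.cast_sub hg1] at hj
  push_cast at hj
  rcases hq with ⟨ha, hb⟩ | ⟨ha, -⟩
  · have hle := S.ga.H_le (S.off (γ₁ ++ v₁))
    have hgv : g + S.mr.L ≤ v₁.length := by omega
    refine ⟨g, ⟨hg0, by rw [List.length_append]; omega, by omega, ?_⟩, Or.inl ⟨by omega, ?_⟩⟩
    · have e1 : γ₁.length + v₁.length - g = γ₁.length + (v₁.length - g) := by omega
      have e2 : (γ₂ ++ v₁).length - g = γ₂.length + (v₁.length - g) := by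
        rw [List.length_append]; omega
      rw [e1, geoE_take] at hg3
      rw [e2, geoE_take]
      exact (S.mark_swap (by rw [List.length_take]; omega)).1 hg3
    · have := hf (-(g : ℤ))
      rw [← sub_eq_add_neg, ← sub_eq_add_neg] at this
      exact this ▸ hb
  · have hle := S.ga.H_le (S.off (γ₁ ++ v₁) - g)
    omega

/-- No proper prefix of `γ₁ ++ v₁` is a cell end (markers have offset `< -2 W`).  If
`0 ≤ H (off (γ₁ ++ v₁))` then `γ₁ ++ v₁` is a cell and `q ∈ clE`.  Otherwise the next marker has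
offset `> -W + 7 W` (`mr.sep`, `end_of_mark`), `γ₁ ++ v₁ ++ v₂` is a cell, and `q ∈ clP` with
`g = v₂.length` (`off (γ₁ ++ v₁) > -W`, so `H > -2 W`; `off (γ₁ ++ v₁) < W` as `H < 0`). -/
theorem offE {γ₁ γ₂ v₁ v₂ : List α} (h₁ : γ₁.length < S.ga.W) (h₂ : γ₂.length < S.ga.W)
    (hc : S.IsCell (γ₂ ++ v₁))
    (hfar : ∀ j, j < (γ₂ ++ v₁).length → S.mr.mark ((γ₂ ++ v₁).take j) →
      (j : ℤ) - S.T < -3 * (S.ga.W : ℤ))
    (hv₂ : v₂ ≠ []) (hm : S.mr.mark (γ₂ ++ v₁ ++ v₂))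
    (hno : ∀ j, 0 < j → j < v₂.length → ¬ S.mr.mark (γ₂ ++ v₁ ++ v₂.take j))
    (q : Lab S.bl × Lab S.bl × Lab S.bl) (hq : q ∈ S.ga.cl true (S.off (γ₁ ++ v₁))) :
    (S.IsCell (γ₁ ++ v₁) ∧ q ∈ S.clE (γ₁ ++ v₁)) ∨
      (S.IsCell (γ₁ ++ v₁ ++ v₂) ∧ q ∈ S.clP (γ₁ ++ v₁ ++ v₂)) := by
  have hfar₁ := S.geoE_far h₁ hfar
  have hno₁ := S.geoE_noEnd hfar₁
  have hlen := S.geoE_len h₂ hc
  have hm₁ : S.mr.mark (γ₁ ++ v₁) := (S.mark_swap (by omega)).1 hc.1.1
  by_cases h0 : 0 ≤ S.ga.H (S.off (γ₁ ++ v₁))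
  · exact Or.inl ⟨⟨⟨hm₁, h0⟩, hno₁⟩, Or.inl hq⟩
  right
  have hm₂ : S.mr.mark (γ₁ ++ v₁ ++ v₂) := by
    rw [List.append_assoc] at hm ⊢
    exact (S.mark_swap (by rw [List.length_append]; omega)).1 hm
  have hsep : 7 * S.ga.W ≤ v₂.length := (S.mr.sep _ _ hm₁ hm₂).resolve_left hv₂
  have hTle := hc.T_le
  rw [List.length_append] at hTle
  have hpos : 0 < v₂.length := List.length_pos_iff.2 hv₂
  have ho₁ : S.off (γ₁ ++ v₁) = (γ₁.length : ℤ) + v₁.length - S.T := by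
    simp only [off, List.length_append]; push_cast; ring
  have hoff : S.off (γ₁ ++ v₁ ++ v₂) - (v₂.length : ℕ) = S.off (γ₁ ++ v₁) := by
    rw [S.off_append (γ₁ ++ v₁) v₂]; ring
  have hlt := S.ga.lt_H (S.off (γ₁ ++ v₁))
  refine ⟨⟨S.end_of_mark hm₂ (by simp only [List.length_append]; omega), ?_⟩,
    v₂.length, ⟨hpos, by simp only [List.length_append]; omega, by rw [hoff]; omega, ?_⟩,
    Or.inr ⟨by rw [hoff]; omega, by rw [hoff]; exact hq⟩⟩
  · intro j hj he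
    rcases lt_trichotomy j (γ₁ ++ v₁).length with h | h | h
    · rw [List.take_append_of_le_length h.le] at he
      exact hno₁ j h he
    · rw [h, List.take_left' rfl] at he
      exact h0 he.2
    · obtain ⟨i, rfl⟩ : ∃ i, j = (γ₁ ++ v₁).length + i := ⟨j - (γ₁ ++ v₁).length, by omega⟩
      rw [geoE_take] at he
      rw [List.length_append (as := γ₁ ++ v₁) (bs := v₂)] at hj
      refine hno i (by omega) (by omega) ?_
      have h3 := he.1
      rw [List.append_assoc] at h3 ⊢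
      exact (S.mark_swap (by rw [List.length_append]; omega)).1 h3
  · have e : (γ₁ ++ v₁ ++ v₂).length - v₂.length = (γ₁ ++ v₁).length := by
      rw [List.length_append (as := γ₁ ++ v₁)]; omega
    rw [e, List.take_left' rfl]
    exact hm₁

/-- `clE` agrees by the hypotheses (`g = 0`).  In `clP` the second alternative fails in both
worlds (earlier markers have offset `< -2 W`, `H_le`); in the first alternative the marker has
offset `≥ -5 W`, so it lies at distance `≥ L` after the short prefix, it is a marker in both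
worlds (with offset `< W`), and `hf (-g)` applies. -/
theorem diagE {γ₁ γ₂ v₁ : List α} (h₁ : γ₁.length < S.ga.W) (h₂ : γ₂.length < S.ga.W)
    (hc : S.IsCell (γ₂ ++ v₁))
    (hfar : ∀ j, j < (γ₂ ++ v₁).length → S.mr.mark ((γ₂ ++ v₁).take j) →
      (j : ℤ) - S.T < -3 * (S.ga.W : ℤ))
    (hH : S.ga.H (S.off (γ₁ ++ v₁)) = S.ga.H (S.off (γ₂ ++ v₁)))
    (ht : S.ga.cl true (S.off (γ₁ ++ v₁)) = S.ga.cl true (S.off (γ₂ ++ v₁)))
    (hf : ∀ g : ℤ, S.ga.cl false (S.off (γ₁ ++ v₁) + g) = S.ga.cl false (S.off (γ₂ ++ v₁) + g)) :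
    S.IsCell (γ₁ ++ v₁) ∧ S.claims (γ₁ ++ v₁) = S.claims (γ₂ ++ v₁) := by
  have hfar₁ := S.geoE_far h₁ hfar
  have hno₁ := S.geoE_noEnd hfar₁
  have hlen := S.geoE_len h₂ hc
  have hm₁ : S.mr.mark (γ₁ ++ v₁) := (S.mark_swap (by omega)).1 hc.1.1
  have hfar₂ : ∀ j, j < (γ₂ ++ v₁).length → S.mr.mark ((γ₂ ++ v₁).take j) →
      (j : ℤ) - S.T < -2 * (S.ga.W : ℤ) := fun j hj hm => by
    have := hfar j hj hm
    omega
  refine ⟨⟨⟨hm₁, hH ▸ hc.1.2⟩, hno₁⟩, ?_⟩
  have hE : S.clE (γ₁ ++ v₁) = S.clE (γ₂ ++ v₁) := by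
    have h0 := hf 0
    rw [add_zero, add_zero] at h0
    unfold clE
    rw [hH, ht, h0]
  have hP : S.clP (γ₁ ++ v₁) = S.clP (γ₂ ++ v₁) :=
    Set.Subset.antisymm (S.geoE_clP h₁ h₂ hfar₁ hH hf)
      (S.geoE_clP h₂ h₁ hfar₂ hH.symm fun g => (hf g).symm)
  unfold claims
  rw [hE, hP]

end Setup

end Crest.Agent.R320
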