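import Crest.Agent.R320.Cell

/-!
# R320: two worlds, target = the marker before the end of the cell

`γ₂ ++ v₁ ++ v₂` is a cell and `γ₂ ++ v₁` is a marker with offset `e₂ ≥ -3 W`; as it is not a
cell end, `H e₂ < 0` and `e₂ < W`.  The short prefix `γ₂` is replaced by another short word `γ₁`;
`e = off (γ₁ ++ v₁)` has `|e - e₂| < W`.  Since `T = 6 W + L`, `v₁.length > 2 W + L`, so
`γ₁ ++ v₁ ++ t` is a marker iff `γ₂ ++ v₁ ++ t` is (`mark_swap`).  `v₂.length ≥ 7 W` (`mr.sep`).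
There is no marker strictly inside `v₂` (it would have offset `≥ 4 W`, a cell end by
`end_of_mark`).  Markers before `γᵢ ++ v₁` have offset `< 2 W - 7 W` (`mark_sep`).
-/

set_option autoImplicit false

namespace Crest.Agent.R320

universe u

namespace Setup

variable {α : Type u} {G V : Type} [AddCommGroup V] (S : Setup α G V)

private theorem geoP_before {u : List α} (hm : S.mr.mark u) (h2 : S.off u < 2 * S.ga.W) :
    ∀ j, j < u.length → ¬ S.End (u.take j) := by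
  intro j hj hE
  have h3 := S.mark_sep hj le_rfl hE.1 (by rwa [List.take_length])
  have h4 := hE.T_le
  rw [List.length_take, min_eq_left hj.le] at h4
  unfold off at h2
  omega

private theorem geoP_cell {u v : List α} (hm : S.mr.mark u) (hm' : S.mr.mark (u ++ v))
    (hv : 7 * S.ga.W ≤ v.length) (h1 : -4 * (S.ga.W : ℤ) < S.off u) (hH : S.ga.H (S.off u) < 0)
    (hno : ∀ j, 0 < j → j < v.length → ¬ S.mr.mark (u ++ v.take j)) : S.IsCell (u ++ v) := by
  have h2 := S.ga.lt_H (S.off u)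
  refine ⟨S.end_of_mark hm' ?_, fun j hj hE => ?_⟩
  · rw [List.length_append]
    unfold off at h1
    omega
  · rcases lt_trichotomy j u.length with h | h | h
    · rw [List.take_append_of_le_length h.le] at hE
      exact geoP_before S hm (by omega) j h hE
    · rw [h, List.take_left'  rfl] at hE
      have := hE.2
      omega
    · rw [List.take_append, List.take_of_length_le h.le] at hE
      rw [List.length_append] at hj
      exact hno (j - u.length) (by omega) (by omega) hE.1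

private theorem geoP_clE {u v : List α} (hv : 7 * S.ga.W ≤ v.length)
    (h1 : -4 * (S.ga.W : ℤ) < S.off u) :
    S.clE (u ++ v) = S.ga.cl true (S.off u + v.length) := by
  have h2 := S.ga.lt_H (S.off u + v.length)
  ext q
  simp only [clE, Set.mem_setOf_eq, S.off_append]
  constructor
  · rintro (h | ⟨h, -⟩)
    · exact h
    · omega
  · exact Or.inl

private theorem geoP_clP {u v : List α} (hm : S.mr.mark u) (hv : 7 * S.ga.W ≤ v.length)
    (h1 : -4 * (S.ga.W : ℤ) < S.off u) (h2 : S.off u < S.ga.W) :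
    S.clP (u ++ v) = {q | q ∈ S.ga.cl false (S.off u) ∨
      (-2 * (S.ga.W : ℤ) ≤ S.ga.H (S.off u) ∧ q ∈ S.ga.cl true (S.off u))} := by
  have hW := S.W_pos
  have h3 := S.ga.lt_H (S.off u + v.length)
  have hu : (u ++ v).take u.length = u := List.take_left' rfl
  ext q
  simp only [clP, Set.mem_setOf_eq, S.off_append]
  constructor
  · rintro ⟨g, ⟨g0, g1, g2, g3⟩, hq⟩
    rw [S.off_append] at g2
    have h4 := S.ga.H_le (S.off u + v.length)
    have h5 := S.ga.H_le (S.off u + v.length - g)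
    have h6 : -5 * (S.ga.W : ℤ) ≤ S.off u + v.length - g := by
      rcases hq with ⟨h, -⟩ | ⟨h, -⟩ <;> omega
    have hl : (u ++ v).length = u.length + v.length := List.length_append
    have hg : g = v.length := by
      rcases lt_trichotomy ((u ++ v).length - g) u.length with h | h | h
      · have := S.mark_sep h (by omega) g3 (by rwa [hu])
        omega
      · omega
      · have := S.mark_sep h (by omega) (by rwa [hu]) g3
        omega
    subst hg
    rw [add_sub_cancel_right] at hq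
    rcases hq with ⟨-, h⟩ | h
    · exact Or.inl h
    · exact Or.inr h
  · intro hq
    refine ⟨v.length, ⟨by omega, by simp, ?_, ?_⟩, ?_⟩
    · rw [S.off_append]
      omega
    · rw [List.length_append, Nat.add_sub_cancel, hu]
      exact hm
    · rw [add_sub_cancel_right]
      rcases hq with h | h
      · exact Or.inl ⟨by omega, h⟩
      · exact Or.inr h

private theorem geoP_facts {γ₂ v₁ v₂ : List α} (h₂ : γ₂.length < S.ga.W)
    (hc : S.IsCell (γ₂ ++ v₁ ++ v₂)) (hv₂ : v₂ ≠ []) (hm : S.mr.mark (γ₂ ++ v₁))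
    (hnear : -3 * (S.ga.W : ℤ) ≤ S.off (γ₂ ++ v₁)) :
    S.ga.H (S.off (γ₂ ++ v₁)) < 0 ∧ 7 * S.ga.W ≤ v₂.length ∧ ∀ γ₁ : List α, γ₁.length < S.ga.W →
      S.mr.mark (γ₁ ++ v₁) ∧ S.mr.mark (γ₁ ++ v₁ ++ v₂) ∧ -4 * (S.ga.W : ℤ) < S.off (γ₁ ++ v₁) ∧
      S.off (γ₁ ++ v₁) < 2 * S.ga.W ∧
      ∀ j, 0 < j → j < v₂.length → ¬ S.mr.mark (γ₁ ++ v₁ ++ v₂.take j) := by
  have hv0 : 0 < v₂.length := List.length_pos_iff.2 hv₂
  have hH : S.ga.H (S.off (γ₂ ++ v₁)) < 0 := by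
    have := hc.2 (γ₂ ++ v₁).length (by rw [List.length_append (as := γ₂ ++ v₁)]; omega)
    rw [List.take_left' rfl] at this
    by_contra hne
    exact this ⟨hm, not_lt.1 hne⟩
  have h3 := S.ga.lt_H (S.off (γ₂ ++ v₁))
  have e2 : S.off (γ₂ ++ v₁) = (γ₂.length : ℤ) + v₁.length - (6 * S.ga.W + S.mr.L) := by
    simp only [off, T, List.length_append]
    push_cast
    ring
  have hL : S.mr.L ≤ v₁.length := by omega
  have h7 : 7 * S.ga.W ≤ v₂.length := (S.mr.sep _ _ hm hc.1.1).resolve_left hv₂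
  have hsw : ∀ γ₁ t : List α, S.mr.mark (γ₁ ++ v₁ ++ t) ↔ S.mr.mark (γ₂ ++ v₁ ++ t) := by
    intro γ₁ t
    rw [List.append_assoc, List.append_assoc]
    exact S.mark_swap (by rw [List.length_append]; omega)
  refine ⟨hH, h7, fun γ₁ h₁ => ?_⟩
  have e1 : S.off (γ₁ ++ v₁) = (γ₁.length : ℤ) + v₁.length - (6 * S.ga.W + S.mr.L) := by
    simp only [off, T, List.length_append]
    push_cast
    ring
  refine ⟨(S.mark_swap hL).2 hm, (hsw γ₁ v₂).2 hc.1.1, by omega, by omega, fun j j0 j1 hj => ?_⟩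
  have hj' := (hsw γ₁ _).1 hj
  have hlen : (v₂.take j).length = j := by rw [List.length_take]; omega
  have h8 : 7 * S.ga.W ≤ (v₂.take j).length := by
    refine (S.mr.sep _ _ hm hj').resolve_left fun h => ?_
    rw [h] at hlen
    simp at hlen
    omega
  have hE := S.end_of_mark hj' (by
    rw [List.length_append, List.length_append]
    unfold T
    omega)
  refine hc.2 ((γ₂ ++ v₁).length + j) (by rw [List.length_append (as := γ₂ ++ v₁)]; omega) ?_
  rwa [List.take_length_add_append]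

/-- If `0 ≤ H e` then `γ₁ ++ v₁` is a cell, `H e ≤ e < 2 W` and `q ∈ clE`.  Otherwise
`γ₁ ++ v₁ ++ v₂` is a cell and `q ∈ clP` with `g = v₂.length`, first alternative:
`H (e + g) - g > e - W > -5 W`. -/
theorem offP {γ₁ γ₂ v₁ v₂ : List α} (h₁ : γ₁.length < S.ga.W) (h₂ : γ₂.length < S.ga.W)
    (hc : S.IsCell (γ₂ ++ v₁ ++ v₂)) (hv₂ : v₂ ≠ []) (hm : S.mr.mark (γ₂ ++ v₁))
    (hnear : -3 * (S.ga.W : ℤ) ≤ S.off (γ₂ ++ v₁))
    (q : Lab S.bl × Lab S.bl × Lab S.bl) (hq : q ∈ S.ga.cl false (S.off (γ₁ ++ v₁))) :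
    (S.IsCell (γ₁ ++ v₁) ∧ q ∈ S.clE (γ₁ ++ v₁)) ∨
      (S.IsCell (γ₁ ++ v₁ ++ v₂) ∧ q ∈ S.clP (γ₁ ++ v₁ ++ v₂)) := by
  obtain ⟨-, h7, hw⟩ := geoP_facts S h₂ hc hv₂ hm hnear
  obtain ⟨m1, m2, o1, o2, hno⟩ := hw γ₁ h₁
  by_cases hH : 0 ≤ S.ga.H (S.off (γ₁ ++ v₁))
  · have := S.ga.H_le (S.off (γ₁ ++ v₁))
    exact Or.inl ⟨⟨⟨m1, hH⟩, geoP_before S m1 o2⟩, Or.inr ⟨by omega, hq⟩⟩
  · have := S.ga.lt_H (S.off (γ₁ ++ v₁))
    refine Or.inr ⟨geoP_cell S m1 m2 h7 o1 (by omega) hno, ?_⟩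
    rw [geoP_clP S m1 h7 o1 (by omega)]
    exact Or.inl hq

/-- `H e = H e₂ < 0`, so `γ₁ ++ v₁ ++ v₂` is a cell and `e < W`.  `clE`: the end has offset
`> -4 W + 7 W`, so `H ≥ 2 W` in both worlds, and `ht v₂.length` applies.  `clP`: in both worlds the
only possible `g` is `v₂.length` (a `g` has offset in `[-5 W, W)`, `mark_sep`), the first
condition holds in both worlds, the second depends only on `H e`; use `hf`, `ht 0`. -/
theorem diagP {γ₁ γ₂ v₁ v₂ : List α} (h₁ : γ₁.length < S.ga.W) (h₂ : γ₂.length < S.ga.W)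
    (hc : S.IsCell (γ₂ ++ v₁ ++ v₂)) (hv₂ : v₂ ≠ []) (hm : S.mr.mark (γ₂ ++ v₁))
    (hnear : -3 * (S.ga.W : ℤ) ≤ S.off (γ₂ ++ v₁))
    (hH : S.ga.H (S.off (γ₁ ++ v₁)) = S.ga.H (S.off (γ₂ ++ v₁)))
    (hf : S.ga.cl false (S.off (γ₁ ++ v₁)) = S.ga.cl false (S.off (γ₂ ++ v₁)))
    (ht : ∀ g : ℤ, S.ga.cl true (S.off (γ₁ ++ v₁) + g) = S.ga.cl true (S.off (γ₂ ++ v₁) + g)) :
    S.IsCell (γ₁ ++ v₁ ++ v₂) ∧ S.claims (γ₁ ++ v₁ ++ v₂) = S.claims (γ₂ ++ v₁ ++ v₂) := by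
  obtain ⟨hH₂, h7, hw⟩ := geoP_facts S h₂ hc hv₂ hm hnear
  obtain ⟨m1, m2, o1, -, hno⟩ := hw γ₁ h₁
  obtain ⟨-, -, o2, -, -⟩ := hw γ₂ h₂
  have a1 := S.ga.lt_H (S.off (γ₁ ++ v₁))
  have a2 := S.ga.lt_H (S.off (γ₂ ++ v₁))
  refine ⟨geoP_cell S m1 m2 h7 o1 (by omega) hno, ?_⟩
  have ht0 := ht 0
  rw [add_zero, add_zero] at ht0
  unfold claims
  rw [geoP_clE S h7 o1, geoP_clE S h7 o2, geoP_clP S m1 h7 o1 (by omega),
    geoP_clP S hm h7 o2 (by omega), ht, hH, hf, ht0]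

end Setup

end Crest.Agent.R320
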