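import Crest.Agent.R320.Cell

/-!
# R320: the machine has a finite summary; a cell has at most 32 claims
-/

set_option autoImplicit false

namespace Crest.Agent.R320

universe u

namespace Setup

variable {α : Type u} {G V : Type} [AddCommGroup V] (S : Setup α G V)

theorem summ_lab_finite [Finite G] : Finite (Lab S.bl) := by
  have := S.bl.fin
  exact (List.finite_length_le (G × S.bl.M) S.bl.k).to_subtype

theorem summ_clE_sub (γ : List α) :
    S.clE γ ⊆ S.ga.cl true (S.off γ) ∪ S.ga.cl false (S.off γ) := by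
  rintro q (h | h)
  · exact Or.inl h
  · exact Or.inr h.2

theorem summ_clP_sub (γ : List α) : ∃ e : ℤ, S.clP γ ⊆ S.ga.cl true e ∪ S.ga.cl false e := by
  by_cases h0 : ∃ g : ℕ, S.Prev γ g ∧ -5 * (S.ga.W : ℤ) ≤ S.off γ - g
  · obtain ⟨g0, ⟨a1, a2, a3, a4⟩, a5⟩ := h0
    refine ⟨S.off γ - g0, ?_⟩
    rintro q ⟨g, ⟨b1, b2, b3, b4⟩, hq⟩
    have b5 : -5 * (S.ga.W : ℤ) ≤ S.off γ - g := by
      have h1 := S.ga.H_le (S.off γ)
      have h2 := S.ga.H_le (S.off γ - g)
      rcases hq with hq | hq <;> have := hq.1 <;> omega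
    have hg : g = g0 := by
      rcases lt_trichotomy g g0 with h | h | h
      · have := S.mark_sep (w := γ) (i := γ.length - g0) (j := γ.length - g) (by omega) (by omega)
          a4 b4
        omega
      · exact h
      · have := S.mark_sep (w := γ) (i := γ.length - g) (j := γ.length - g0) (by omega) (by omega)
          b4 a4
        omega
    subst hg
    rcases hq with hq | hq
    · exact Or.inr hq.2
    · exact Or.inl hq.2
  · refine ⟨0, ?_⟩
    rintro q ⟨g, hg, hq⟩
    refine (h0 ⟨g, hg, ?_⟩).elim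
    have h1 := S.ga.H_le (S.off γ)
    have h2 := S.ga.H_le (S.off γ - g)
    rcases hq with hq | hq <;> have := hq.1 <;> omega

/-- `clE γ ⊆ cl true e ∪ cl false e`.  In `clP γ` every `g` has `-5 W ≤ off γ - g < W` (use
`H_le`), so `g` is unique by `mark_sep`, and `clP γ ⊆ cl false (e - g) ∪ cl true (e - g)`.
`Lab` is finite (`List.finite_length_le`, `bl.fin`); use `cl_card`, `Set.ncard_union_le`,
`Set.ncard_image_le`. -/
theorem claims_card [Finite G] (γ : List α) :
    (S.claims γ).Finite ∧ (S.claims γ).ncard ≤ 32 := by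
  have := S.summ_lab_finite
  have key : ∀ (A : Set (Lab S.bl × Lab S.bl × Lab S.bl)) (e : ℤ),
      A ⊆ S.ga.cl true e ∪ S.ga.cl false e → A.ncard ≤ 16 := by
    intro A e hA
    have h1 := Set.ncard_le_ncard hA
    have h2 := Set.ncard_union_le (S.ga.cl true e) (S.ga.cl false e)
    have h3 := S.ga.cl_card true e
    have h4 := S.ga.cl_card false e
    omega
  obtain ⟨e, he⟩ := S.summ_clP_sub γ
  refine ⟨((Set.toFinite _).image _).union ((Set.toFinite _).image _), ?_⟩
  refine (Set.ncard_union_le _ _).trans ?_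
  have h1 := key _ _ (S.summ_clE_sub γ)
  have h2 := key _ _ he
  exact (Nat.add_le_add ((Set.ncard_image_le).trans h1) ((Set.ncard_image_le).trans h2))

theorem summ_cases {γ γ' : List α} (h : S.summ γ = S.summ γ') :
    γ = γ' ∨ (S.C ≤ γ.length ∧ S.C ≤ γ'.length) := by
  have h1 : γ.take S.C = γ'.take S.C := congrArg Prod.fst h
  have h2 := congrArg List.length h1
  rw [List.length_take, List.length_take] at h2
  by_cases hc : S.C ≤ γ.length ∧ S.C ≤ γ'.length
  · exact Or.inr hc
  · left
    rwa [List.take_of_length_le (by omega), List.take_of_length_le (by omega)] at h1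

theorem summ_mark {γ : List α} (h : S.mr.L ≤ γ.length) :
    S.mr.mark γ ↔ S.mr.mark (γ.drop (γ.length - S.mr.L)) := by
  conv_lhs => rw [← List.take_append_drop (γ.length - S.mr.L) γ]
  exact S.mr.loc _ _ (by rw [List.length_drop]; omega)

theorem summ_dvd {γ γ' : List α} (h : S.summ γ = S.summ γ') :
    (S.ga.N : ℤ) ∣ S.off γ - S.off γ' := by
  have h0 : γ.length % S.ga.N = γ'.length % S.ga.N := congrArg (fun p => p.2.2.1) h
  have h1 : γ'.length ≡ γ.length [MOD S.ga.N] := h0.symm
  have h2 := Nat.modEq_iff_dvd.1 h1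
  have e : S.off γ - S.off γ' = (γ.length : ℤ) - γ'.length := by unfold off; ring
  rwa [e]

theorem summ_clP {γ γ' : List α} (h : S.summ γ = S.summ γ') (hc' : S.C ≤ γ'.length) :
    S.clP γ ⊆ S.clP γ' := by
  rintro q ⟨g, ⟨b1, b2, b3, b4⟩, hq⟩
  have h1 : γ.take S.C = γ'.take S.C := congrArg Prod.fst h
  have h2 := S.ga.per_H _ _ (S.summ_dvd h)
  have hp : γ.length - g < S.T + S.ga.W := by unfold off at b3; omega
  have hC : S.C = S.T + 3 * S.ga.W := rfl
  have e1 : S.off γ' - (γ'.length - (γ.length - g) : ℕ) = S.off γ - g := by unfold off; omega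
  have e2 : S.ga.H (S.off γ') - (γ'.length - (γ.length - g) : ℕ) = S.ga.H (S.off γ) - g := by omega
  have e3 : γ'.take (γ'.length - (γ'.length - (γ.length - g))) = γ.take (γ.length - g) := by
    have e4 : γ'.length - (γ'.length - (γ.length - g)) = γ.length - g := by omega
    have e5 := congrArg (List.take (γ.length - g)) h1
    rw [List.take_take, List.take_take, min_eq_left (by omega)] at e5
    rw [e4, e5]
  refine ⟨γ'.length - (γ.length - g), ⟨by omega, by omega, by omega, by rwa [e3]⟩, ?_⟩
  rwa [e1, e2]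

/-- Words with the same summary.  If `γ.length < C` then `γ = γ'` (compare the lengths of
`take C`).  Otherwise both have length `≥ C ≥ L`, the same last `L` letters (so `mark` agrees by
`mr.loc`), `0 ≤ H` holds for both (`lt_H`), `H (off ·) < 2 W` fails for both, `N ∣ off γ - off γ'`
(`per_cl`, `per_H`), and the `g` in `clP γ` corresponds to `g' = g + γ'.length - γ.length`: the
marker position `γ.length - g` is below `T + W ≤ C`, so it is read from `take C`. -/
theorem summ_end {γ γ' : List α} (h : S.summ γ = S.summ γ') :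
    (S.End γ ↔ S.End γ') ∧ S.y γ = S.y γ' := by
  rcases S.summ_cases h with rfl | ⟨hc, hc'⟩
  · exact ⟨Iff.rfl, rfl⟩
  have hC : S.C = S.T + 3 * S.ga.W := rfl
  have hT : S.T = 6 * S.ga.W + S.mr.L := rfl
  have h1 : γ.drop (γ.length - S.mr.L) = γ'.drop (γ'.length - S.mr.L) :=
    congrArg (fun p => p.2.1) h
  have h2 : S.pr γ = S.pr γ' := congrArg (fun p => p.2.2.2) h
  have hH : ∀ w : List α, S.C ≤ w.length → 2 * (S.ga.W : ℤ) ≤ S.ga.H (S.off w) := by
    intro w hw
    have := S.ga.lt_H (S.off w)
    unfold off at this ⊢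
    omega
  have a1 := hH γ hc
  have a2 := hH γ' hc'
  have hE : S.clE γ = S.clE γ' := by
    ext q
    simp only [clE, Set.mem_ofPred_eq, S.ga.per_cl true _ _ (S.summ_dvd h), not_lt.2 a1,
      not_lt.2 a2, false_and]
  have hP : S.clP γ = S.clP γ' := (S.summ_clP h hc').antisymm (S.summ_clP h.symm hc)
  refine ⟨?_, ?_⟩
  · unfold End
    rw [S.summ_mark (γ := γ) (by omega), S.summ_mark (γ := γ') (by omega), h1]
    exact and_congr Iff.rfl (iff_of_true (by omega) (by omega))
  · rw [y, y, h2, claims, claims, hE, hP]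

/-- The summary is a right congruence. -/
theorem summ_snoc {γ γ' : List α} (h : S.summ γ = S.summ γ') (a : α) :
    S.summ (γ ++ [a]) = S.summ (γ' ++ [a]) := by
  rcases S.summ_cases h with rfl | ⟨hc, hc'⟩
  · rfl
  have hC : S.C = S.T + 3 * S.ga.W := rfl
  have hT : S.T = 6 * S.ga.W + S.mr.L := rfl
  have hL := S.mr.L_pos
  have h0 : γ.take S.C = γ'.take S.C := congrArg Prod.fst h
  have h1 : γ.drop (γ.length - S.mr.L) = γ'.drop (γ'.length - S.mr.L) :=
    congrArg (fun p => p.2.1) h
  have h2 : S.pr γ = S.pr γ' := congrArg (fun p => p.2.2.2) h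
  have h3 : γ.length % S.ga.N = γ'.length % S.ga.N := congrArg (fun p => p.2.2.1) h
  have hd : ∀ w : List α, S.mr.L ≤ w.length → (w ++ [a]).drop ((w ++ [a]).length - S.mr.L) =
      (w.drop (w.length - S.mr.L) ++ [a]).drop 1 := by
    intro w hw
    rw [← List.drop_append_of_le_length (by omega), List.drop_drop, List.length_append,
      List.length_singleton]
    congr 1
    omega
  have hp : ∀ w : List α, S.pr (w ++ [a]) = S.mul (S.pr w) a := fun w => by
    simp [pr, List.foldl_append]
  unfold summ
  rw [List.take_append_of_le_length hc, List.take_append_of_le_length hc', hd γ (by omega),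
    hd γ' (by omega), hp, hp, h0, h1, h2, List.length_append, List.length_append, Nat.add_mod, h3,
    ← Nat.add_mod]

theorem step_mem_II (s : S.St) (hs : s ∈ S.II) (a : α) : S.step s a ∈ S.II := by
  have hk := S.bl.two_le
  unfold step push
  split_ifs with h1 h2
  · exact h2
  · change 0 < S.bl.k
    omega
  · exact hs

theorem kap_step (s s' : S.St) (h : S.kap s = S.kap s') (a : α) :
    S.kap (S.step s a) = S.kap (S.step s' a) := by
  have h1 : s.1 = s'.1 := (Prod.ext_iff.1 h).1
  have h2 : s.2.1 = s'.2.1 := congrArg (fun p => p.2.1) h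
  have h3 : S.summ s.2.2 = S.summ s'.2.2 := congrArg (fun p => p.2.2) h
  have h4 := S.summ_snoc h3 a
  obtain ⟨h5, h6⟩ := S.summ_end h4
  unfold step
  by_cases he : S.End (s.2.2 ++ [a])
  · rw [if_pos he, if_pos (h5.1 he), h1, h2, h6]
  · rw [if_neg he, if_neg (fun h' => he (h5.2 h'))]
    simp only [kap, h1, h2, h4]

/-- Each component ranges over a finite set (`List.finite_length_le`, `N_pos`). -/
theorem kap_finite [Finite α] [Finite G] [Finite V] : (S.kap '' S.II).Finite := by
  have := S.bl.fin
  refine ((Set.finite_univ (α := V)).prod ((List.finite_length_le S.Y S.bl.k).prod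
    ((List.finite_length_le α S.C).prod ((List.finite_length_le α S.mr.L).prod
      ((Set.finite_Iio S.ga.N).prod (Set.finite_univ (α := G))))))).subset ?_
  rintro _ ⟨s, hs, rfl⟩
  have hs' : s.2.1.length < S.bl.k := hs
  refine ⟨trivial, hs'.le, List.length_take_le _ _, ?_, Nat.mod_lt _ S.ga.N_pos, trivial⟩
  change (s.2.2.drop _).length ≤ _
  rw [List.length_drop]
  omega

end Setup

end Crest.Agent.R320
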