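import Crest.Agent.R320.Run
import Crest.Agent.R320.Summ
import Crest.Agent.R320.GeoE
import Crest.Agent.R320.GeoP

/-!
# R320: the synchronization step
-/

set_option autoImplicit false

namespace Crest.Agent.R320

universe u

namespace Setup

variable {α : Type u} {G V : Type} [AddCommGroup V] (S : Setup α G V)

theorem visit_of {t : S.St} {a b : List α} (ha : a ≠ []) (hb : b ≠ [])
    (h : a.foldl S.step t = S.s0) : Visit S.step S.s0 t (a ++ b) := by
  refine ⟨a.length, List.length_pos_of_ne_nil ha, ?_, by simpa using h⟩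
  have := List.length_pos_of_ne_nil hb
  simp; omega

theorem fin_eq_s0 {x : V} {l : List S.Y} (h : S.bl.z l = x) : S.fin x l = S.s0 := by
  simp [fin, s0, h, S.ac_zero]

/-- A right claim kills the run. -/
theorem kill_claim [Finite G] {l₁ : List S.Y} {γ₁ a r : List α} {ds : List (List α)}
    (hl : l₁.length < S.bl.k) (ha : a ≠ []) (hc : S.IsCell (γ₁ ++ a))
    (hds : ∀ d ∈ ds, S.IsCell d) (hk : ds.length = S.bl.k) (hr : r ≠ [])
    (hcl : (l₁, ds.map S.y) ∈ S.claims (γ₁ ++ a)) :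
    Visit S.step S.s0 (S.bl.X l₁.length, l₁, γ₁) (a ++ (ds.flatten ++ r)) := by
  set n := S.bl.k - 1 - l₁.length with hn
  have e : a ++ (ds.flatten ++ r) = (a ++ (ds.take n).flatten) ++ ((ds.drop n).flatten ++ r) := by
    conv_lhs => rw [← List.take_append_drop n ds, List.flatten_append]
    simp only [List.append_assoc]
  rw [e]
  refine S.visit_of (by simp [ha]) (by simp [hr]) ?_
  have hlen : l₁.length + 1 + (ds.take n).length = S.bl.k := by
    rw [List.length_take]; omega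
  rw [List.foldl_append, S.run_cell _ _ _ _ ha hc,
    S.run_push _ _ _ _ (fun c h => hds c (List.mem_of_mem_take h)) hlen]
  apply S.fin_eq_s0
  refine S.bl.fire _ (S.claims_card _).1 (S.claims_card _).2 l₁ _ (ds.map S.y) _ hcl ?_ ?_
  · rw [List.map_take]; exact List.take_prefix _ _
  · simpa using hlen

/-- Same label, same claims: the run merges with the true run or is killed by the twist. -/
theorem diag_case {x : V} {lam : List S.Y} {γ₁ γ₂ t r : List α} {cs : List (List α)}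
    (ht : t ≠ []) (h₁ : S.IsCell (γ₁ ++ t)) (h₂ : S.IsCell (γ₂ ++ t))
    (hcl : S.claims (γ₁ ++ t) = S.claims (γ₂ ++ t)) (hcs : ∀ c ∈ cs, S.IsCell c)
    (hk : lam.length + 1 + cs.length = S.bl.k) (hr : r ≠ [])
    (htw : ∀ a', a' ≠ S.pr (γ₂ ++ t) →
      S.bl.z (lam ++ (a', S.bl.Φ (S.claims (γ₂ ++ t))) :: cs.map S.y) = x) :
    Visit S.step S.s0 (x, lam, γ₁) (t ++ (cs.flatten ++ r)) ∨
      (t ++ (cs.flatten ++ r)).foldl S.step (x, lam, γ₁) =
        (t ++ (cs.flatten ++ r)).foldl S.step (x, lam, γ₂) := by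
  by_cases h : S.pr (γ₁ ++ t) = S.pr (γ₂ ++ t)
  · right
    rw [List.foldl_append, List.foldl_append (l := t), S.run_cell _ _ _ _ ht h₁,
      S.run_cell _ _ _ _ ht h₂]
    simp only [y, h, hcl]
  · left
    rw [← List.append_assoc]
    refine S.visit_of (by simp [ht]) hr ?_
    rw [List.foldl_append, S.run_cell _ _ _ _ ht h₁, S.run_push _ _ _ _ hcs hk]
    apply S.fin_eq_s0
    have := htw _ h
    simpa only [y, hcl] using this

theorem flatten_ne_nil {cs : List (List α)} (h : ∀ c ∈ cs, S.IsCell c) (hl : 0 < cs.length) :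
    cs.flatten ≠ [] := by
  obtain ⟨c, cs, rfl⟩ := List.exists_cons_of_length_pos hl
  have := (h c (by simp)).ne_nil
  simp [this]

/-- The common end of both cases. -/
theorem sync_of [Finite G] {x : V} {lam : List S.Y} (hlam : lam.length < S.bl.k)
    (hx : S.bl.X lam.length = x) {i : Bool} {γ₂ v₁ v₂ t r r₁ r₂ v : List α}
    {cs ds₁ ds₂ : List (List α)} (hv₁ : v₁ ≠ []) (ht : t ≠ [])
    (hds₁ : ∀ d ∈ ds₁, S.IsCell d) (hk₁ : ds₁.length = S.bl.k) (hr₁ : r₁ ≠ [])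
    (hds₂ : ∀ d ∈ ds₂, S.IsCell d) (hk₂ : ds₂.length = S.bl.k) (hr₂ : r₂ ≠ [])
    (hcs : ∀ c ∈ cs, S.IsCell c) (hk : lam.length + 1 + cs.length = S.bl.k) (hr : r ≠ [])
    (e₁ : v = v₁ ++ (ds₁.flatten ++ r₁)) (e₂ : v = (v₁ ++ v₂) ++ (ds₂.flatten ++ r₂))
    (e₀ : v = t ++ (cs.flatten ++ r)) (hc : S.IsCell (γ₂ ++ t))
    (hu : γ₂.length = S.ga.f i (S.off (γ₂ ++ v₁)) ⟨lam, hlam.le⟩
      (⟨ds₁.map S.y, by simp [hk₁]⟩, ⟨ds₂.map S.y, by simp [hk₂]⟩))
    (htw : ∀ a', a' ≠ S.pr (γ₂ ++ t) →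
      S.bl.z (lam ++ (a', S.bl.Φ (S.claims (γ₂ ++ t))) :: cs.map S.y) = x)
    (hoff : ∀ γ₁ : List α, γ₁.length < S.ga.W → ∀ q, q ∈ S.ga.cl i (S.off (γ₁ ++ v₁)) →
      (S.IsCell (γ₁ ++ v₁) ∧ q ∈ S.clE (γ₁ ++ v₁)) ∨
        (S.IsCell (γ₁ ++ v₁ ++ v₂) ∧ q ∈ S.clP (γ₁ ++ v₁ ++ v₂)))
    (hdiag : ∀ γ₁ : List α, γ₁.length < S.ga.W →
      S.ga.H (S.off (γ₁ ++ v₁)) = S.ga.H (S.off (γ₂ ++ v₁)) →
      S.ga.cl i (S.off (γ₁ ++ v₁)) = S.ga.cl i (S.off (γ₂ ++ v₁)) →
      (∀ g : ℤ, S.ga.cl (!i) (S.off (γ₁ ++ v₁) + g) = S.ga.cl (!i) (S.off (γ₂ ++ v₁) + g)) →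
      S.IsCell (γ₁ ++ t) ∧ S.claims (γ₁ ++ t) = S.claims (γ₂ ++ t)) :
    Sync S.step S.s0 S.LL v (v.foldl S.step (x, lam, γ₂)) := by
  rintro ⟨x₁, l₁, γ₁⟩ ⟨hl₁, hx₁, lab, i₁, e', r', hlab, hu₁⟩
  simp only at hl₁ hx₁ hlab hu₁
  subst hx₁
  have hW : γ₁.length < S.ga.W := hu₁ ▸ S.ga.f_lt _ _ _ _
  have hoffe : S.off (γ₁ ++ v₁) = S.off (γ₂ ++ v₁) + (γ₁.length : ℤ) - (γ₂.length : ℤ) := by
    simp only [off, List.length_append]; push_cast; ring
  rcases S.ga.main i₁ e' lab r' i (S.off (γ₂ ++ v₁)) ⟨lam, hlam.le⟩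
      (⟨ds₁.map S.y, by simp [hk₁]⟩, ⟨ds₂.map S.y, by simp [hk₂]⟩) (S.off (γ₁ ++ v₁))
      (by rw [← hu₁, ← hu]; exact hoffe) with h | ⟨hl, hH, hcl, hf⟩
  · left
    rcases hoff γ₁ hW _ h with ⟨h1, h2⟩ | ⟨h1, h2⟩
    · rw [e₁]
      exact S.kill_claim hl₁ hv₁ h1 hds₁ hk₁ hr₁ (Or.inl ⟨_, h2, by simp [hlab]⟩)
    · rw [e₂]
      rw [List.append_assoc] at h1 h2
      exact S.kill_claim hl₁ (by simp [hv₁]) h1 hds₂ hk₂ hr₂ (Or.inr ⟨_, h2, by simp [hlab]⟩)
  · obtain ⟨h1, h2⟩ := hdiag γ₁ hW hH hcl hf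
    have hl' : l₁ = lam := by rw [← hlab, hl]
    subst hl'
    rw [e₀, hx]
    exact S.diag_case ht h1 hc h2 hcs hk hr htw

/-- A cut inside the cell `γ` after which the text synchronizes. -/
theorem key [Finite G] {x : V} {lam : List S.Y} {γ : List α} (hγ : S.IsCell γ)
    {cs₁ cs₂ : List (List α)} (h₁ : ∀ c ∈ cs₁, S.IsCell c) (h₂ : ∀ c ∈ cs₂, S.IsCell c)
    (hk₁ : lam.length + 1 + cs₁.length = S.bl.k) (hk₂ : cs₂.length = 3 * S.bl.k)
    (hx : S.bl.X lam.length = x)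
    (htw : ∀ a', a' ≠ S.pr γ →
      S.bl.z (lam ++ (a', S.bl.Φ (S.claims γ)) :: cs₁.map S.y) = x) :
    ∃ u, u < γ.length ∧ ((x, lam, γ.take u) : S.St) ∈ S.LL ∧
      Sync S.step S.s0 S.LL (γ.drop u ++ (cs₁ ++ cs₂).flatten)
        ((γ.drop u ++ (cs₁ ++ cs₂).flatten).foldl S.step (x, lam, γ.take u)) := by
  have hk2 := S.bl.two_le
  have hW := S.W_pos
  have hL := S.mr.L_pos
  have hT := hγ.T_le
  have hTdef : S.T = 6 * S.ga.W + S.mr.L := rfl
  have hlam : lam.length < S.bl.k := by omega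
  set cs := cs₁ ++ cs₂ with hcs
  have hc : ∀ c ∈ cs, S.IsCell c := fun c h => (List.mem_append.1 h).elim (h₁ c) (h₂ c)
  have hlen : 3 * S.bl.k ≤ cs.length := by simp [hcs]; omega
  have hne₂ : cs₂.flatten ≠ [] := S.flatten_ne_nil h₂ (by omega)
  have hsplit : ∀ (ds : List (List α)) (n : ℕ), ds.flatten = (ds.take n).flatten ++
      (ds.drop n).flatten := fun ds n => by
    rw [← List.flatten_append, List.take_append_drop]
  have hdropne : ∀ n, n < cs.length → (cs.drop n).flatten ≠ [] := fun n hn =>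
    S.flatten_ne_nil (fun c h => hc c (List.mem_of_mem_drop h)) (by simp; omega)
  have hLL : ∀ (i : Bool) (e : ℤ) (r : Lab S.bl × Lab S.bl),
      ((x, lam, γ.take (S.ga.f i e ⟨lam, hlam.le⟩ r)) : S.St) ∈ S.LL := by
    intro i e r
    have := S.ga.f_lt i e ⟨lam, hlam.le⟩ r
    refine ⟨hlam, hx.symm, ⟨lam, hlam.le⟩, i, e, r, rfl, ?_⟩
    simp only [List.length_take]; omega
  by_cases hP : ∃ j, j < γ.length ∧ S.mr.mark (γ.take j) ∧ -3 * (S.ga.W : ℤ) ≤ (j : ℤ) - S.T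
  · obtain ⟨j, hj, hm, hnear⟩ := hP
    obtain ⟨ds₁, r₁, he₁, hds₁, hl₁⟩ := S.chain S.bl.k (γ.drop j) (cs.take (2 * S.bl.k))
      (fun c h => hc c (List.mem_of_mem_take h)) (by simp; omega)
    have hl₂ : (cs.take S.bl.k).length = S.bl.k := by simp; omega
    set R : Lab S.bl × Lab S.bl :=
      (⟨ds₁.map S.y, by simp [hl₁]⟩, ⟨(cs.take S.bl.k).map S.y, by simp⟩) with hR
    set u := S.ga.f false ((j : ℤ) - S.T) ⟨lam, hlam.le⟩ R with hu
    have huW : u < S.ga.W := S.ga.f_lt _ _ _ _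
    have huj : u < j := by omega
    have ea : γ.take u ++ (γ.take j).drop u = γ.take j := by
      conv_rhs => rw [← List.take_append_drop u (γ.take j)]
      rw [List.take_take, min_eq_left huj.le]
    have eb : (γ.take j).drop u ++ γ.drop j = γ.drop u := by
      conv_rhs => rw [← List.take_append_drop j γ]
      rw [List.drop_append_of_le_length (by simp; omega)]
    have ec : γ.take u ++ (γ.take j).drop u ++ γ.drop j = γ := by
      rw [ea, List.take_append_drop]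
    have ed : γ.take u ++ γ.drop u = γ := List.take_append_drop _ _
    have hoff : S.off (γ.take u ++ (γ.take j).drop u) = (j : ℤ) - S.T := by
      rw [ea]; simp [off, min_eq_left hj.le]
    have hul : (γ.take u).length = u := by simp; omega
    have hv₂ : γ.drop j ≠ [] := by simp; omega
    refine ⟨u, by omega, hLL _ _ _, ?_⟩
    refine S.sync_of hlam hx (i := false) (v₁ := (γ.take j).drop u) (v₂ := γ.drop j)
      (t := γ.drop u) (r := cs₂.flatten) (r₁ := r₁ ++ (cs.drop (2 * S.bl.k)).flatten)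
      (r₂ := (cs.drop S.bl.k).flatten) (cs := cs₁) (ds₁ := ds₁) (ds₂ := cs.take S.bl.k)
      (by simp; omega) (by simp; omega) hds₁ hl₁
      (by simp only [ne_eq, List.append_eq_nil_iff, not_and]; exact fun _ => hdropne _ (by omega))
      (fun c h => hc c (List.mem_of_mem_take h)) hl₂ (hdropne _ (by omega)) h₁ hk₁ hne₂
      ?_ ?_ ?_ (by rwa [ed]) (by rw [hoff, hul]) (by rwa [ed]) ?_ ?_
    · rw [← List.append_assoc ds₁.flatten, ← he₁, ← eb, hsplit cs (2 * S.bl.k)]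
      simp only [List.append_assoc]
    · rw [eb, ← hsplit]
    · rw [hcs, List.flatten_append]
    · intro γ₁ hγ₁ q hq
      exact S.offP (γ₂ := γ.take u) hγ₁ (by omega) (by rwa [ec]) hv₂ (by rwa [ea])
        (by rwa [hoff]) q hq
    · intro γ₁ hγ₁ hH hcl hf
      have := S.diagP hγ₁ (by omega) (by rwa [ec]) hv₂ (by rwa [ea]) (by rwa [hoff]) hH hcl hf
      rwa [List.append_assoc, List.append_assoc, eb] at this
  · have hfar : ∀ j, j < γ.length → S.mr.mark (γ.take j) → (j : ℤ) - S.T < -3 * (S.ga.W : ℤ) :=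
      fun j hj hm => not_le.1 fun h => hP ⟨j, hj, hm, h⟩
    obtain ⟨c, cs', hcc⟩ := List.exists_cons_of_length_pos (show 0 < cs.length by omega)
    have hcl' : cs'.length + 1 = cs.length := by simp [hcc]
    have hc' : ∀ d ∈ cs', S.IsCell d := fun d h => hc d (by simp [hcc, h])
    obtain ⟨v₂, t, hct, hv₂, hm, hno⟩ := S.next_mark γ c (hc c (by simp [hcc]))
    obtain ⟨ds₂, r₂, he₂, hds₂, hl₂⟩ := S.chain S.bl.k t (cs'.take (2 * S.bl.k))
      (fun c h => hc' c (List.mem_of_mem_take h)) (by simp; omega)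
    have hl₁ : (cs.take S.bl.k).length = S.bl.k := by simp; omega
    set R : Lab S.bl × Lab S.bl :=
      (⟨(cs.take S.bl.k).map S.y, by simp⟩, ⟨ds₂.map S.y, by simp [hl₂]⟩) with hR
    set u := S.ga.f true (S.off γ) ⟨lam, hlam.le⟩ R with hu
    have huW : u < S.ga.W := S.ga.f_lt _ _ _ _
    have ed : γ.take u ++ γ.drop u = γ := List.take_append_drop _ _
    have hul : (γ.take u).length = u := by simp; omega
    have hne : (cs'.drop (2 * S.bl.k)).flatten ≠ [] :=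
      S.flatten_ne_nil (fun c h => hc' c (List.mem_of_mem_drop h)) (by simp; omega)
    refine ⟨u, by omega, hLL _ _ _, ?_⟩
    refine S.sync_of hlam hx (i := true) (v₁ := γ.drop u) (v₂ := v₂)
      (t := γ.drop u) (r := cs₂.flatten) (r₁ := (cs.drop S.bl.k).flatten)
      (r₂ := r₂ ++ (cs'.drop (2 * S.bl.k)).flatten) (cs := cs₁) (ds₁ := cs.take S.bl.k)
      (ds₂ := ds₂) (by simp; omega) (by simp; omega)
      (fun c h => hc c (List.mem_of_mem_take h)) hl₁ (hdropne _ (by omega)) hds₂ hl₂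
      (by simp only [ne_eq, List.append_eq_nil_iff, not_and]; exact fun _ => hne)
      h₁ hk₁ hne₂ ?_ ?_ ?_ (by rwa [ed]) (by rw [ed, hul]) (by rwa [ed]) ?_ ?_
    · rw [← hsplit]
    · rw [← List.append_assoc ds₂.flatten, ← he₂, hcc, List.flatten_cons, hct,
        hsplit cs' (2 * S.bl.k)]
      simp only [List.append_assoc]
    · rw [hcs, List.flatten_append]
    · intro γ₁ hγ₁ q hq
      exact S.offE (γ₂ := γ.take u) hγ₁ (by omega) (by rwa [ed]) (by rwa [ed]) hv₂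
        (by rwa [ed]) (by rwa [ed]) q hq
    · intro γ₁ hγ₁ hH hcl hf
      exact S.diagE hγ₁ (by omega) (by rwa [ed]) (by rwa [ed]) hH hcl hf

theorem step_main [Finite G] :
    Step S.step S.s0 S.LL S.BB S.mr.P (4 * S.bl.k * S.nc) := by
  rintro ⟨x, l, γ₀⟩ hs w
  obtain ⟨rfl, rfl⟩ : l = [] ∧ γ₀ = [] := by simpa [BB] using hs
  have hk2 := S.bl.two_le
  rcases S.parse (4 * S.bl.k) w with ⟨cs, t, rfl, hc, hl⟩ | h
  swap
  · exact Or.inl h
  right
  obtain ⟨lam, a, m, rho, hys, hx, htw⟩ :=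
    S.bl.twist ((cs.take S.bl.k).map S.y) (by simp; omega) x
  obtain ⟨cs₀, cs', e₁, rfl, e₂⟩ := List.map_eq_append_iff.1 hys
  obtain ⟨γ, cs₁, rfl, hy, rfl⟩ := List.map_eq_cons_iff.1 e₂
  have ecs : cs = cs₀ ++ γ :: (cs₁ ++ cs.drop S.bl.k) := by
    conv_lhs => rw [← List.take_append_drop S.bl.k cs, e₁]
    simp
  have hlen : cs₀.length + 1 + cs₁.length = S.bl.k := by
    have := congrArg List.length e₁
    simp at this; omega
  have hc₀ : ∀ c ∈ cs₀, S.IsCell c := fun c h => hc c (by rw [ecs]; simp [h])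
  have hγ : S.IsCell γ := hc γ (by rw [ecs]; simp)
  have hc₁ : ∀ c ∈ cs₁, S.IsCell c := fun c h => hc c (by rw [ecs]; simp [h])
  have hc₂ : ∀ c ∈ cs.drop S.bl.k, S.IsCell c := fun c h => hc c (List.mem_of_mem_drop h)
  obtain ⟨ha, hm⟩ : S.pr γ = a ∧ S.bl.Φ (S.claims γ) = m := by simpa [y] using hy
  subst ha hm
  obtain ⟨u, hu, hLL, hsync⟩ := S.key (x := x) (lam := cs₀.map S.y) hγ hc₁ hc₂
    (by simpa using hlen) (by simp; omega) hx htw
  have hrun : (cs₀.flatten ++ γ.take u).foldl S.step (x, [], []) = (x, cs₀.map S.y, γ.take u) := by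
    rw [List.foldl_append, S.run_cells _ _ _ hc₀ (by simp; omega), S.run_take _ _ _ hγ u hu]
    simp
  have eall : cs₀.flatten ++ γ.take u ++ (γ.drop u ++ (cs₁ ++ cs.drop S.bl.k).flatten) =
      cs.flatten := by
    conv_rhs => rw [ecs]
    simp only [List.flatten_append, List.flatten_cons, List.append_assoc]
    rw [← List.append_assoc (γ.take u), List.take_append_drop]
  have hthin : Thin S.mr.P (4 * S.bl.k * S.nc) cs.flatten :=
    hl ▸ thin_flatten fun c h => (hc c h).thin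
  refine ⟨cs₀.flatten ++ γ.take u, γ.drop u ++ (cs₁ ++ cs.drop S.bl.k).flatten, t,
    by rw [eall], ?_, ?_, ?_, by rwa [hrun], ?_, ?_⟩
  · have := hthin.take (cs₀.flatten ++ γ.take u).length
    rwa [← eall, List.take_left] at this
  · have := hthin.drop (cs₀.flatten ++ γ.take u).length
    rwa [← eall, List.drop_left] at this
  · simp only [ne_eq, List.append_eq_nil_iff, List.drop_eq_nil_iff, not_and]
    omega
  · rwa [List.foldl_append, hrun]
  · rw [eall]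
    exact S.run_blocks 4 _ rfl cs hc hl

end Setup

end Crest.Agent.R320
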