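import Crest.Agent.R320.Basic

/-!
# R320: markers
-/

set_option autoImplicit false

namespace Crest.Agent.R320

universe u

/-- A local marker rule: markers are at least `n0` apart, and a word without markers is thin. -/
structure Marker (α : Type u) (n0 : ℕ) where
  L : ℕ
  P : ℕ
  n1 : ℕ
  mark : List α → Prop
  L_pos : 0 < L
  P_pos : 0 < P
  len : ∀ w, mark w → L ≤ w.length
  loc : ∀ u v, L ≤ v.length → (mark (u ++ v) ↔ mark v)
  sep : ∀ u v, mark u → mark (u ++ v) → v = [] ∨ n0 ≤ v.length
  cover : ∀ w : List α, (∀ j, j ≤ w.length → ¬ mark (w.take j)) → Thin P n1 w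

section Aux

variable {α : Type u}

/-- The window of length `l` at position `p`. -/
def mkWin (l : ℕ) (w : List α) (p : ℕ) : List α := (w.drop p).take l

theorem mkWin_length {l : ℕ} {w : List α} {p : ℕ} (h : p + l ≤ w.length) :
    (mkWin l w p).length = l := by
  simp only [mkWin, List.length_take, List.length_drop]
  omega

theorem mkWin_getElem? {l : ℕ} (w : List α) (p : ℕ) {i : ℕ} (hi : i < l) :
    (mkWin l w p)[i]? = w[p + i]? := by
  rw [mkWin, List.getElem?_take_of_lt hi, List.getElem?_drop]

theorem mkWin_append_left {l : ℕ} (u v : List α) {p : ℕ} (h : p + l ≤ u.length) :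
    mkWin l (u ++ v) p = mkWin l u p := by
  apply List.ext_getElem?
  intro i
  by_cases hi : i < l
  · rw [mkWin_getElem? _ _ hi, mkWin_getElem? _ _ hi, List.getElem?_append_left (by omega)]
  · rw [List.getElem?_eq_none, List.getElem?_eq_none]
    · simp only [mkWin, List.length_take]; omega
    · simp only [mkWin, List.length_take]; omega

theorem mkWin_take {l : ℕ} (w : List α) {p j : ℕ} (h : p + l ≤ j) (hj : j ≤ w.length) :
    mkWin l (w.take j) p = mkWin l w p := by
  conv_rhs => rw [← List.take_append_drop j w]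
  rw [mkWin_append_left]
  rw [List.length_take]
  omega

theorem mkWin_append_right {l : ℕ} (u v : List α) {k : ℕ} (h : k ≤ v.length) :
    mkWin l (u ++ v) ((u ++ v).length - k) = mkWin l v (v.length - k) := by
  have h1 : (u ++ v).length - k = u.length + (v.length - k) := by
    rw [List.length_append]; omega
  rw [h1, mkWin, mkWin, List.drop_append, List.drop_eq_nil_of_le (by omega)]
  simp

theorem mk_per_mul {d : ℕ} {y : List α} (h : Per d y) (k : ℕ) (hk : k * d < y.length) :
    y[0]? = y[k * d]? := by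
  induction k with
  | zero => simp
  | succ k ih =>
    have h1 : (k + 1) * d = k * d + d := by ring
    rw [h1] at hk ⊢
    rw [ih (by omega)]
    exact h _ hk

theorem mk_rank_exists (α : Type u) [Finite α] (l : ℕ) :
    ∃ (r0 : List α → ℕ) (R : ℕ), (∀ y, r0 y ≤ R) ∧
      ∀ y z : List α, y.length = l → z.length = l → r0 y = r0 z → y = z := by
  classical
  have hfin : {y : List α | y.length = l}.Finite := List.finite_length_eq α l
  have : Finite {y : List α | y.length = l} := hfin.to_subtype
  obtain ⟨N, ⟨e⟩⟩ := Finite.exists_equiv_fin {y : List α | y.length = l}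
  refine ⟨fun y => if h : y.length = l then (e ⟨y, h⟩ : ℕ) else 0, N, fun y => ?_, ?_⟩
  · by_cases h : y.length = l
    · simp only [h, dif_pos]
      exact (e ⟨y, h⟩).2.le
    · simp [h]
  · intro y z hy hz hyz
    simp only [hy, hz, dif_pos] at hyz
    have := e.injective (Fin.ext hyz)
    exact congrArg Subtype.val this

open Classical in
/-- The rank of a window. -/
noncomputable def mkRk (n0 : ℕ) (r0 : List α → ℕ) (y : List α) : ℕ :=
  if ∃ d, 0 < d ∧ d < n0 ∧ Per d y then 0 else r0 y + 1

theorem mkRk_le {n0 R : ℕ} {r0 : List α → ℕ} (h : ∀ y, r0 y ≤ R) (y : List α) :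
    mkRk n0 r0 y ≤ R + 1 := by
  unfold mkRk
  split_ifs
  · omega
  · have := h y
    omega

theorem mkRk_pos {n0 : ℕ} {r0 : List α → ℕ} {y : List α} (h : 0 < mkRk n0 r0 y) :
    (¬ ∃ d, 0 < d ∧ d < n0 ∧ Per d y) ∧ mkRk n0 r0 y = r0 y + 1 := by
  unfold mkRk at h ⊢
  split_ifs at h ⊢ with h1
  · omega
  · exact ⟨h1, rfl⟩

theorem mkRk_zero {n0 : ℕ} {r0 : List α → ℕ} {y : List α} (h : mkRk n0 r0 y = 0) :
    ∃ d, 0 < d ∧ d < n0 ∧ Per d y := by
  unfold mkRk at h
  by_contra h1
  rw [if_neg h1] at h
  omega

/-- The marker rule. -/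
def mkMark (n0 l : ℕ) (r0 : List α → ℕ) (w : List α) : Prop :=
  2 * n0 + l ≤ w.length ∧ 0 < mkRk n0 r0 (mkWin l w (w.length - (n0 + l))) ∧
    ∀ k, l < k → k < 2 * n0 + l →
      mkRk n0 r0 (mkWin l w (w.length - k)) ≤ mkRk n0 r0 (mkWin l w (w.length - (n0 + l)))

theorem mkMark_loc {n0 l : ℕ} {r0 : List α → ℕ} (u v : List α) (h : 2 * n0 + l ≤ v.length) :
    mkMark n0 l r0 (u ++ v) ↔ mkMark n0 l r0 v := by
  unfold mkMark
  rw [mkWin_append_right u v (k := n0 + l) (by omega)]
  have h1 : 2 * n0 + l ≤ (u ++ v).length := by rw [List.length_append]; omega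
  simp only [h, h1, true_and]
  refine and_congr_right fun _ => forall_congr' fun k => forall_congr' fun _ =>
    forall_congr' fun hk => ?_
  rw [mkWin_append_right u v (k := k) (by omega)]

theorem mkMark_sep {n0 l : ℕ} {r0 : List α → ℕ}
    (hinj : ∀ y z : List α, y.length = l → z.length = l → r0 y = r0 z → y = z)
    (u v : List α) (hu : mkMark n0 l r0 u) (huv : mkMark n0 l r0 (u ++ v)) :
    v = [] ∨ n0 ≤ v.length := by
  by_contra hcon
  rw [not_or, not_le] at hcon
  obtain ⟨hv, hd⟩ := hcon
  have hd0 : 0 < v.length := List.length_pos_iff.2 hv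
  obtain ⟨hL, hpos, hmax⟩ := hu
  obtain ⟨-, hpos', hmax'⟩ := huv
  set p := u.length - (n0 + l) with hp
  have e1 : (u ++ v).length - (n0 + l) = p + v.length := by rw [List.length_append]; omega
  have e2 : (u ++ v).length - (n0 + l + v.length) = p := by rw [List.length_append]; omega
  have e3 : u.length - (n0 + l - v.length) = p + v.length := by omega
  have h1 := hmax (n0 + l - v.length) (by omega) (by omega)
  have h2 := hmax' (n0 + l + v.length) (by omega) (by omega)
  rw [e3] at h1
  rw [e1] at hpos' h2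
  rw [e2, mkWin_append_left u v (p := p) (by omega)] at h2
  rw [mkWin_append_left u v (p := p + v.length) (by omega)] at hpos' h2
  obtain ⟨hnp, hr⟩ := mkRk_pos hpos
  obtain ⟨-, hr'⟩ := mkRk_pos hpos'
  have hlen : (mkWin l u p).length = l := mkWin_length (by omega)
  have heq : mkWin l u p = mkWin l u (p + v.length) :=
    hinj _ _ hlen (mkWin_length (by omega)) (by omega)
  refine hnp ⟨v.length, hd0, hd, fun i hi => ?_⟩
  rw [hlen] at hi
  rw [mkWin_getElem? u p hi]
  conv_lhs => rw [heq]
  rw [mkWin_getElem? u _ (by omega)]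
  congr 1
  omega

theorem mkMark_climb {n0 l R : ℕ} {r0 : List α → ℕ} (hR : ∀ y, r0 y ≤ R) {w : List α}
    (hw : ∀ j, j ≤ w.length → ¬ mkMark n0 l r0 (w.take j)) (r : ℕ) :
    ∀ p, (r + 1) * n0 ≤ p → p + (r + 1) * n0 + l ≤ w.length →
      R + 1 ≤ mkRk n0 r0 (mkWin l w p) + r → mkRk n0 r0 (mkWin l w p) = 0 := by
  have step : ∀ p, n0 ≤ p → p + n0 + l ≤ w.length → mkRk n0 r0 (mkWin l w p) ≠ 0 →
      ∃ p', p < p' + n0 ∧ p' < p + n0 ∧ mkRk n0 r0 (mkWin l w p) < mkRk n0 r0 (mkWin l w p') := by
    intro p hp hp' hne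
    by_contra hcon
    apply hw (p + n0 + l) hp'
    have hlen : (w.take (p + n0 + l)).length = p + n0 + l := by
      rw [List.length_take]; omega
    have e1 : p + n0 + l - (n0 + l) = p := by omega
    unfold mkMark
    rw [hlen, e1, mkWin_take w (p := p) (by omega) hp']
    refine ⟨by omega, Nat.pos_of_ne_zero hne, fun k hk1 hk2 => ?_⟩
    rw [mkWin_take w (by omega) hp']
    by_contra hlt
    exact hcon ⟨p + n0 + l - k, by omega, by omega, by omega⟩
  induction r with
  | zero =>
    intro p h1 h2 h3
    by_contra hne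
    obtain ⟨p', -, -, h4⟩ := step p (by omega) (by omega) hne
    have := mkRk_le (n0 := n0) hR (mkWin l w p')
    omega
  | succ r ih =>
    intro p h1 h2 h3
    have e : (r + 1 + 1) * n0 = (r + 1) * n0 + n0 := by ring
    rw [e] at h1 h2
    by_contra hne
    obtain ⟨p', h4, h5, h6⟩ := step p (by omega) (by omega) hne
    have := ih p' (by omega) (by omega) (by omega)
    omega

theorem mkMark_cover {n0 R : ℕ} {r0 : List α → ℕ} (hR : ∀ y, r0 y ≤ R) {w : List α}
    (hw : ∀ j, j ≤ w.length → ¬ mkMark n0 (n0.factorial + 1) r0 (w.take j)) :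
    Thin n0.factorial ((R + 2) * n0 + (1 + ((R + 2) * n0 + (n0.factorial + 1)))) w := by
  have hP := Nat.factorial_pos n0
  have key : ∀ p, (R + 2) * n0 ≤ p → p + (R + 2) * n0 + (n0.factorial + 1) ≤ w.length →
      w[p]? = w[p + n0.factorial]? := by
    intro p h1 h2
    have h0 := mkMark_climb hR hw (R + 1) p h1 h2 (by omega)
    obtain ⟨d, hd0, hd, hper⟩ := mkRk_zero h0
    obtain ⟨k, hk⟩ := Nat.dvd_factorial hd0 hd.le
    have hlen : (mkWin (n0.factorial + 1) w p).length = n0.factorial + 1 :=
      mkWin_length (by omega)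
    have h3 := mk_per_mul hper k (by rw [hlen, Nat.mul_comm, ← hk]; omega)
    rw [Nat.mul_comm, ← hk, mkWin_getElem? w p (by omega), mkWin_getElem? w p (by omega)] at h3
    simpa using h3
  generalize (R + 2) * n0 = m at key ⊢
  generalize n0.factorial = P at key hP ⊢
  have hsplit : w = w.take m ++ (((w.drop m).take (w.length - m - m - (P + 1))) ++
      (w.drop m).drop (w.length - m - m - (P + 1))) := by
    rw [List.take_append_drop, List.take_append_drop]
  rw [hsplit]
  refine Thin.append (thin_of_length hP ?_) (Thin.append (Per.thin ?_) (thin_of_length hP ?_))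
  · rw [List.length_take]; omega
  · intro i hi
    rw [List.length_take, List.length_drop] at hi
    rw [List.getElem?_take_of_lt (by omega), List.getElem?_take_of_lt (by omega),
      List.getElem?_drop, List.getElem?_drop, ← Nat.add_assoc]
    exact key _ (by omega) (by omega)
  · rw [List.length_drop, List.length_drop]; omega

end Aux

/-- Proof.  Let `P = n0!`, `ℓ = P + 1`, `win w p = (w.drop p).take ℓ`.  Fix `r0 : List α → ℕ`
injective on the finite set of words of length `ℓ` and bounded there by `R`
(`List.finite_length_eq`).  Let `rk y = 0` if `Per d y` for some `0 < d < n0`, and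
`rk y = r0 y + 1` otherwise.  Let `L = 2 * n0 + ℓ` and let `mark w` say: `L ≤ w.length` and, for
`p = w.length - n0 - ℓ`, `0 < rk (win w p)` and `rk (win w p') ≤ rk (win w p)` for all `p'` with
`p < p' + n0`, `p' < p + n0`.  All these windows lie in the last `L` letters (`loc`; shift
`p' = u.length + p''`).  `sep`: two markers at distance `0 < d < n0` have windows of equal rank,
hence equal windows, hence a window of period `d`, of rank `0`.  `cover`: climbing: by induction
on `r`, if `0 < rk (win w p)`, `R + 1 ≤ rk (win w p) + r`, `(r + 1) * n0 ≤ p` and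
`p + (r + 1) * n0 + ℓ ≤ w.length`, then some prefix of `w` is a marker (either
`w.take (p + n0 + ℓ)`, or move to a neighbour `p'` of larger rank).  So with `m = (R + 2) * n0`,
all windows at `p ∈ [m, w.length - m - ℓ]` have a period `d < n0`, `d ∣ P`
(`Nat.dvd_factorial`), so `w[p]? = w[p + P]?`; the middle part of `w` has period `P` and the two
ends have length at most `m + ℓ` (`thin_of_length`, `Thin.append`, `Per.thin`, `Thin.mono`);
`n1 = 2 * (m + ℓ) + 1`. -/
theorem marker_exists (α : Type u) [Finite α] (n0 : ℕ) : Nonempty (Marker α n0) := by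
  obtain ⟨r0, R, hR, hinj⟩ := mk_rank_exists α (n0.factorial + 1)
  exact ⟨{
    L := 2 * n0 + (n0.factorial + 1)
    P := n0.factorial
    n1 := (R + 2) * n0 + (1 + ((R + 2) * n0 + (n0.factorial + 1)))
    mark := mkMark n0 (n0.factorial + 1) r0
    L_pos := by omega
    P_pos := Nat.factorial_pos n0
    len := fun _ h => h.1
    loc := fun u v h => mkMark_loc u v h
    sep := fun u v hu huv => mkMark_sep hinj u v hu huv
    cover := fun _ hw => mkMark_cover hR hw }⟩

end Crest.Agent.R320
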