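import Crest.Agent.R320.Digits

/-!
# R320: codes and players
-/

set_option autoImplicit false

namespace Crest.Agent.R320

private theorem half_le {G H : Type} [AddGroup G] [Fintype G] [AddGroup H] [DecidableEq H]
    (f : G →+ H) {g₀ : G} (h : f g₀ ≠ 0) :
    Fintype.card G ≤ 2 * (Finset.univ.filter fun g => f g ≠ 0).card := by
  classical
  have h1 : (Finset.univ.filter fun g => f g = 0).card ≤
      (Finset.univ.filter fun g => f g ≠ 0).card := by
    refine Finset.card_le_card_of_injOn (fun g => g + g₀) (fun g hg => ?_)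
      (fun a _ b _ hab => add_right_cancel hab)
    simp only [Finset.coe_filter, Finset.mem_univ, true_and, Set.mem_ofPred_eq] at hg ⊢
    rwa [map_add, hg, zero_add]
  have h2 := Finset.card_filter_add_card_filter_not (s := (Finset.univ : Finset G))
    (fun g => f g = 0)
  rw [Finset.card_univ] at h2
  simp only [ne_eq] at h1 ⊢
  omega

private theorem quarter_le {m : ℕ} {Δ : Matrix (Fin m) (Fin m) (ZMod 2)} (hΔ : Δ ≠ 0) :
    4 ^ m ≤ 4 * (Finset.univ.filter fun p : (Fin m → ZMod 2) × (Fin m → ZMod 2) =>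
      p.1 ⬝ᵥ (Δ.mulVec p.2) ≠ 0).card := by
  classical
  have hV : Fintype.card (Fin m → ZMod 2) = 2 ^ m := by simp
  obtain ⟨y₀, hy₀⟩ : ∃ y₀, Δ.mulVec y₀ ≠ 0 := by
    by_contra hc
    push Not at hc
    exact hΔ (Matrix.ext_iff_mulVec.2 fun v => by rw [hc v, Matrix.zero_mulVec])
  have h1 := half_le (Δ.mulVecLin.toAddMonoidHom) (g₀ := y₀) hy₀
  have h2 : ∀ y' ∈ Finset.univ.filter fun y' => Δ.mulVecLin.toAddMonoidHom y' ≠ 0,
      2 ^ m ≤ 2 * (Finset.univ.filter fun y : Fin m → ZMod 2 => y ⬝ᵥ (Δ.mulVec y') ≠ 0).card := by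
    intro y' hy'
    have hy : Δ.mulVec y' ≠ 0 := (Finset.mem_filter.1 hy').2
    obtain ⟨i, hi⟩ := Function.ne_iff.1 hy
    let f : (Fin m → ZMod 2) →+ ZMod 2 :=
      { toFun := fun y => y ⬝ᵥ (Δ.mulVec y')
        map_zero' := zero_dotProduct _
        map_add' := fun a b => add_dotProduct _ _ _ }
    have := half_le f (g₀ := Pi.single i 1) (by
      change Pi.single i 1 ⬝ᵥ (Δ.mulVec y') ≠ 0
      rw [single_one_dotProduct]; exact hi)
    rw [hV] at this
    exact this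
  have h3 : (Finset.univ.filter fun p : (Fin m → ZMod 2) × (Fin m → ZMod 2) =>
      p.1 ⬝ᵥ (Δ.mulVec p.2) ≠ 0).card =
      ∑ y' : Fin m → ZMod 2,
        (Finset.univ.filter fun y : Fin m → ZMod 2 => y ⬝ᵥ (Δ.mulVec y') ≠ 0).card := by
    simp only [Finset.card_filter]
    rw [Fintype.sum_prod_type_right]
  have h4 := Finset.card_nsmul_le_sum _ _ _ h2
  have h5 : ∑ y' ∈ Finset.univ.filter fun y' => Δ.mulVecLin.toAddMonoidHom y' ≠ 0,
      2 * (Finset.univ.filter fun y : Fin m → ZMod 2 => y ⬝ᵥ (Δ.mulVec y') ≠ 0).card ≤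
      ∑ y' : Fin m → ZMod 2,
        2 * (Finset.univ.filter fun y : Fin m → ZMod 2 => y ⬝ᵥ (Δ.mulVec y') ≠ 0).card :=
    Finset.sum_le_sum_of_subset (Finset.filter_subset _ _)
  rw [← Finset.mul_sum Finset.univ, ← h3] at h5
  rw [hV] at h1
  rw [smul_eq_mul] at h4
  have h6 : 4 ^ m = 2 ^ m * 2 ^ m := by rw [← mul_pow]; norm_num
  rw [h6]
  calc 2 ^ m * 2 ^ m ≤ (2 * (Finset.univ.filter fun y' =>
        Δ.mulVecLin.toAddMonoidHom y' ≠ 0).card) * 2 ^ m := Nat.mul_le_mul_right _ h1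
    _ ≤ _ := by rw [mul_assoc]; omega

/-- Bilinear-form code.  Digits `Dg = (Fin m → ZMod 2) × (Fin m → ZMod 2) × ZMod 2`; an injection
`B : A ↪ Matrix (Fin m) (Fin m) (ZMod 2)` exists by cardinality
(`Function.Embedding.nonempty_of_card_le`); `S a = {(y, y', ε) | y ⬝ᵥ (B a *ᵥ y') = ε}`.
For `a ≠ b` let `Δ = B a - B b ≠ 0`; `S a \ S b` is in bijection with the pairs `(y, y')` with
`y ⬝ᵥ (Δ *ᵥ y') ≠ 0`.  At least half of the `y'` have `Δ *ᵥ y' ≠ 0` (translation by a `y₀'` with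
`Δ *ᵥ y₀' ≠ 0` injects the kernel into its complement), and for such `y'` at least half of the
`y` have `y ⬝ᵥ (Δ *ᵥ y') ≠ 0` (same argument).  So `4 ^ m ≤ 4 * ncard (S a \ S b)`. -/
theorem code (m : ℕ) (A : Type) [Finite A] (hA : Nat.card A ≤ 2 ^ (m * m)) :
    ∃ (Dg : Type) (_ : Finite Dg) (S : A → Set Dg), Nat.card Dg = 2 * 4 ^ m ∧
      ∀ a b, a ≠ b → Nat.card Dg ≤ 8 * (S a \ S b).ncard := by
  classical
  have := Fintype.ofFinite A
  obtain ⟨B⟩ : Nonempty (A ↪ Matrix (Fin m) (Fin m) (ZMod 2)) := by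
    refine Function.Embedding.nonempty_of_card_le ?_
    rw [← Nat.card_eq_fintype_card]
    refine hA.trans (le_of_eq ?_)
    change _ = Fintype.card (Fin m → Fin m → ZMod 2)
    simp only [Fintype.card_pi, ZMod.card, Finset.prod_const, Finset.card_univ, Fintype.card_fin,
      ← pow_mul]
  have hcard : Nat.card ((Fin m → ZMod 2) × (Fin m → ZMod 2) × ZMod 2) = 2 * 4 ^ m := by
    have h6 : 4 ^ m = 2 ^ m * 2 ^ m := by rw [← mul_pow]; norm_num
    rw [h6]
    simp only [Nat.card_eq_fintype_card, Fintype.card_prod, Fintype.card_pi, ZMod.card,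
      Finset.prod_const, Finset.card_univ, Fintype.card_fin]
    ring
  refine ⟨(Fin m → ZMod 2) × (Fin m → ZMod 2) × ZMod 2, inferInstance,
    fun a => {d | d.1 ⬝ᵥ ((B a).mulVec d.2.1) = d.2.2}, hcard, fun a b hab => ?_⟩
  have hΔ : B a - B b ≠ 0 := sub_ne_zero.2 fun h => hab (B.injective h)
  have h1 := quarter_le hΔ
  have h2 : (Finset.univ.filter fun p : (Fin m → ZMod 2) × (Fin m → ZMod 2) =>
      p.1 ⬝ᵥ ((B a - B b).mulVec p.2) ≠ 0).card ≤
      ({d : (Fin m → ZMod 2) × (Fin m → ZMod 2) × ZMod 2 | d.1 ⬝ᵥ ((B a).mulVec d.2.1) = d.2.2} \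
        {d | d.1 ⬝ᵥ ((B b).mulVec d.2.1) = d.2.2}).ncard := by
    rw [← Set.ncard_coe_finset]
    refine Set.ncard_le_ncard_of_injOn (fun p => (p.1, p.2, p.1 ⬝ᵥ ((B a).mulVec p.2)))
      (fun p hp => ?_) (fun p _ p' _ h => ?_) (Set.toFinite _)
    · simp only [Finset.coe_filter, Finset.mem_univ, true_and, Set.mem_ofPred_eq] at hp
      rw [Matrix.sub_mulVec, dotProduct_sub, sub_ne_zero] at hp
      exact ⟨rfl, fun h => hp h.symm⟩
    · simp only [Prod.mk.injEq] at h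
      exact Prod.ext h.1 h.2.1
  rw [hcard]
  refine le_trans ?_ (Nat.mul_le_mul_left 8 h2)
  omega

/-- Players `(i, β, j)` with digit sets `R i β j` pairwise far apart, and a selection of a player
for every labelling `χ` of the digits such that the numbers of labels on the digit set of the
selected player are determined by the player.
Proof.  `ν = Nat.card Lb`, `m` from `numeric`, `K = 2 * 4 ^ m`, `ρ = Lb → Fin (K + 1)`,
`t = K * ν + 1`, `J = Fin (Nat.card ρ * t)`; `code m (Bool × Lb × J)` gives `Dg` and `R`.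
The labellings `X = Dg → Option Lb` number `(ν + 1) ^ K < 2 ^ t` (`ν + 1 ≤ 2 ^ ν`).  For each
`(i, β)` apply `cover` to `g j χ = fun l => ⟨{c | c ∈ R i β j ∧ χ c = some l}.ncard, _⟩` and let
`sel i β χ` be the `j` it provides. -/
theorem players (Lb : Type) [Finite Lb] :
    ∃ (Dg J : Type) (_ : Finite Dg) (_ : Nonempty Dg) (_ : Finite J)
      (R : Bool → Lb → J → Set Dg) (sel : Bool → Lb → (Dg → Option Lb) → J),
      (∀ i β j i' β' j', (i, β, j) ≠ (i', β', j') →
        Nat.card Dg ≤ 8 * (R i β j \ R i' β' j').ncard) ∧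
      (∀ i β χ χ', sel i β χ = sel i β χ' → ∀ l,
        {c | c ∈ R i β (sel i β χ) ∧ χ c = some l}.ncard =
          {c | c ∈ R i β (sel i β χ) ∧ χ' c = some l}.ncard) := by
  classical
  obtain ⟨m, hm⟩ := numeric (Nat.card Lb)
  have hρ : Nat.card (Lb → Fin (2 * 4 ^ m + 1)) = (2 * 4 ^ m + 1) ^ Nat.card Lb := by
    rw [Nat.card_fun, Nat.card_eq_fintype_card, Fintype.card_fin]
  obtain ⟨Dg, hDg, S, hK, hS⟩ := code m
    (Bool × Lb × Fin (Nat.card (Lb → Fin (2 * 4 ^ m + 1)) * (2 * 4 ^ m * Nat.card Lb + 1))) (by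
      refine le_trans (le_of_eq ?_) hm
      rw [Nat.card_prod, Nat.card_prod, Nat.card_eq_fintype_card (α := Fin _), Fintype.card_fin,
        hρ, Nat.card_eq_fintype_card (α := Bool), Fintype.card_bool, mul_assoc 2 (Nat.card Lb)])
  have hne : Nonempty Dg := by
    have : 0 < Nat.card Dg := by rw [hK]; positivity
    exact (Nat.card_pos_iff.1 this).1
  have hX : Nat.card (Dg → Option Lb) < 2 ^ (2 * 4 ^ m * Nat.card Lb + 1) := by
    rw [Nat.card_fun, Finite.card_option, hK]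
    calc (Nat.card Lb + 1) ^ (2 * 4 ^ m) ≤ (2 ^ Nat.card Lb) ^ (2 * 4 ^ m) :=
          Nat.pow_le_pow_left Nat.lt_two_pow_self _
      _ = 2 ^ (2 * 4 ^ m * Nat.card Lb) := by rw [← pow_mul, mul_comm]
      _ < _ := Nat.pow_lt_pow_right (by norm_num) (Nat.lt_succ_self _)
  have hlt : ∀ T : Set Dg, T.ncard < 2 * 4 ^ m + 1 := fun T => by
    rw [← hK]; exact Nat.lt_succ_of_le (Set.ncard_le_card T)
  have hc := fun (i : Bool) (β : Lb) => cover (ρ := Lb → Fin (2 * 4 ^ m + 1)) _ hX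
    fun j χ l => ⟨{c | c ∈ S (i, β, j) ∧ χ c = some l}.ncard, hlt _⟩
  choose r hr using hc
  choose sel hsel using hr
  refine ⟨Dg, _, hDg, hne, inferInstance, fun i β j => S (i, β, j), sel,
    fun i β j i' β' j' h => hS _ _ h, fun i β χ χ' h l => ?_⟩
  have h1 := congrFun (hsel i β χ) l
  have h2 := congrFun (hsel i β χ') l
  rw [← h] at h2
  exact congrArg Fin.val (h1.trans h2.symm)

end Crest.Agent.R320
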