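import Crest.Agent.R320.Cell

/-!
# R320: runs of the block machine, parsing into cells
-/

set_option autoImplicit false

namespace Crest.Agent.R320

universe u

namespace Setup

variable {α : Type u} {G V : Type} [AddCommGroup V] (S : Setup α G V)

/-- No cell end: the machine only extends the current cell (induction on `t`, generalizing `γ`). -/
theorem run_partial (x : V) (l : List S.Y) (γ t : List α)
    (h : ∀ j, 0 < j → j ≤ t.length → ¬ S.End (γ ++ t.take j)) :
    t.foldl S.step (x, l, γ) = (x, l, γ ++ t) := by
  induction t generalizing γ with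
  | nil => simp
  | cons a t ih =>
    have h1 : ¬ S.End (γ ++ [a]) := by simpa using h 1 Nat.one_pos (by simp)
    have h2 : S.step (x, l, γ) a = (x, l, γ ++ [a]) := by simp [step, h1]
    rw [List.foldl_cons, h2, ih (γ ++ [a])]
    · simp
    · intro j hj hjl
      have := h (j + 1) (Nat.succ_pos _) (by simpa using hjl)
      simpa using this

/-- Finishing a cell (write `t = t' ++ [a]`, use `run_partial`). -/
theorem run_cell (x : V) (l : List S.Y) (γ t : List α) (ht : t ≠ []) (h : S.IsCell (γ ++ t)) :
    t.foldl S.step (x, l, γ) = S.push x l (S.y (γ ++ t)) := by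
  obtain ⟨t', a, rfl⟩ : ∃ t' a, t = t' ++ [a] :=
    ⟨t.dropLast, t.getLast ht, (List.dropLast_append_getLast ht).symm⟩
  rw [List.foldl_append, S.run_partial x l γ t']
  · have h1 : S.End (γ ++ t' ++ [a]) := by simpa using h.1
    simp only [List.foldl_cons, List.foldl_nil, step, List.append_assoc]
    rw [if_pos (by simpa using h1)]
  · intro j hj hjl
    have h2 := h.2 (γ.length + j) (by simp; omega)
    have e : (γ ++ (t' ++ [a])).take (γ.length + j) = γ ++ t'.take j := by
      rw [List.take_append, List.take_of_length_le (by omega), Nat.add_sub_cancel_left,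
        List.take_append_of_le_length hjl]
    rwa [e] at h2

/-- A proper prefix of a cell. -/
theorem run_take (x : V) (l : List S.Y) (γ : List α) (h : S.IsCell γ) (u : ℕ)
    (hu : u < γ.length) : (γ.take u).foldl S.step (x, l, []) = (x, l, γ.take u) := by
  rw [S.run_partial x l [] (γ.take u)]
  · simp
  · intro j hj hjl
    rw [List.length_take] at hjl
    rw [List.nil_append, List.take_take, min_eq_left (by omega)]
    exact h.2 j (by omega)

/-- Cells that do not finish the block. -/
theorem run_cells (x : V) (l : List S.Y) (cs : List (List α)) (h : ∀ c ∈ cs, S.IsCell c)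
    (hl : l.length + cs.length < S.bl.k) :
    cs.flatten.foldl S.step (x, l, []) = (x, l ++ cs.map S.y, []) := by
  induction cs generalizing l with
  | nil => simp
  | cons c cs ih =>
    have hc := h c (by simp)
    rw [List.length_cons] at hl
    rw [List.flatten_cons, List.foldl_append, S.run_cell x l [] c hc.ne_nil (by simpa using hc),
      push, if_pos (by simp; omega), ih _ (fun d hd => h d (by simp [hd])) (by simp; omega)]
    simp

/-- A cell value followed by the cells that finish the block. -/
theorem run_push (x : V) (l : List S.Y) (b : S.Y) (cs : List (List α))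
    (h : ∀ c ∈ cs, S.IsCell c) (hl : l.length + 1 + cs.length = S.bl.k) :
    cs.flatten.foldl S.step (S.push x l b) = S.fin x (l ++ b :: cs.map S.y) := by
  induction cs generalizing l b with
  | nil =>
    rw [push, if_neg (by simp at hl ⊢; omega)]
    simp
  | cons c cs ih =>
    have hc := h c (by simp)
    rw [List.length_cons] at hl
    rw [push, if_pos (by simp; omega), List.flatten_cons, List.foldl_append,
      S.run_cell x _ [] c hc.ne_nil (by simpa using hc),
      ih _ _ (fun d hd => h d (by simp [hd])) (by simp; omega)]
    simp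

/-- Complete blocks lead from block starts to block starts (induction on `n`, `run_push`). -/
theorem run_blocks (n : ℕ) (s : S.St) (hs : s ∈ S.BB) (cs : List (List α))
    (h : ∀ c ∈ cs, S.IsCell c) (hl : cs.length = n * S.bl.k) :
    cs.flatten.foldl S.step s ∈ S.BB := by
  induction n generalizing s cs with
  | zero =>
    obtain rfl : cs = [] := by simpa using hl
    simpa using hs
  | succ n ih =>
    have hk := S.bl.two_le
    rw [Nat.succ_mul] at hl
    obtain ⟨x, l, γ⟩ := s
    obtain ⟨rfl, rfl⟩ : l = [] ∧ γ = [] := by simpa [BB] using hs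
    rw [← List.take_append_drop S.bl.k cs, List.flatten_append, List.foldl_append]
    refine ih _ ?_ _ (fun d hd => h d (List.mem_of_mem_drop hd)) (by simp; omega)
    have hlen : (cs.take S.bl.k).length = S.bl.k := by simp; omega
    have hall : ∀ c ∈ cs.take S.bl.k, S.IsCell c := fun d hd => h d (List.mem_of_mem_take hd)
    generalize cs.take S.bl.k = bs at hlen hall
    cases bs with
    | nil => simp at hlen; omega
    | cons c bs =>
      have hc := hall c (by simp)
      rw [List.flatten_cons, List.foldl_append,
        S.run_cell x _ [] c hc.ne_nil (by simpa using hc),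
        S.run_push x _ _ bs (fun d hd => hall d (by simp [hd])) (by simp at hlen ⊢; omega)]
      rfl

/-- A word with a prefix at which a cell may end starts with a cell (least such prefix). -/
theorem exists_cell (w : List α) (j : ℕ) (hj : j ≤ w.length) (h : S.End (w.take j)) :
    ∃ c t, w = c ++ t ∧ S.IsCell c ∧ c.length ≤ j := by
  classical
  have hex : ∃ i, S.End (w.take i) := ⟨j, h⟩
  have h1 : Nat.find hex ≤ j := Nat.find_min' hex h
  refine ⟨w.take (Nat.find hex), w.drop (Nat.find hex), (List.take_append_drop _ _).symm,
    ⟨Nat.find_spec hex, fun i hi => ?_⟩, by rw [List.length_take]; omega⟩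
  rw [List.length_take] at hi
  rw [List.take_take, min_eq_left (by omega)]
  exact Nat.find_min hex (by omega)

/-- A word without a proper prefix at which a cell may end is thin.  Proof: cut off the first
`T + W` letters and the last letter (`thin_of_length`); a prefix of the middle part that is a
marker has length `≥ L` (`mr.len`), so by `mr.loc` and `end_of_mark` it would give a cell end;
apply `mr.cover`. -/
theorem thin_of_not_end (t : List α) (h : ∀ j, j < t.length → ¬ S.End (t.take j)) :
    Thin S.mr.P S.nc t := by
  have hP := S.mr.P_pos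
  by_cases hlen : t.length ≤ S.T + S.ga.W
  · exact thin_of_length hP (by unfold nc; omega)
  set m := S.T + S.ga.W with hm
  set n := t.length - 1 - m with hn
  have e : t = t.take m ++ (t.drop m).take n ++ (t.drop m).drop n := by
    rw [List.append_assoc, List.take_append_drop, List.take_append_drop]
  have h1 : Thin S.mr.P m (t.take m) := thin_of_length hP (by simp)
  have h3 : Thin S.mr.P 1 ((t.drop m).drop n) := thin_of_length hP (by simp; omega)
  have h2 : Thin S.mr.P S.mr.n1 ((t.drop m).take n) := by
    refine S.mr.cover _ fun j hj hmk => ?_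
    have hj' : j ≤ n := by simp at hj; omega
    rw [List.take_take, min_eq_left hj'] at hmk
    have h4 := (S.mr.loc (t.take m) _ (S.mr.len _ hmk)).2 hmk
    rw [← List.take_add] at h4
    exact h (m + j) (by omega) (S.end_of_mark h4 (by simp; omega))
  rw [e]
  exact (h1.append h2).append h3

theorem IsCell.thin {S : Setup α G V} {γ : List α} (h : S.IsCell γ) : Thin S.mr.P S.nc γ :=
  S.thin_of_not_end γ h.2

/-- Parsing: a word starts with `n` cells or is thin (induction on `n`, generalizing `w`;
`exists_cell`, `thin_of_not_end`, `Thin.append`, `Thin.mono`). -/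
theorem parse (n : ℕ) (w : List α) :
    (∃ (cs : List (List α)) (t : List α), w = cs.flatten ++ t ∧ (∀ c ∈ cs, S.IsCell c) ∧
      cs.length = n) ∨ Thin S.mr.P (n * S.nc) w := by
  induction n generalizing w with
  | zero => exact Or.inl ⟨[], w, by simp, by simp, rfl⟩
  | succ n ih =>
    by_cases hw : ∃ j, j ≤ w.length ∧ S.End (w.take j)
    · obtain ⟨j, hj, he⟩ := hw
      obtain ⟨c, t, rfl, hc, -⟩ := S.exists_cell w j hj he
      rcases ih t with ⟨cs, t', rfl, h1, h2⟩ | h1
      · refine Or.inl ⟨c :: cs, t', by simp, ?_, by simp [h2]⟩
        intro d hd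
        rcases List.mem_cons.1 hd with rfl | hd
        · exact hc
        · exact h1 d hd
      · refine Or.inr ?_
        exact (hc.thin.append h1).mono (by rw [Nat.add_mul]; omega)
    · refine Or.inr ((S.thin_of_not_end w fun j hj he => hw ⟨j, hj.le, he⟩).mono ?_)
      rw [Nat.add_mul]
      omega

/-- Parsing from another starting point: induction on `j`, generalizing `t` and `cs`; the word
`t ++ c₁ ++ c₂` ends with a marker (`mr.loc`, as `L ≤ T ≤ c₂.length`) and has length
`≥ 2 * T ≥ T + W`, so `end_of_mark` and `exists_cell` give `t ++ c₁ ++ c₂ = d ++ t'`. -/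
theorem chain (j : ℕ) (t : List α) (cs : List (List α)) (h : ∀ c ∈ cs, S.IsCell c)
    (hl : cs.length = 2 * j) :
    ∃ (ds : List (List α)) (r : List α), t ++ cs.flatten = ds.flatten ++ r ∧
      (∀ d ∈ ds, S.IsCell d) ∧ ds.length = j := by
  induction j generalizing t cs with
  | zero => exact ⟨[], t ++ cs.flatten, by simp, by simp, rfl⟩
  | succ j ih =>
    match cs, h, hl with
    | c₁ :: c₂ :: cs, h, hl =>
      have h1 := h c₁ (by simp)
      have h2 := h c₂ (by simp)
      have l1 := h1.T_le
      have l2 := h2.T_le
      have hT : S.T = 6 * S.ga.W + S.mr.L := rfl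
      have hm : S.mr.mark (t ++ c₁ ++ c₂) := (S.mr.loc _ _ (by omega)).2 h2.1.1
      have he : S.End (t ++ c₁ ++ c₂) := S.end_of_mark hm (by simp; omega)
      obtain ⟨d, t', e, hd, -⟩ := S.exists_cell (t ++ c₁ ++ c₂) _ le_rfl
        (by rwa [List.take_length])
      obtain ⟨ds, r, e', hds, hlen⟩ := ih t' cs (fun c hc => h c (by simp [hc]))
        (by simp at hl; omega)
      refine ⟨d :: ds, r, ?_, ?_, by simp [hlen]⟩
      · rw [List.flatten_cons, List.flatten_cons, List.flatten_cons, List.append_assoc, ← e',
          ← List.append_assoc d, ← e]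
        simp
      · intro c hc
        rcases List.mem_cons.1 hc with rfl | hc
        · exact hd
        · exact hds c hc
    | [], _, hl => simp at hl
    | [_], _, hl => simp at hl; omega

/-- After a cell `γ` followed by a cell `c` there is a first marker: the least `j > 0` with
`mark (γ ++ c.take j)`; `j = c.length` is one (`mr.loc`). -/
theorem next_mark (γ c : List α) (hc : S.IsCell c) :
    ∃ v t, c = v ++ t ∧ v ≠ [] ∧ S.mr.mark (γ ++ v) ∧
      ∀ j, 0 < j → j < v.length → ¬ S.mr.mark (γ ++ v.take j) := by
  classical
  have l1 := hc.T_le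
  have hT : S.T = 6 * S.ga.W + S.mr.L := rfl
  have hL := S.mr.L_pos
  have h0 : 0 < c.length ∧ S.mr.mark (γ ++ c.take c.length) := by
    refine ⟨by omega, ?_⟩
    rw [List.take_length]
    exact (S.mr.loc _ _ (by omega)).2 hc.1.1
  have hex : ∃ j, 0 < j ∧ S.mr.mark (γ ++ c.take j) := ⟨_, h0⟩
  have h1 : Nat.find hex ≤ c.length := Nat.find_min' hex h0
  have h2 := Nat.find_spec hex
  refine ⟨c.take (Nat.find hex), c.drop (Nat.find hex), (List.take_append_drop _ _).symm, ?_,
    h2.2, fun j hj hjl hm => ?_⟩
  · intro h3
    have := congrArg List.length h3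
    rw [List.length_take, List.length_nil] at this
    omega
  · rw [List.length_take] at hjl
    rw [List.take_take, min_eq_left (by omega)] at hm
    exact Nat.find_min hex (show j < Nat.find hex by omega) ⟨hj, hm⟩

end Setup

end Crest.Agent.R320
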