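import Crest.Agent.R320.Basic

/-!
# R320: a finite machine restricted to thin words has star height at most one
-/

set_option autoImplicit false

namespace Crest.Agent.R320

universe u v

variable {α : Type u} {σ : Type v}

theorem thinHt_pw_add (a b : ℕ) (v : List α) : (List.replicate (a + b) v).flatten =
    (List.replicate a v).flatten ++ (List.replicate b v).flatten := by
  rw [List.replicate_add, List.flatten_append]

theorem thinHt_pw_succ (j : ℕ) (v : List α) :
    (List.replicate (j + 1) v).flatten = v ++ (List.replicate j v).flatten := by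
  rw [List.replicate_succ, List.flatten_cons]

theorem thinHt_pw_succ' (j : ℕ) (v : List α) :
    (List.replicate (j + 1) v).flatten = (List.replicate j v).flatten ++ v := by
  rw [thinHt_pw_add]; simp

theorem thinHt_pw_mul (k m : ℕ) (v : List α) :
    (List.replicate k (List.replicate m v).flatten).flatten = (List.replicate (k * m) v).flatten := by
  induction k with
  | zero => simp
  | succ k ih => rw [thinHt_pw_succ', ih, Nat.succ_mul, thinHt_pw_add]

theorem thinHt_foldl (δ : σ → α → σ) (v : List α) (j : ℕ) (p : σ) :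
    ((List.replicate j v).flatten).foldl δ p = (fun s => v.foldl δ s)^[j] p := by
  induction j generalizing p with
  | zero => rfl
  | succ j ih => rw [thinHt_pw_succ, List.foldl_append, ih, Function.iterate_succ_apply]

theorem thinHt_star {u w : List α} :
    w ∈ star ({u} : Set (List α)) ↔ ∃ k, w = (List.replicate k u).flatten := by
  constructor
  · rintro ⟨l, h1, rfl⟩
    exact ⟨l.length, by rw [← List.eq_replicate_of_mem h1]⟩
  · rintro ⟨k, rfl⟩
    exact ⟨_, fun p hp => List.eq_of_mem_replicate hp, rfl⟩

theorem thinHt_per_iff {P : ℕ} {v u : List α} (hv : v.length = P) :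
    Per P (v ++ u) ↔ u <+: v ++ u := by
  constructor
  · intro h
    rw [List.prefix_iff_getElem?]
    intro i hi
    rw [h i (by rw [List.length_append]; omega), List.getElem?_append_right (by omega),
      show i + P - v.length = i by omega, List.getElem?_eq_getElem hi]
  · rintro ⟨t, ht⟩ i hi
    rw [List.length_append] at hi
    rw [List.getElem?_append_right (i := i + P) (by omega), show i + P - v.length = i by omega,
      ← ht, List.getElem?_append_left (by omega)]

theorem thinHt_of_prefix {v : List α} (hv : 0 < v.length) (n : ℕ) : ∀ u : List α, u.length ≤ n →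
    u <+: v ++ u → ∃ j r, r < v.length ∧ u = (List.replicate j v).flatten ++ v.take r := by
  induction n with
  | zero =>
    intro u hu _
    exact ⟨0, 0, hv, by simpa using hu⟩
  | succ n ih =>
    intro u hu h
    by_cases hl : u.length < v.length
    · refine ⟨0, u.length, hl, ?_⟩
      have := List.prefix_of_prefix_length_le h (List.prefix_append v u) hl.le
      simpa using List.prefix_iff_eq_take.1 this
    · obtain ⟨u', rfl⟩ := List.prefix_of_prefix_length_le (List.prefix_append v u) h (not_lt.1 hl)
      rw [List.length_append] at hu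
      obtain ⟨j, r, hr, e⟩ := ih u' (by omega) ((List.prefix_append_right_inj v).1 h)
      refine ⟨j + 1, r, hr, ?_⟩
      rw [thinHt_pw_succ, List.append_assoc, ← e]

theorem thinHt_per_pw {P : ℕ} {v : List α} (hv : v.length = P) (j r : ℕ) :
    Per P ((List.replicate j v).flatten ++ v.take r) := by
  rcases j with _ | j
  · refine per_of_length ?_
    simp only [List.replicate_zero, List.flatten_nil, List.nil_append, List.length_take]
    omega
  · rw [thinHt_pw_succ, List.append_assoc, thinHt_per_iff hv, ← List.append_assoc,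
      ← thinHt_pw_succ, thinHt_pw_succ', List.append_assoc, List.prefix_append_right_inj]
    exact (List.take_prefix r v).trans (List.prefix_append _ _)

/-- Powers of one word `v` leading from `p` to `q`.  Proof: let `φ s = v.foldl δ s`; by pigeonhole
(`Finite.exists_ne_map_eq_of_infinite` on `j ↦ φ^[j] p`) there are `i₀` and `m > 0` with
`φ^[i₀ + m] p = φ^[i₀] p`, so `φ^[j + m] p = φ^[j] p` for `j ≥ i₀`.  The set is the union of the
finitely many `v^j` with `j < i₀`, `φ^[j] p = q`, and of the sets `cat {v^j} (star {v^m})` with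
`i₀ ≤ j < i₀ + m`, `φ^[j] p = q`. -/
theorem ht_pow [Finite σ] (δ : σ → α → σ) (v : List α) (p q : σ) :
    Ht 1 {w | (∃ j, w = (List.replicate j v).flatten) ∧ w.foldl δ p = q} := by
  set φ : σ → σ := fun s => v.foldl δ s with hφ
  obtain ⟨i₀, m, hm, hper⟩ : ∃ i₀ m, 0 < m ∧ Function.IsPeriodicPt φ m (φ^[i₀] p) := by
    obtain ⟨a, b, hab, h⟩ := Finite.exists_ne_map_eq_of_infinite fun j : ℕ => φ^[j] p
    have key : ∀ a b : ℕ, a < b → φ^[a] p = φ^[b] p →
        ∃ i₀ m, 0 < m ∧ Function.IsPeriodicPt φ m (φ^[i₀] p) := by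
      intro a b hab h
      refine ⟨a, b - a, by omega, ?_⟩
      change φ^[b - a] (φ^[a] p) = φ^[a] p
      rw [← Function.iterate_add_apply, Nat.sub_add_cancel hab.le, h]
    rcases lt_or_gt_of_ne hab with h' | h'
    · exact key a b h' h
    · exact key b a h' h.symm
  have hk : ∀ j k, φ^[j + k * (if j < i₀ then 0 else m)] p = φ^[j] p := by
    intro j k
    split_ifs with hj
    · rw [mul_zero, add_zero]
    · have h1 := ((hper.apply_iterate (j - i₀)).const_mul k).eq
      rw [← Function.iterate_add_apply φ (j - i₀), Nat.sub_add_cancel (not_lt.1 hj)] at h1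
      rw [add_comm, Function.iterate_add_apply, h1]
  have hfin : {j : ℕ | j < i₀ + m ∧ φ^[j] p = q}.Finite :=
    (Set.finite_lt_nat _).subset fun j hj => hj.1
  refine (ht_biUnion hfin (A := fun j => cat {(List.replicate j v).flatten}
    (star {(List.replicate (if j < i₀ then 0 else m) v).flatten}))
    fun j _ => (ht_word 1 _).cat (ht_word 0 _).star).congr fun w => ?_
  simp only [Set.mem_iUnion, exists_prop]
  constructor
  · rintro ⟨j, hj, u, rfl, u', hu', rfl⟩
    obtain ⟨k, rfl⟩ := thinHt_star.1 hu'
    rw [thinHt_pw_mul, ← thinHt_pw_add]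
    refine ⟨⟨_, rfl⟩, ?_⟩
    rw [thinHt_foldl, hk, hj.2]
  · rintro ⟨⟨n, rfl⟩, hn⟩
    rw [thinHt_foldl] at hn
    obtain ⟨j, k, hj, rfl⟩ : ∃ j k, j < i₀ + m ∧ n = j + k * (if j < i₀ then 0 else m) := by
      by_cases h : n < i₀
      · exact ⟨n, 0, by omega, by simp⟩
      · refine ⟨i₀ + (n - i₀) % m, (n - i₀) / m, by have := Nat.mod_lt (n - i₀) hm; omega, ?_⟩
        rw [if_neg (by omega), add_assoc, Nat.mod_add_div']
        omega
    rw [hk] at hn
    refine ⟨j, ⟨hj, hn⟩, _, rfl, _, thinHt_star.2 ⟨k, rfl⟩, ?_⟩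
    rw [thinHt_pw_mul, ← thinHt_pw_add]

/-- Periodic words leading from `p` to `q`.  Proof: a word `w` has period `P > 0` iff
`w.length < P` or `w = (List.replicate j v).flatten ++ v.take r` for some `v` of length `P`,
some `j` and `r < P` (take `v = w.take P`, `j = w.length / P`, `r = w.length % P`; the `i`-th
letter of such a word is `v[i % P]`).  There are finitely many short words, `v` and `r`
(`List.finite_length_le`, `List.finite_length_eq`); split at the state `q'` reached after
the power of `v` and use `ht_pow`, `Ht.cat`, `ht_finite`, `ht_biUnion`, `ht_iUnion`. -/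
theorem ht_per [Finite α] [Finite σ] (δ : σ → α → σ) {P : ℕ} (hP : 0 < P) (p q : σ) :
    Ht 1 {w | Per P w ∧ w.foldl δ p = q} := by
  have h1 : Ht 1 {w : List α | w.length < P ∧ w.foldl δ p = q} :=
    ht_finite 1 ((List.finite_length_lt α P).subset fun w hw => hw.1)
  have h2 : Ht 1 (⋃ v ∈ {v : List α | v.length = P}, ⋃ r ∈ {r | r < P}, ⋃ q' : σ,
      cat {w | (∃ j, w = (List.replicate j v).flatten) ∧ w.foldl δ p = q'}
        {w | w = v.take r ∧ w.foldl δ q' = q}) :=
    ht_biUnion (List.finite_length_eq α P) fun v _ => ht_biUnion (Set.finite_lt_nat P) fun r _ =>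
      ht_iUnion fun q' => (ht_pow δ v p q').cat
        (ht_finite 1 ((Set.finite_singleton (v.take r)).subset fun w hw => hw.1))
  refine (h1.union h2).congr fun w => ?_
  simp only [Set.mem_union, Set.mem_iUnion, exists_prop]
  constructor
  · rintro (⟨h, h'⟩ | ⟨v, hv, r, -, q', u, ⟨⟨j, rfl⟩, hu⟩, u', ⟨rfl, hu'⟩, rfl⟩)
    · exact ⟨per_of_length h.le, h'⟩
    · refine ⟨thinHt_per_pw hv j r, ?_⟩
      rw [List.foldl_append, hu, hu']
  · rintro ⟨h, h'⟩
    by_cases hl : w.length < P
    · exact Or.inl ⟨hl, h'⟩
    · have hv : (w.take P).length = P := by rw [List.length_take]; omega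
      rw [← List.take_append_drop P w] at h
      obtain ⟨j, r, hr, e⟩ := thinHt_of_prefix (by omega) _ _ le_rfl ((thinHt_per_iff hv).1 h)
      have e' : w = (List.replicate (j + 1) (w.take P)).flatten ++ (w.take P).take r := by
        rw [thinHt_pw_succ, List.append_assoc, ← e, List.take_append_drop]
      refine Or.inr ⟨w.take P, hv, r, hv ▸ hr, _, _, ⟨⟨j + 1, rfl⟩, rfl⟩, _, ⟨rfl, ?_⟩, e'⟩
      rw [← List.foldl_append, ← e', h']

/-- Thin words leading from `p` to `q`: induction on `n`, splitting at the intermediate state. -/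
theorem ht_thin_run [Finite α] [Finite σ] (δ : σ → α → σ) {P : ℕ} (hP : 0 < P) (n : ℕ)
    (p q : σ) : Ht 1 {w | Thin P n w ∧ w.foldl δ p = q} := by
  induction n generalizing p with
  | zero => exact ht_finite 1 ((Set.finite_singleton []).subset fun w hw => hw.1)
  | succ n ih =>
    refine (ht_iUnion fun q' : σ => (ht_per δ hP p q').cat (ih q')).congr fun w => ?_
    simp only [Set.mem_iUnion]
    constructor
    · rintro ⟨q', u, ⟨hu, hu'⟩, v, ⟨hv, hv'⟩, rfl⟩
      refine ⟨⟨u, v, rfl, hu, hv⟩, ?_⟩
      rw [List.foldl_append, hu', hv']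
    · rintro ⟨⟨u, v, rfl, hu, hv⟩, h⟩
      rw [List.foldl_append] at h
      exact ⟨_, u, ⟨hu, rfl⟩, v, ⟨hv, h⟩, rfl⟩

/-- The thin words themselves (use the one-state machine). -/
theorem ht_thin [Finite α] {P : ℕ} (hP : 0 < P) (n : ℕ) : Ht 1 {w : List α | Thin P n w} := by
  exact (ht_thin_run (σ := Unit) (fun _ _ => ()) hP n () ()).congr fun w =>
    ⟨fun h => h.1, fun h => ⟨h, rfl⟩⟩

end Crest.Agent.R320
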